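import Vale.Agent.H28.Cap

open Matrix Complex Set
open scoped ComplexOrder

namespace Vale.Agent.H28

theorem pairEnt_one (π : ℝ) : pairEnt 1 π = Real.binEntropy ((1 + √(1 - 4 * π)) / 2) := by
  rw [Real.binEntropy_eq_negMulLog_add_negMulLog_one_sub]
  unfold pairEnt rootP rootM
  have h : (1 : ℝ) ^ 2 - 4 * π = 1 - 4 * π := by ring
  rw [h]
  congr 2
  ring

theorem pairEnt_persp {κ p q : ℝ} (hp : 0 ≤ p) (hq : 0 ≤ q) :
    pairEnt (p + q) (κ * q ^ 2)
      = Real.negMulLog (p + q) + (p + q) * pairEnt 1 (κ * (q / (p + q)) ^ 2) := by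
  rcases (add_nonneg hp hq).eq_or_lt with h | h
  · have hq0 : q = 0 := by linarith
    have hp0 : p = 0 := by linarith
    rw [hq0, hp0]
    simp [pairEnt, rootP, rootM]
  · rw [← pairEnt_smul h.le]
    congr 1
    field_simp

theorem zclaim_zero {γ : ℝ} (hγ0 : 0 ≤ γ) (hγ1 : γ ≤ 1) :
    ZClaim γ 0 (fun q => pairEnt 1 (γ * (1 - γ) * q ^ 2)) := by
  intro n α Y β hρ
  have hα : α.PosSemidef := hρ.submatrix (Sum.inl : Bits n → Bits n ⊕ Bits n)
  have hβ : β.PosSemidef := hρ.submatrix (Sum.inr : Bits n → Bits n ⊕ Bits n)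
  have hp : 0 ≤ α.trace.re := (Complex.nonneg_iff.1 hα.trace_nonneg).1
  have hq : 0 ≤ β.trace.re := (Complex.nonneg_iff.1 hβ.trace_nonneg).1
  have key := zclaim hγ0 (by linarith : 0 ≤ 1 - γ) (by ring) hρ
  rw [pairEnt_persp hp hq] at key
  have e : outG γ 0 α Y β = outM γ (1 - γ) α Y β := by
    unfold outG outM
    congr 1 <;> simp
  rw [e]
  exact key

theorem zclaim_one {γ : ℝ} (hγ0 : 0 ≤ γ) (hγ1 : γ ≤ 1) :
    ZClaim γ 1 (fun q => pairEnt 1 (γ * (1 - γ) * (1 - q) ^ 2)) := by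
  intro n α Y β hρ
  have hα : α.PosSemidef := hρ.submatrix (Sum.inl : Bits n → Bits n ⊕ Bits n)
  have hβ : β.PosSemidef := hρ.submatrix (Sum.inr : Bits n → Bits n ⊕ Bits n)
  have hp : 0 ≤ α.trace.re := (Complex.nonneg_iff.1 hα.trace_nonneg).1
  have hq : 0 ≤ β.trace.re := (Complex.nonneg_iff.1 hβ.trace_nonneg).1
  have hρ' : (fromBlocks β Yᴴ Yᴴᴴ α).PosSemidef := by
    have := hρ.submatrix (Equiv.sumComm (Bits n) (Bits n))
    rw [Equiv.sumComm_apply, fromBlocks_submatrix_sum_swap_sum_swap] at this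
    rw [conjTranspose_conjTranspose]
    exact this
  have key := zclaim hγ0 (by linarith : 0 ≤ 1 - γ) (by ring) hρ'
  rw [pairEnt_persp hq hp] at key
  have e : outG γ 1 α Y β = (outM γ (1 - γ) β Yᴴ α).submatrix
      (Equiv.sumComm (Bits n) (Bits n)) (Equiv.sumComm (Bits n) (Bits n)) := by
    unfold outG outM
    rw [Equiv.sumComm_apply, fromBlocks_submatrix_sum_swap_sum_swap, conjTranspose_conjTranspose]
    congr 1
    · simp
    · simp [add_comm]
  rw [e, ent_submatrix]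
  rcases (add_nonneg hp hq).eq_or_lt with h | h
  · have hq0 : β.trace.re = 0 := by linarith
    have hp0 : α.trace.re = 0 := by linarith
    rw [hq0, hp0] at key ⊢
    simp only [add_zero, zero_mul] at key ⊢
    linarith
  · have e2 : 1 - β.trace.re / (α.trace.re + β.trace.re)
        = α.trace.re / (α.trace.re + β.trace.re) := by field_simp; ring
    simp only
    rw [e2, add_comm α.trace.re β.trace.re]
    linarith

theorem capacity_zero_one {γ ν : ℝ} (hγ : γ ∈ Icc (0 : ℝ) 1) (hν : ν = 0 ∨ ν = 1) :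
    (∀ n : ℕ, IsGreatest (holevoSet (tensorPow (gad γ ν) n)) (n * holevo (gad γ ν))) ∧
    rateSet (gad γ ν) = {holevo (gad γ ν)} ∧
    capacity (gad γ ν) = holevo (gad γ ν) ∧
    IsGreatest ((fun q : ℝ => (Real.binEntropy ((1 - γ) * q)
      - Real.binEntropy ((1 + √(1 - 4 * γ * (1 - γ) * q ^ 2)) / 2)) / Real.log 2) ''
      Icc 0 1) (capacity (gad γ ν)) := by
  obtain ⟨hγ0, hγ1⟩ := hγ
  have hκ0 : 0 ≤ γ * (1 - γ) := mul_nonneg hγ0 (by linarith)
  have hκ1 : 4 * (γ * (1 - γ)) ≤ 1 := by nlinarith [sq_nonneg (2 * γ - 1)]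
  have hconv := g_convex hκ0 hκ1
  have hform : ∀ q : ℝ, pairEnt 1 (γ * (1 - γ) * q ^ 2)
      = Real.binEntropy ((1 + √(1 - 4 * γ * (1 - γ) * q ^ 2)) / 2) := by
    intro q
    rw [pairEnt_one]
    congr 4
    ring
  rcases hν with rfl | rfl
  · obtain ⟨h1, h2, h3, h4⟩ := additivity hγ0 hγ1 le_rfl zero_le_one hconv
      (zclaim_zero hγ0 hγ1) (fun q => by congr 1; ring)
    refine ⟨h1, h2, h3, ?_⟩
    have himg : (fun q : ℝ => (Real.binEntropy ((1 - γ) * q)
        - Real.binEntropy ((1 + √(1 - 4 * γ * (1 - γ) * q ^ 2)) / 2)) / Real.log 2)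
        = (fun q : ℝ => (Real.binEntropy (γ * 0 + (1 - γ) * q)
          - pairEnt 1 (γ * (1 - γ) * q ^ 2)) / Real.log 2) := by
      funext q
      rw [hform q]
      simp
    rw [himg]
    exact h4
  · have hconv' : ConvexOn ℝ (Icc 0 1) (fun q : ℝ => pairEnt 1 (γ * (1 - γ) * (1 - q) ^ 2)) := by
      refine ⟨convex_Icc 0 1, ?_⟩
      intro x hx y hy a b ha hb hab
      have hx' : 1 - x ∈ Icc (0 : ℝ) 1 := ⟨by linarith [hx.2], by linarith [hx.1]⟩
      have hy' : 1 - y ∈ Icc (0 : ℝ) 1 := ⟨by linarith [hy.2], by linarith [hy.1]⟩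
      have := hconv.2 hx' hy' ha hb hab
      simp only [smul_eq_mul] at this ⊢
      have e : 1 - (a * x + b * y) = a * (1 - x) + b * (1 - y) := by
        have : a = 1 - b := by linarith
        rw [this]; ring
      rw [e]
      exact this
    obtain ⟨h1, h2, h3, h4⟩ := additivity hγ0 hγ1 zero_le_one le_rfl hconv'
      (zclaim_one hγ0 hγ1) (fun q => by congr 1; ring)
    refine ⟨h1, h2, h3, ?_⟩
    have himg : (fun q : ℝ => (Real.binEntropy ((1 - γ) * q)
        - Real.binEntropy ((1 + √(1 - 4 * γ * (1 - γ) * q ^ 2)) / 2)) / Real.log 2) '' Icc 0 1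
        = (fun q : ℝ => (Real.binEntropy (γ * 1 + (1 - γ) * q)
          - pairEnt 1 (γ * (1 - γ) * (1 - q) ^ 2)) / Real.log 2) '' Icc 0 1 := by
      have hpt : ∀ q : ℝ, (Real.binEntropy ((1 - γ) * (1 - q))
          - Real.binEntropy ((1 + √(1 - 4 * γ * (1 - γ) * (1 - q) ^ 2)) / 2)) / Real.log 2
          = (Real.binEntropy (γ * 1 + (1 - γ) * q)
          - pairEnt 1 (γ * (1 - γ) * (1 - q) ^ 2)) / Real.log 2 := by
        intro q
        rw [hform, ← Real.binEntropy_one_sub (γ * 1 + (1 - γ) * q)]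
        congr 3
        ring
      ext r
      constructor
      · rintro ⟨q, hq, rfl⟩
        refine ⟨1 - q, ⟨by linarith [hq.2], by linarith [hq.1]⟩, ?_⟩
        have := (hpt (1 - q)).symm
        simpa using this
      · rintro ⟨q, hq, rfl⟩
        refine ⟨1 - q, ⟨by linarith [hq.2], by linarith [hq.1]⟩, ?_⟩
        exact hpt q
    rw [himg]
    exact h4

end Vale.Agent.H28
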