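import Vale.Agent.H28.G1

open Matrix Complex
open scoped ComplexOrder

namespace Vale.Agent.H28

variable {X : Type*} [Fintype X] [DecidableEq X]

theorem posDef_fromBlocks_diag {Y : Type*} [Fintype Y] [DecidableEq Y] {P : Matrix X X ℂ}
    {Q : Matrix Y Y ℂ} (hP : P.PosDef) (hQ : Q.PosDef) : (fromBlocks P 0 0 Q).PosDef := by
  apply PosDef.of_dotProduct_mulVec_pos
  · rw [isHermitian_fromBlocks_iff]
    exact ⟨hP.isHermitian, by simp, by simp, hQ.isHermitian⟩
  · intro x hx
    have e : star x ⬝ᵥ (fromBlocks P 0 0 Q *ᵥ x)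
        = star (x ∘ Sum.inl) ⬝ᵥ (P *ᵥ (x ∘ Sum.inl)) + star (x ∘ Sum.inr) ⬝ᵥ (Q *ᵥ (x ∘ Sum.inr)) := by
      rw [fromBlocks_mulVec]
      simp [dotProduct, Fintype.sum_sum_type]
    rw [e]
    by_cases h1 : x ∘ Sum.inl = 0
    · have h2 : x ∘ Sum.inr ≠ 0 := by
        intro h2
        apply hx
        funext i
        rcases i with i | i
        · exact congrFun h1 i
        · exact congrFun h2 i
      exact add_pos_of_nonneg_of_pos (hP.posSemidef.dotProduct_mulVec_nonneg _)
        (hQ.dotProduct_mulVec_pos h2)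
    · exact add_pos_of_pos_of_nonneg (hP.dotProduct_mulVec_pos h1)
        (hQ.posSemidef.dotProduct_mulVec_nonneg _)

theorem pd_diag_re {P : Matrix X X ℂ} (hP : P.PosDef) (k : X) :
    P k k = ((P k k).re : ℂ) ∧ 0 < (P k k).re := by
  obtain ⟨h1, h2⟩ := Complex.pos_iff.1 (hP.diag_pos (i := k))
  exact ⟨by apply Complex.ext <;> simp [← h2], h1⟩

theorem pd_det_re {P : Matrix X X ℂ} (hP : P.PosDef) :
    P.det = (P.det.re : ℂ) ∧ 0 < P.det.re := by
  obtain ⟨h1, h2⟩ := Complex.pos_iff.1 hP.det_pos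
  exact ⟨by apply Complex.ext <;> simp [← h2], h1⟩

/-- the two-matrix determinant inequality -/
theorem star3 {P Q : Matrix X X ℂ} (hP : P.PosDef) (hQ : Q.PosDef) (a : X → ℝ) :
    P.det.re * ∏ k, (1 + a k ^ 2 / ((P k k).re * (Q k k).re))
      ≤ (P + diagonal (fun k => (a k : ℂ)) * Q⁻¹ * diagonal (fun k => (a k : ℂ))).det.re := by
  set A : Matrix X X ℂ := diagonal (fun k => (a k : ℂ)) with hA
  set p : X → ℝ := fun k => (P k k).re with hp
  set q : X → ℝ := fun k => (Q k k).re with hq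
  have hp0 : ∀ k, 0 < p k := fun k => (pd_diag_re hP k).2
  have hq0 : ∀ k, 0 < q k := fun k => (pd_diag_re hQ k).2
  set t : X → ℝ := fun k => Real.sqrt (Real.sqrt (q k / p k)) with ht
  have ht0 : ∀ k, 0 < t k := fun k => Real.sqrt_pos.2 (Real.sqrt_pos.2 (div_pos (hq0 k) (hp0 k)))
  have ht4 : ∀ k, (t k ^ 2) ^ 2 = q k / p k := by
    intro k
    rw [ht]
    simp only
    rw [Real.sq_sqrt (Real.sqrt_nonneg _), Real.sq_sqrt (div_pos (hq0 k) (hp0 k)).le]
  set T : Matrix X X ℂ := diagonal (fun k => (t k : ℂ)) with hT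
  set Ti : Matrix X X ℂ := diagonal (fun k => ((t k)⁻¹ : ℂ)) with hTi
  have htc : ∀ k, (t k : ℂ) ≠ 0 := fun k => by
    exact_mod_cast (ht0 k).ne'
  have hTTi : T * Ti = 1 := by
    rw [hT, hTi, diagonal_mul_diagonal]
    rw [← diagonal_one]
    congr 1
    funext k
    exact mul_inv_cancel₀ (htc k)
  have hTiT : Ti * T = 1 := by
    rw [hT, hTi, diagonal_mul_diagonal]
    rw [← diagonal_one]
    congr 1
    funext k
    exact inv_mul_cancel₀ (htc k)
  have hTh : Tᴴ = T := by
    rw [hT, diagonal_conjTranspose]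
    congr 1
    funext k
    simp
  have hTih : Tiᴴ = Ti := by
    rw [hTi, diagonal_conjTranspose]
    congr 1
    funext k
    simp
  set S : Matrix (X ⊕ X) (X ⊕ X) ℂ := fromBlocks T Ti T (-Ti) with hS
  have hSunit : IsUnit S := by
    have : S * ((1 / 2 : ℂ) • fromBlocks Ti Ti T (-T)) = 1 := by
      rw [hS, Matrix.mul_smul, fromBlocks_multiply, hTTi, hTiT]
      simp only [mul_neg, neg_mul, hTTi, hTiT, neg_neg, add_neg_cancel]
      rw [fromBlocks_smul, ← fromBlocks_one]
      congr 1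
      · rw [← two_smul ℂ (1 : Matrix X X ℂ), smul_smul]; norm_num
      · simp
      · simp
      · rw [← two_smul ℂ (1 : Matrix X X ℂ), smul_smul]; norm_num
    exact IsUnit.of_mul_eq_one _ this
  set N0 : Matrix (X ⊕ X) (X ⊕ X) ℂ := fromBlocks P 0 0 Q with hN0
  set N1 : Matrix (X ⊕ X) (X ⊕ X) ℂ := fromBlocks P (I • A) (I • A) Q with hN1
  have hN0p : N0.PosDef := posDef_fromBlocks_diag hP hQ
  set H : Matrix (X ⊕ X) (X ⊕ X) ℂ := S * N0 * Sᴴ with hH
  have hHp : H.PosDef := by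
    rw [hH, ← star_eq_conjTranspose]
    exact (Matrix.IsUnit.posDef_star_right_conjugate_iff hSunit).2 hN0p
  have hSh : Sᴴ = fromBlocks T T Ti (-Ti) := by
    rw [hS, fromBlocks_conjTranspose, conjTranspose_neg, hTh, hTih]
  have hHe : H = fromBlocks (T * P * T + Ti * Q * Ti) (T * P * T - Ti * Q * Ti)
      (T * P * T - Ti * Q * Ti) (T * P * T + Ti * Q * Ti) := by
    rw [hH, hSh, hS, hN0, fromBlocks_multiply, fromBlocks_multiply]
    simp only [mul_zero, add_zero, zero_add, neg_mul, mul_neg, neg_neg, sub_eq_add_neg]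
  set l : X ⊕ X → ℝ := Sum.elim (fun k => 2 * a k) (fun k => -(2 * a k)) with hl
  have hcomm : Ti * A * T = A := by
    rw [hTi, hA, hT, diagonal_mul_diagonal, diagonal_mul_diagonal]
    congr 1
    funext k
    field_simp [htc k]
  have hcomm2 : T * A * Ti = A := by
    rw [hTi, hA, hT, diagonal_mul_diagonal, diagonal_mul_diagonal]
    congr 1
    funext k
    field_simp [htc k]
  have hHL : H + diagonal (fun k => (l k : ℂ) * I) = S * N1 * Sᴴ := by
    have e1 : S * N1 * Sᴴ = H + S * fromBlocks 0 (I • A) (I • A) 0 * Sᴴ := by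
      rw [hH, ← add_mul, ← mul_add, hN0, hN1, fromBlocks_add]
      simp
    have e2 : S * fromBlocks 0 (I • A) (I • A) 0 * Sᴴ = diagonal (fun k => (l k : ℂ) * I) := by
      have e3 : (diagonal (fun k => (l k : ℂ) * I) : Matrix (X ⊕ X) (X ⊕ X) ℂ)
          = fromBlocks ((2 * I) • A) 0 0 (-((2 * I) • A)) := by
        ext i j
        rcases i with i | i <;> rcases j with j | j
        · by_cases hij : i = j
          · subst hij; simp [hl, hA]; ring
          · simp [hij, hA]
        · simp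
        · simp
        · by_cases hij : i = j
          · subst hij; simp [hl, hA]; ring
          · simp [hij, hA]
      rw [e3, hSh, hS, fromBlocks_multiply, fromBlocks_multiply]
      simp only [mul_zero, add_zero, zero_add, neg_mul, mul_neg, neg_neg, Matrix.mul_smul,
        Matrix.smul_mul, hcomm, hcomm2]
      congr 1
      · rw [mul_smul, two_smul]
      · simp
      · simp
      · rw [mul_smul, two_smul]; simp [neg_add]
    rw [e1, e2]
  have hG := G1 H hHp l
  rw [hHL] at hG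
  have hdS : 0 < ‖S.det‖ * ‖Sᴴ.det‖ := by
    have h1 : S.det ≠ 0 := ((Matrix.isUnit_iff_isUnit_det S).1 hSunit).ne_zero
    have h2 : Sᴴ.det ≠ 0 := by
      rw [det_conjTranspose]; simpa using h1
    positivity
  rw [hH, det_mul, det_mul, det_mul, det_mul, norm_mul, norm_mul, norm_mul, norm_mul, ← hH] at hG
  have hN0d : ‖N0.det‖ = P.det.re * Q.det.re := by
    rw [hN0, det_fromBlocks_zero₂₁, norm_mul, (pd_det_re hP).1, (pd_det_re hQ).1,
      Complex.norm_real, Complex.norm_real, Real.norm_of_nonneg (pd_det_re hP).2.le,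
      Real.norm_of_nonneg (pd_det_re hQ).2.le]
    simp
  have : Invertible Q := hQ.isUnit.invertible
  set F := P + A * Q⁻¹ * A with hF
  have hFp : F.PosDef := by
    have hAh : A = Aᴴ := by
      rw [hA, diagonal_conjTranspose]
      congr 1
      funext k
      simp
    have : (A * Q⁻¹ * A).PosSemidef := by
      have := hQ.inv.posSemidef.mul_mul_conjTranspose_same A
      rwa [← hAh] at this
    exact hP.add_posSemidef this
  have hN1d : ‖N1.det‖ = Q.det.re * F.det.re := by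
    have e : N1.det = Q.det * F.det := by
      rw [hN1, det_fromBlocks₂₂, invOf_eq_nonsing_inv]
      congr 2
      rw [hF, Matrix.smul_mul, Matrix.smul_mul, Matrix.mul_smul, smul_smul, I_mul_I]
      simp
    rw [e, norm_mul, (pd_det_re hQ).1, (pd_det_re hFp).1, Complex.norm_real, Complex.norm_real,
      Real.norm_of_nonneg (pd_det_re hFp).2.le, Real.norm_of_nonneg (pd_det_re hQ).2.le]
    simp
  rw [hN0d, hN1d] at hG
  -- diagonal entries
  set m : X → ℝ := fun k => 2 * (t k ^ 2 * p k) with hm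
  have hm2 : ∀ k, m k ^ 2 = 4 * (p k * q k) := by
    intro k
    have := ht4 k
    rw [hm]
    simp only
    have h1 : (2 * (t k ^ 2 * p k)) ^ 2 = 4 * ((t k ^ 2) ^ 2 * p k ^ 2) := by ring
    rw [h1, this]
    have := (hp0 k).ne'
    field_simp
  have hm0 : ∀ k, 0 < m k := by
    intro k
    have := ht0 k
    have := hp0 k
    rw [hm]
    positivity
  have hmid : ∀ k, t k ^ 2 * p k + (t k)⁻¹ ^ 2 * q k = m k := by
    intro k
    have h1 := ht4 k
    have h2 : q k = (t k ^ 2) ^ 2 * p k := by rw [h1]; field_simp [(hp0 k).ne']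
    have h3 := (ht0 k).ne'
    rw [h2, hm]
    simp only
    field_simp
    ring
  have hHd : ∀ k : X, (T * P * T + Ti * Q * Ti) k k = (m k : ℂ) := by
    intro k
    rw [Matrix.add_apply, hT, hTi, mul_diagonal, diagonal_mul, mul_diagonal, diagonal_mul,
      (pd_diag_re hP k).1, (pd_diag_re hQ k).1, ← hmid k]
    push_cast
    ring
  have hHin : ∀ k : X, H (Sum.inl k) (Sum.inl k) = (m k : ℂ) := by
    intro k; rw [hHe]; exact hHd k
  have hHir : ∀ k : X, H (Sum.inr k) (Sum.inr k) = (m k : ℂ) := by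
    intro k; rw [hHe]; exact hHd k
  have hprod1 : (∏ k, ‖H k k + (l k : ℂ) * I‖) = ∏ k : X, (m k ^ 2 + (2 * a k) ^ 2) := by
    rw [Fintype.prod_sum_type, ← Finset.prod_mul_distrib]
    apply Finset.prod_congr rfl
    intro k _
    rw [hHin, hHir]
    simp only [hl, Sum.elim_inl, Sum.elim_inr]
    have h1 : ‖(m k : ℂ) + ((2 * a k : ℝ) : ℂ) * I‖ = Real.sqrt (m k ^ 2 + (2 * a k) ^ 2) := by
      rw [Complex.norm_add_mul_I]
    have h2 : ‖(m k : ℂ) + ((-(2 * a k) : ℝ) : ℂ) * I‖ = Real.sqrt (m k ^ 2 + (2 * a k) ^ 2) := by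
      rw [Complex.norm_add_mul_I]; congr 1; ring
    rw [h1, h2, Real.mul_self_sqrt (by positivity)]
  have hprod2 : (∏ k, ‖H k k‖) = ∏ k : X, m k ^ 2 := by
    rw [Fintype.prod_sum_type, ← Finset.prod_mul_distrib]
    apply Finset.prod_congr rfl
    intro k _
    rw [hHin, hHir, Complex.norm_real, Real.norm_of_nonneg (hm0 k).le]
    ring
  rw [hprod1, hprod2] at hG
  have hQd := (pd_det_re hQ).2
  have hPd := (pd_det_re hP).2
  have hG2 : (∏ k : X, (m k ^ 2 + (2 * a k) ^ 2)) * P.det.re ≤ F.det.re * ∏ k : X, m k ^ 2 := by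
    have e1 : (∏ k : X, (m k ^ 2 + (2 * a k) ^ 2)) * (‖S.det‖ * (P.det.re * Q.det.re) * ‖Sᴴ.det‖)
        = (‖S.det‖ * ‖Sᴴ.det‖ * Q.det.re) * ((∏ k : X, (m k ^ 2 + (2 * a k) ^ 2)) * P.det.re) := by
      ring
    have e2 : ‖S.det‖ * (Q.det.re * F.det.re) * ‖Sᴴ.det‖ * ∏ k : X, m k ^ 2
        = (‖S.det‖ * ‖Sᴴ.det‖ * Q.det.re) * (F.det.re * ∏ k : X, m k ^ 2) := by
      ring
    rw [e1, e2] at hG
    exact le_of_mul_le_mul_left hG (by positivity)
  have hprod3 : (∏ k : X, (m k ^ 2 + (2 * a k) ^ 2))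
      = (∏ k : X, m k ^ 2) * ∏ k, (1 + a k ^ 2 / (p k * q k)) := by
    rw [← Finset.prod_mul_distrib]
    apply Finset.prod_congr rfl
    intro k _
    rw [hm2 k]
    have := (hp0 k).ne'
    have := (hq0 k).ne'
    field_simp
    ring
  rw [hprod3] at hG2
  have hmp : 0 < ∏ k : X, m k ^ 2 := Finset.prod_pos fun k _ => by have := hm0 k; positivity
  have : (∏ k : X, m k ^ 2) * (P.det.re * ∏ k, (1 + a k ^ 2 / (p k * q k)))
      ≤ (∏ k : X, m k ^ 2) * F.det.re := by
    calc _ = ((∏ k : X, m k ^ 2) * ∏ k, (1 + a k ^ 2 / (p k * q k))) * P.det.re := by ring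
      _ ≤ _ := hG2
      _ = _ := by ring
  exact le_of_mul_le_mul_left this hmp

end Vale.Agent.H28
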