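import Vale.Agent.H28.Ent
import Vale.Agent.H28.Star3

open Matrix Complex
open scoped ComplexOrder

namespace Vale.Agent.H28

variable {X : Type*} [Fintype X] [DecidableEq X]

theorem posDef_factor {F : Matrix X X ℂ} (hF : F.PosDef) :
    ∃ R R' : Matrix X X ℂ, R * R' = 1 ∧ R' * R = 1 ∧ F = R * Rᴴ := by
  obtain ⟨U, h1, h2, h3⟩ := spectral' hF.isHermitian
  set lam := hF.isHermitian.eigenvalues with hlam
  have hpos : ∀ i, 0 < lam i := hF.eigenvalues_pos
  have hs : ∀ i, (Real.sqrt (lam i) : ℂ) ≠ 0 := fun i => by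
    exact_mod_cast (Real.sqrt_pos.2 (hpos i)).ne'
  refine ⟨U * diagonal (fun i => (Real.sqrt (lam i) : ℂ)),
    diagonal (fun i => ((Real.sqrt (lam i) : ℂ))⁻¹) * Uᴴ, ?_, ?_, ?_⟩
  · rw [Matrix.mul_assoc, ← Matrix.mul_assoc (diagonal _) (diagonal _), diagonal_mul_diagonal]
    have : (diagonal fun i => (Real.sqrt (lam i) : ℂ) * ((Real.sqrt (lam i) : ℂ))⁻¹)
        = (1 : Matrix X X ℂ) := by
      rw [← diagonal_one]
      congr 1
      funext i
      exact mul_inv_cancel₀ (hs i)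
    rw [this, Matrix.one_mul, h2]
  · rw [Matrix.mul_assoc, ← Matrix.mul_assoc Uᴴ, h1, Matrix.one_mul, diagonal_mul_diagonal]
    rw [← diagonal_one]
    congr 1
    funext i
    exact inv_mul_cancel₀ (hs i)
  · rw [conjTranspose_mul, diagonal_conjTranspose, Matrix.mul_assoc,
      ← Matrix.mul_assoc (diagonal _) (diagonal _), diagonal_mul_diagonal]
    conv_lhs => rw [h3]
    rw [Matrix.mul_assoc]
    congr 3
    funext i
    simp only [Pi.star_apply]
    rw [show star ((Real.sqrt (lam i) : ℂ)) = (Real.sqrt (lam i) : ℂ) by simp,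
      ← Complex.ofReal_mul, Real.mul_self_sqrt (hpos i).le]

theorem det_mono {F Z : Matrix X X ℂ} (hF : F.PosDef) (hZ : Z.PosSemidef) :
    F.det.re ≤ (F + Z).det.re := by
  obtain ⟨R, R', h1, h2, h3⟩ := posDef_factor hF
  set Z' := R' * Z * R'ᴴ with hZ'
  have hZ'p : Z'.PosSemidef := hZ.mul_mul_conjTranspose_same R'
  have e : F + Z = R * (((1 : ℝ) : ℂ) • (1 : Matrix X X ℂ) + Z') * Rᴴ := by
    have h4 : R'ᴴ * Rᴴ = 1 := by rw [← conjTranspose_mul, h1, conjTranspose_one]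
    rw [hZ', mul_add, add_mul]
    simp only [Complex.ofReal_one, one_smul, Matrix.mul_one]
    rw [← h3]
    congr 1
    calc Z = (R * R') * Z * (R'ᴴ * Rᴴ) := by rw [h1, h4]; simp
      _ = _ := by simp only [Matrix.mul_assoc]
  have hd : (((1 : ℝ) : ℂ) • (1 : Matrix X X ℂ) + Z').det
      = ((∏ i, (1 + hZ'p.isHermitian.eigenvalues i) : ℝ) : ℂ) := det_add_eq hZ'p.isHermitian 1
  have h1' : 1 ≤ ∏ i, (1 + hZ'p.isHermitian.eigenvalues i) := by
    calc (1 : ℝ) = ∏ _i : X, (1 : ℝ) := by simp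
      _ ≤ _ := Finset.prod_le_prod (fun _ _ => zero_le_one)
        (fun i _ => by linarith [hZ'p.eigenvalues_nonneg i])
  have hFd : F.det = R.det * Rᴴ.det := by
    conv_lhs => rw [h3, det_mul]
  have hFZ : (F + Z).det = F.det * ((∏ i, (1 + hZ'p.isHermitian.eigenvalues i) : ℝ) : ℂ) := by
    rw [e, det_mul, det_mul, hd, hFd]
    ring
  have hFr := pd_det_re hF
  rw [hFZ, hFr.1, ← Complex.ofReal_mul, Complex.ofReal_re, Complex.ofReal_re]
  nlinarith [hFr.2]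

theorem posSemidef_col_zero {M : Matrix X X ℂ} (hM : M.PosSemidef) {i : X} (hi : M i i = 0)
    (j : X) : M j i = 0 := by
  have h := (hM.dotProduct_mulVec_zero_iff (Pi.single i 1)).1 (by
    rw [mulVec_single_one]
    simp [hi])
  have := congrFun h j
  rw [mulVec_single_one] at this
  simpa using this

theorem smul_one_posDef {s : ℝ} (hs : 0 < s) : ((s : ℂ) • (1 : Matrix X X ℂ)).PosDef := by
  have : (0 : ℂ) < (s : ℂ) := by exact_mod_cast hs
  exact Matrix.PosDef.one.smul this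

theorem smul_posSemidef {M : Matrix X X ℂ} (hM : M.PosSemidef) {c : ℝ} (hc : 0 ≤ c) :
    ((c : ℂ) • M).PosSemidef := by
  have : (0 : ℂ) ≤ (c : ℂ) := by exact_mod_cast hc
  exact hM.smul this

/-- order reversal under congruence: if `K ≥ K₀ > 0` then `Y K₀⁻¹ Yᴴ ≥ Y K⁻¹ Yᴴ`. -/
theorem inv_anti {K0 Z : Matrix X X ℂ} (hK : K0.PosDef) (hZ : Z.PosSemidef) (Y : Matrix X X ℂ) :
    (Y * K0⁻¹ * Yᴴ - Y * (K0 + Z)⁻¹ * Yᴴ).PosSemidef := by
  have hK1 : (K0 + Z).PosDef := hK.add_posSemidef hZ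
  have : Invertible K0 := hK.isUnit.invertible
  have : Invertible (K0 + Z) := hK1.isUnit.invertible
  have h1 : (fromBlocks (Y * K0⁻¹ * Yᴴ) Y Yᴴ K0).PosSemidef := by
    rw [PosDef.fromBlocks₂₂ _ _ hK]
    simp [Matrix.PosSemidef.zero]
  have h2 : (fromBlocks (0 : Matrix X X ℂ) (0 : Matrix X X ℂ) 0 Z).PosSemidef := by
    have := hZ.conjTranspose_mul_mul_same (Matrix.of fun (i : X) (j : X ⊕ X) =>
      Sum.elim (fun _ => (0 : ℂ)) (fun k => (1 : Matrix X X ℂ) i k) j)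
    convert this using 1
    ext i j
    rcases i with i | i <;> rcases j with j | j <;>
      simp [Matrix.mul_apply, Matrix.one_apply]
  have h3 : (fromBlocks (Y * K0⁻¹ * Yᴴ) Y Yᴴ (K0 + Z)).PosSemidef := by
    have := h1.add h2
    rw [fromBlocks_add] at this
    simpa using this
  rwa [PosDef.fromBlocks₂₂ _ _ hK1] at h3

/-- push-through identity -/
theorem push_id {s η : ℝ} (hs : 0 < s) (hη : 0 ≤ η) (W : Matrix X X ℂ) :
    (η : ℂ) • (W * ((s : ℂ) • (1 : Matrix X X ℂ) + (η : ℂ) • (Wᴴ * W))⁻¹ * Wᴴ)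
      = 1 - (1 + ((η / s : ℝ) : ℂ) • (W * Wᴴ))⁻¹ := by
  set K0 := (s : ℂ) • (1 : Matrix X X ℂ) + (η : ℂ) • (Wᴴ * W) with hK0
  set Q := (1 : Matrix X X ℂ) + ((η / s : ℝ) : ℂ) • (W * Wᴴ) with hQ
  have hK0p : K0.PosDef :=
    (smul_one_posDef hs).add_posSemidef (smul_posSemidef (posSemidef_conjTranspose_mul_self W) hη)
  have hQp : Q.PosDef :=
    Matrix.PosDef.one.add_posSemidef
      (smul_posSemidef (posSemidef_self_mul_conjTranspose W) (div_nonneg hη hs.le))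
  have uK : IsUnit K0.det := (Matrix.isUnit_iff_isUnit_det _).1 hK0p.isUnit
  have uQ : IsUnit Q.det := (Matrix.isUnit_iff_isUnit_det _).1 hQp.isUnit
  have hsc : (s : ℂ) ≠ 0 := by exact_mod_cast hs.ne'
  -- `Q W = s⁻¹ W K0`
  have h1 : Q * W = (s : ℂ)⁻¹ • (W * K0) := by
    rw [hQ, hK0, add_mul, Matrix.mul_add, one_mul, smul_add, Matrix.mul_smul, smul_smul,
      inv_mul_cancel₀ hsc, Matrix.mul_one, one_smul, Matrix.smul_mul, Matrix.mul_smul, smul_smul,
      Matrix.mul_assoc]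
    push_cast
    congr 2
    field_simp
  have h2 : Q * (W * K0⁻¹ * Wᴴ) = (s : ℂ)⁻¹ • (W * Wᴴ) := by
    rw [← Matrix.mul_assoc, ← Matrix.mul_assoc, h1, Matrix.smul_mul, Matrix.smul_mul,
      Matrix.mul_assoc W, Matrix.mul_nonsing_inv _ uK, Matrix.mul_one]
  have h3 : Q * ((η : ℂ) • (W * K0⁻¹ * Wᴴ)) = Q - 1 := by
    rw [Matrix.mul_smul, h2, hQ, smul_smul]
    push_cast
    rw [div_eq_mul_inv]
    simp
  have h4 : (η : ℂ) • (W * K0⁻¹ * Wᴴ) = Q⁻¹ * (Q - 1) := by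
    rw [← h3, ← Matrix.mul_assoc, Matrix.nonsing_inv_mul _ uQ, Matrix.one_mul]
  rw [h4, mul_sub, Matrix.nonsing_inv_mul _ uQ, Matrix.mul_one]

end Vale.Agent.H28
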