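import Vale.Agent.H28.Block

open Matrix Complex
open scoped ComplexOrder

namespace Vale.Agent.H28

variable {X : Type*} [Fintype X] [DecidableEq X]

/-- Structure of a positive semidefinite block matrix with diagonal upper-left block. -/
theorem block_factor {a : X → ℝ} {Y β : Matrix X X ℂ}
    (hρ : (fromBlocks (diagonal (fun k => (a k : ℂ))) Y Yᴴ β).PosSemidef) :
    ∃ W : Matrix X X ℂ, Y = diagonal (fun k => (Real.sqrt (a k) : ℂ)) * W ∧
      (β - Wᴴ * W).PosSemidef := by
  have ha : ∀ k, 0 ≤ a k := by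
    intro k
    have := hρ.diag_nonneg (i := Sum.inl k)
    simp at this
    exact_mod_cast this
  set Ai : Matrix X X ℂ := diagonal (fun k => ((Real.sqrt (a k))⁻¹ : ℝ) : X → ℂ) with hAi
  set A : Matrix X X ℂ := diagonal (fun k => (Real.sqrt (a k) : ℂ)) with hA
  have hrow : ∀ k j, a k = 0 → Y k j = 0 := by
    intro k j hk
    have h := posSemidef_col_zero hρ (i := Sum.inl k) (by simp [hk]) (Sum.inr j)
    simp at h
    exact h
  have hAh : Aiᴴ = Ai := by
    rw [hAi, diagonal_conjTranspose]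
    congr 1
    funext k
    simp
  have hY : Y = A * (Ai * Y) := by
    rw [← Matrix.mul_assoc, hA, hAi, diagonal_mul_diagonal]
    ext k j
    rw [diagonal_mul]
    rcases (ha k).eq_or_lt with h | h
    · rw [hrow k j h.symm]; simp
    · have : (Real.sqrt (a k) : ℂ) * (((Real.sqrt (a k))⁻¹ : ℝ) : ℂ) = 1 := by
        rw [← Complex.ofReal_mul, mul_inv_cancel₀ (Real.sqrt_pos.2 h).ne', Complex.ofReal_one]
      rw [this, one_mul]
  refine ⟨Ai * Y, hY, ?_⟩
  -- conjugate by the column `(-Ai W, 1)`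
  set W := Ai * Y with hW
  set C : Matrix (X ⊕ X) X ℂ := Matrix.of (fun i j => Sum.elim (fun k => (-(Ai * W)) k j)
    (fun k => (1 : Matrix X X ℂ) k j) i) with hC
  have h := hρ.conjTranspose_mul_mul_same C
  have hPi : diagonal (fun k => (a k : ℂ)) * Ai * Ai * Y = Y := by
    rw [hAi, diagonal_mul_diagonal, diagonal_mul_diagonal]
    ext k j
    rw [diagonal_mul]
    rcases (ha k).eq_or_lt with h | h
    · rw [hrow k j h.symm]; simp
    · have : (a k : ℂ) * (((Real.sqrt (a k))⁻¹ : ℝ) : ℂ) * (((Real.sqrt (a k))⁻¹ : ℝ) : ℂ) = 1 := by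
        rw [← Complex.ofReal_mul, ← Complex.ofReal_mul]
        have hs := Real.mul_self_sqrt (ha k)
        have hp := (Real.sqrt_pos.2 h).ne'
        have : a k * (Real.sqrt (a k))⁻¹ * (Real.sqrt (a k))⁻¹ = 1 := by
          field_simp
          nlinarith
        rw [this, Complex.ofReal_one]
      rw [this, one_mul]
  have hcomp : Cᴴ * fromBlocks (diagonal (fun k => (a k : ℂ))) Y Yᴴ β * C = β - Wᴴ * W := by
    have e1 : fromBlocks (diagonal (fun k => (a k : ℂ))) Y Yᴴ β * C
        = Matrix.of (fun i j => Sum.elim (fun k => (-(diagonal (fun k => (a k : ℂ)) * (Ai * W)) + Y) k j)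
          (fun k => (-(Yᴴ * (Ai * W)) + β) k j) i) := by
      ext i j
      rcases i with i | i
      · simp only [Matrix.mul_apply, Fintype.sum_sum_type, hC, Matrix.of_apply, Sum.elim_inl,
          Sum.elim_inr, fromBlocks_apply₁₁, fromBlocks_apply₁₂, Matrix.neg_apply, Matrix.add_apply,
          mul_neg, Finset.sum_neg_distrib, Matrix.one_apply, mul_ite, mul_one, mul_zero,
          Finset.sum_ite_eq', Finset.mem_univ, if_true]
      · simp only [Matrix.mul_apply, Fintype.sum_sum_type, hC, Matrix.of_apply, Sum.elim_inl,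
          Sum.elim_inr, fromBlocks_apply₂₁, fromBlocks_apply₂₂, Matrix.neg_apply, Matrix.add_apply,
          mul_neg, Finset.sum_neg_distrib, Matrix.one_apply, mul_ite, mul_one, mul_zero,
          Finset.sum_ite_eq', Finset.mem_univ, if_true]
    have e2 : Cᴴ * (fromBlocks (diagonal (fun k => (a k : ℂ))) Y Yᴴ β * C)
        = (-(Ai * W))ᴴ * (-(diagonal (fun k => (a k : ℂ)) * (Ai * W)) + Y)
          + (-(Yᴴ * (Ai * W)) + β) := by
      rw [e1]
      ext i j
      simp only [Matrix.mul_apply, Fintype.sum_sum_type, hC, Matrix.of_apply, Sum.elim_inl,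
        Sum.elim_inr, conjTranspose_apply, Matrix.add_apply, Matrix.one_apply]
      congr 1
      simp
    rw [Matrix.mul_assoc, e2]
    have e3 : diagonal (fun k => (a k : ℂ)) * (Ai * W) = diagonal (fun k => (a k : ℂ)) * Ai * Ai * Y := by
      rw [hW]; simp only [Matrix.mul_assoc]
    rw [e3, hPi]
    simp only [neg_add_cancel, Matrix.mul_zero, zero_add]
    rw [hW, conjTranspose_mul, hAh, Matrix.mul_assoc, neg_add_eq_sub]
  rwa [hcomp] at h

/-- the main determinant inequality -/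
theorem block_det {a : X → ℝ} {Y β : Matrix X X ℂ} {γ η : ℝ} (hγ : 0 ≤ γ) (hη : 0 ≤ η)
    (hρ : (fromBlocks (diagonal (fun k => (a k : ℂ))) Y Yᴴ β).PosSemidef) :
    ∃ ξ : X → ℝ, (∀ k, 0 ≤ ξ k) ∧ ∑ k, ξ k ≤ β.trace.re ∧ ∀ s : ℝ, 0 < s →
      ((s : ℂ) • (1 : Matrix X X ℂ) + (η : ℂ) • β).det.re *
        (((s : ℂ) • (1 : Matrix X X ℂ) + (γ : ℂ) • β).det.re *
          ∏ k, (1 + s * a k / ((s + γ * (β k k).re) * (s + η * ξ k))))
      ≤ ((s : ℂ) • (1 : Matrix (X ⊕ X) (X ⊕ X) ℂ) +
          fromBlocks (diagonal (fun k => (a k : ℂ)) + (γ : ℂ) • β) ((Real.sqrt η : ℂ) • Y)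
            ((Real.sqrt η : ℂ) • Yᴴ) ((η : ℂ) • β)).det.re := by
  obtain ⟨W, hYW, hβW⟩ := block_factor hρ
  have ha : ∀ k, 0 ≤ a k := by
    intro k
    have := hρ.diag_nonneg (i := Sum.inl k)
    simp at this
    exact_mod_cast this
  have hβ : β.PosSemidef := by
    have := hρ.submatrix (Sum.inr : X → X ⊕ X)
    exact this
  set A : Matrix X X ℂ := diagonal (fun k => (Real.sqrt (a k) : ℂ)) with hA
  have hAh : Aᴴ = A := by
    rw [hA, diagonal_conjTranspose]
    congr 1
    funext k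
    simp
  have hAA : A * A = diagonal (fun k => (a k : ℂ)) := by
    rw [hA, diagonal_mul_diagonal]
    congr 1
    funext k
    rw [← Complex.ofReal_mul, Real.mul_self_sqrt (ha k)]
  have hWW : (W * Wᴴ).PosSemidef := posSemidef_self_mul_conjTranspose W
  have hWWd : ∀ k, (W * Wᴴ) k k = (((W * Wᴴ) k k).re : ℂ) ∧ 0 ≤ ((W * Wᴴ) k k).re := by
    intro k
    obtain ⟨h1, h2⟩ := Complex.nonneg_iff.1 (hWW.diag_nonneg (i := k))
    exact ⟨by apply Complex.ext <;> simp [← h2], h1⟩
  refine ⟨fun k => ((W * Wᴴ) k k).re, fun k => (hWWd k).2, ?_, ?_⟩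
  · have h1 : 0 ≤ (β - Wᴴ * W).trace := hβW.trace_nonneg
    rw [trace_sub, ← Matrix.trace_mul_comm W Wᴴ] at h1
    have h2 := (Complex.nonneg_iff.1 h1).1
    rw [Complex.sub_re] at h2
    have h3 : (W * Wᴴ).trace.re = ∑ k, ((W * Wᴴ) k k).re := by
      rw [Matrix.trace, Complex.re_sum]
      rfl
    linarith
  · intro s hs
    have hsc : (s : ℂ) ≠ 0 := by exact_mod_cast hs.ne'
    set K0 := (s : ℂ) • (1 : Matrix X X ℂ) + (η : ℂ) • (Wᴴ * W) with hK0
    set K := (s : ℂ) • (1 : Matrix X X ℂ) + (η : ℂ) • β with hK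
    set P := (s : ℂ) • (1 : Matrix X X ℂ) + (γ : ℂ) • β with hP
    set Q := (1 : Matrix X X ℂ) + ((η / s : ℝ) : ℂ) • (W * Wᴴ) with hQ
    have hK0p : K0.PosDef :=
      (smul_one_posDef hs).add_posSemidef
        (smul_posSemidef (posSemidef_conjTranspose_mul_self W) hη)
    have hKp : K.PosDef := (smul_one_posDef hs).add_posSemidef (smul_posSemidef hβ hη)
    have hPp : P.PosDef := (smul_one_posDef hs).add_posSemidef (smul_posSemidef hβ hγ)
    have hQp : Q.PosDef := Matrix.PosDef.one.add_posSemidef (smul_posSemidef hWW (div_nonneg hη hs.le))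
    have hKK0 : K = K0 + (η : ℂ) • (β - Wᴴ * W) := by
      rw [hK, hK0, smul_sub]; abel
    -- order comparison
    have hZ : (A * A - (η : ℂ) • (Y * K⁻¹ * Yᴴ) - A * Q⁻¹ * A).PosSemidef := by
      have h1 := smul_posSemidef (inv_anti hK0p (smul_posSemidef hβW hη) Y) hη
      rw [← hKK0] at h1
      have h2 : (η : ℂ) • (Y * K0⁻¹ * Yᴴ) = A * A - A * Q⁻¹ * A := by
        have h3 := push_id hs hη W
        rw [← hK0, ← hQ] at h3
        have h4 : Y * K0⁻¹ * Yᴴ = A * (W * K0⁻¹ * Wᴴ) * A := by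
          rw [hYW, conjTranspose_mul, hAh]
          simp only [Matrix.mul_assoc]
        rw [h4, ← Matrix.smul_mul, ← Matrix.mul_smul, h3, mul_sub, sub_mul, Matrix.mul_one]
      rw [smul_sub, h2] at h1
      convert h1 using 1
      abel
    have hs3 := star3 hPp hQp (fun k => Real.sqrt (a k))
    rw [← hA] at hs3
    have hF : (P + A * Q⁻¹ * A).PosDef := by
      have : (A * Q⁻¹ * A).PosSemidef := by
        have := hQp.inv.posSemidef.mul_mul_conjTranspose_same A
        rwa [hAh] at this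
      exact hPp.add_posSemidef this
    have hmono := det_mono hF hZ
    have hinv : Invertible K := hKp.isUnit.invertible
    have hdet : ((s : ℂ) • (1 : Matrix (X ⊕ X) (X ⊕ X) ℂ) +
          fromBlocks (diagonal (fun k => (a k : ℂ)) + (γ : ℂ) • β) ((Real.sqrt η : ℂ) • Y)
            ((Real.sqrt η : ℂ) • Yᴴ) ((η : ℂ) • β)).det
        = K.det * (P + A * Q⁻¹ * A + (A * A - (η : ℂ) • (Y * K⁻¹ * Yᴴ) - A * Q⁻¹ * A)).det := by
      have e1 : ((s : ℂ) • (1 : Matrix (X ⊕ X) (X ⊕ X) ℂ) +
          fromBlocks (diagonal (fun k => (a k : ℂ)) + (γ : ℂ) • β) ((Real.sqrt η : ℂ) • Y)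
            ((Real.sqrt η : ℂ) • Yᴴ) ((η : ℂ) • β))
          = fromBlocks (P + A * A) ((Real.sqrt η : ℂ) • Y) ((Real.sqrt η : ℂ) • Yᴴ) K := by
        rw [← fromBlocks_one, fromBlocks_smul, fromBlocks_add, hP, hK, hAA]
        congr 1
        · abel
        · simp
        · simp
      rw [e1, det_fromBlocks₂₂, invOf_eq_nonsing_inv]
      congr 2
      rw [Matrix.smul_mul, Matrix.smul_mul, Matrix.mul_smul, smul_smul, ← Complex.ofReal_mul,
        Real.mul_self_sqrt hη]
      abel
    rw [hdet]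
    have hKr := pd_det_re hKp
    rw [hKr.1, Complex.re_ofReal_mul, Complex.ofReal_re]
    apply mul_le_mul_of_nonneg_left _ hKr.2.le
    refine le_trans ?_ hmono
    refine le_trans (le_of_eq ?_) hs3
    congr 1
    apply Finset.prod_congr rfl
    intro k _
    congr 1
    have hPk : (P k k).re = s + γ * (β k k).re := by
      simp [hP]
    have hQk : (Q k k).re = (s + η * ((W * Wᴴ) k k).re) / s := by
      have : (Q k k).re = 1 + η / s * ((W * Wᴴ) k k).re := by
        rw [hQ, Matrix.add_apply, Matrix.smul_apply, smul_eq_mul, Complex.add_re,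
          Complex.re_ofReal_mul]
        simp
      rw [this]
      field_simp
    rw [hPk, hQk, Real.sq_sqrt (ha k)]
    have hb0 : 0 ≤ (β k k).re := (Complex.nonneg_iff.1 (hβ.diag_nonneg (i := k))).1
    have h1 : 0 < s + γ * (β k k).re := by positivity
    have h2 : 0 < s + η * ((W * Wᴴ) k k).re := by
      have := (hWWd k).2
      positivity
    field_simp

end Vale.Agent.H28
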