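import Vale.Agent.H28.Scalar

open Filter Topology

namespace Vale.Agent.H28

theorem exp_weighted {c₁ c₂ : ℝ} (h1 : 0 ≤ c₁) (h2 : 0 ≤ c₂) (h : c₁ + c₂ = 1) (u v : ℝ) :
    Real.exp (c₁ * u + c₂ * v) ≤ c₁ * Real.exp u + c₂ * Real.exp v := by
  have := convexOn_exp.2 (Set.mem_univ u) (Set.mem_univ v) h1 h2 h
  simpa [smul_eq_mul] using this

theorem log_weighted {c₁ c₂ : ℝ} (h1 : 0 ≤ c₁) (h2 : 0 ≤ c₂) (h : c₁ + c₂ = 1) {x y : ℝ}
    (hx : 0 < x) (hy : 0 < y) :
    c₁ * Real.log x + c₂ * Real.log y ≤ Real.log (c₁ * x + c₂ * y) := by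
  have := strictConcaveOn_log_Ioi.concaveOn.2 (Set.mem_Ioi.2 hx) (Set.mem_Ioi.2 hy) h1 h2 h
  simpa [smul_eq_mul] using this

theorem geom_super {c₁ c₂ : ℝ} (h1 : 0 ≤ c₁) (h2 : 0 ≤ c₂) (h : c₁ + c₂ = 1) {a₁ a₂ K : ℝ}
    (ha₁ : 0 < a₁) (ha₂ : 0 < a₂) (hK : 0 ≤ K) :
    Real.log (Real.exp (c₁ * Real.log a₁ + c₂ * Real.log a₂) + K)
      ≤ c₁ * Real.log (a₁ + K) + c₂ * Real.log (a₂ + K) := by
  have hX₁ : 0 < a₁ + K := by linarith
  have hX₂ : 0 < a₂ + K := by linarith
  set L := c₁ * Real.log (a₁ + K) + c₂ * Real.log (a₂ + K) with hL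
  rw [Real.log_le_iff_le_exp (by positivity)]
  have e1 : Real.exp (c₁ * Real.log a₁ + c₂ * Real.log a₂) * Real.exp (-L)
      ≤ c₁ * (a₁ / (a₁ + K)) + c₂ * (a₂ / (a₂ + K)) := by
    have := exp_weighted h1 h2 h (Real.log (a₁ / (a₁ + K))) (Real.log (a₂ / (a₂ + K)))
    rw [Real.exp_log (by positivity), Real.exp_log (by positivity)] at this
    refine le_trans (le_of_eq ?_) this
    rw [← Real.exp_add]
    congr 1
    rw [Real.log_div ha₁.ne' hX₁.ne', Real.log_div ha₂.ne' hX₂.ne']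
    ring
  have e2 : K * Real.exp (-L) ≤ c₁ * (K / (a₁ + K)) + c₂ * (K / (a₂ + K)) := by
    have := exp_weighted h1 h2 h (Real.log (1 / (a₁ + K))) (Real.log (1 / (a₂ + K)))
    rw [Real.exp_log (by positivity), Real.exp_log (by positivity)] at this
    have h3 : Real.exp (-L) ≤ c₁ * (1 / (a₁ + K)) + c₂ * (1 / (a₂ + K)) := by
      refine le_trans (le_of_eq ?_) this
      congr 1
      rw [Real.log_div one_ne_zero hX₁.ne', Real.log_div one_ne_zero hX₂.ne', Real.log_one]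
      ring
    calc K * Real.exp (-L) ≤ K * (c₁ * (1 / (a₁ + K)) + c₂ * (1 / (a₂ + K))) :=
          mul_le_mul_of_nonneg_left h3 hK
      _ = _ := by ring
  have e3 : c₁ * (a₁ / (a₁ + K)) + c₂ * (a₂ / (a₂ + K)) + (c₁ * (K / (a₁ + K))
      + c₂ * (K / (a₂ + K))) = 1 := by
    have : ∀ a : ℝ, 0 < a + K → a / (a + K) + K / (a + K) = 1 := by
      intro a ha
      rw [← add_div, div_self ha.ne']
    calc _ = c₁ * (a₁ / (a₁ + K) + K / (a₁ + K)) + c₂ * (a₂ / (a₂ + K) + K / (a₂ + K)) := by ring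
      _ = 1 := by rw [this a₁ hX₁, this a₂ hX₂]; linarith
  have e4 : (Real.exp (c₁ * Real.log a₁ + c₂ * Real.log a₂) + K) * Real.exp (-L) ≤ 1 := by
    rw [add_mul]; linarith
  calc Real.exp (c₁ * Real.log a₁ + c₂ * Real.log a₂) + K
      = ((Real.exp (c₁ * Real.log a₁ + c₂ * Real.log a₂) + K) * Real.exp (-L)) * Real.exp L := by
        rw [mul_assoc, ← Real.exp_add]; simp
    _ ≤ 1 * Real.exp L := mul_le_mul_of_nonneg_right e4 (Real.exp_pos L).le
    _ = Real.exp L := one_mul _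

/-- convexity of `Λ(P, ·, ·)` -/
theorem Lam_convex {c₁ c₂ P r₁ r₂ t₁ t₂ : ℝ} (h1 : 0 ≤ c₁) (h2 : 0 ≤ c₂) (h : c₁ + c₂ = 1)
    (hP : 0 ≤ P) (hr₁ : 0 ≤ r₁) (hr₂ : 0 ≤ r₂) (ht₁ : 0 ≤ t₁) (ht₂ : 0 ≤ t₂) :
    Lam P (c₁ * r₁ + c₂ * r₂) (c₁ * t₁ + c₂ * t₂) ≤ c₁ * Lam P r₁ t₁ + c₂ * Lam P r₂ t₂ := by
  set R := c₁ * r₁ + c₂ * r₂ with hR
  set T := c₁ * t₁ + c₂ * t₂ with hT
  have hR0 : 0 ≤ R := by positivity
  have hT0 : 0 ≤ T := by positivity
  have := SL (ι := Fin 12) ![c₁, c₁, -c₁, -c₁, c₂, c₂, -c₂, -c₂, -1, -1, 1, 1]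
    ![rootP (P + r₁ + t₁) (r₁ * t₁), rootM (P + r₁ + t₁) (r₁ * t₁), r₁, t₁,
      rootP (P + r₂ + t₂) (r₂ * t₂), rootM (P + r₂ + t₂) (r₂ * t₂), r₂, t₂,
      rootP (P + R + T) (R * T), rootM (P + R + T) (R * T), R, T]
    (by
      intro i
      fin_cases i
      · exact rootP_nonneg (by positivity)
      · exact rootM_nonneg (by positivity) (by positivity)
      · exact hr₁
      · exact ht₁
      · exact rootP_nonneg (by positivity)
      · exact rootM_nonneg (by positivity) (by positivity)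
      · exact hr₂
      · exact ht₂
      · exact rootP_nonneg (by positivity)
      · exact rootM_nonneg (by positivity) (by positivity)
      · exact hR0
      · exact hT0)
    (by simp [Fin.sum_univ_succ])
    (by
      have e1 := root_add (P + r₁ + t₁) (r₁ * t₁)
      have e2 := root_add (P + r₂ + t₂) (r₂ * t₂)
      have e3 := root_add (P + R + T) (R * T)
      have f1 : rootP (P + r₁ + t₁) (r₁ * t₁) = P + r₁ + t₁ - rootM (P + r₁ + t₁) (r₁ * t₁) := by
        linarith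
      have f2 : rootP (P + r₂ + t₂) (r₂ * t₂) = P + r₂ + t₂ - rootM (P + r₂ + t₂) (r₂ * t₂) := by
        linarith
      have f3 : rootP (P + R + T) (R * T) = P + R + T - rootM (P + R + T) (R * T) := by
        linarith
      simp [Fin.sum_univ_succ]
      rw [f1, f2, f3]
      have : c₂ = 1 - c₁ := by linarith
      subst this
      ring)
    (by
      intro s hs
      have k1 := log_roots hP hr₁ ht₁ hs
      have k2 := log_roots hP hr₂ ht₂ hs
      have k3 := log_roots hP hR0 hT0 hs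
      have g1 : Real.log ((s + r₁) * (s + t₁)) = Real.log (s + r₁) + Real.log (s + t₁) :=
        Real.log_mul (by positivity) (by positivity)
      have g2 : Real.log ((s + r₂) * (s + t₂)) = Real.log (s + r₂) + Real.log (s + t₂) :=
        Real.log_mul (by positivity) (by positivity)
      have g3 : Real.log ((s + R) * (s + T)) = Real.log (s + R) + Real.log (s + T) :=
        Real.log_mul (by positivity) (by positivity)
      have m1 := geom_super h1 h2 h (a₁ := (s + r₁) * (s + t₁)) (a₂ := (s + r₂) * (s + t₂))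
        (K := s * P) (by positivity) (by positivity) (by positivity)
      set u := c₁ * Real.log ((s + r₁) * (s + t₁)) + c₂ * Real.log ((s + r₂) * (s + t₂)) with hu
      have m2 : u ≤ Real.log ((s + R) * (s + T)) := by
        have a1 := log_weighted h1 h2 h (x := s + r₁) (y := s + r₂) (by positivity) (by positivity)
        have a2 := log_weighted h1 h2 h (x := s + t₁) (y := s + t₂) (by positivity) (by positivity)
        have b1 : c₁ * (s + r₁) + c₂ * (s + r₂) = s + R := by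
          rw [hR]
          have : c₂ = 1 - c₁ := by linarith
          subst this; ring
        have b2 : c₁ * (s + t₁) + c₂ * (s + t₂) = s + T := by
          rw [hT]
          have : c₂ = 1 - c₁ := by linarith
          subst this; ring
        rw [b1] at a1
        rw [b2] at a2
        rw [hu, g1, g2, g3]
        linarith
      have m3 : Real.log ((s + R) * (s + T) + s * P) + u
          ≤ Real.log (Real.exp u + s * P) + Real.log ((s + R) * (s + T)) := by
        have hu' : Real.exp u ≤ (s + R) * (s + T) := by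
          rw [← Real.le_log_iff_exp_le (by positivity)]
          exact m2
        conv_lhs => rw [← Real.log_exp u]
        rw [← Real.log_mul (by positivity) (by positivity),
          ← Real.log_mul (by positivity) (by positivity)]
        apply Real.log_le_log (by positivity)
        have : 0 ≤ s * P := by positivity
        rw [add_mul, add_mul]
        nlinarith [mul_le_mul_of_nonneg_left hu' this]
      simp [Fin.sum_univ_succ]
      have n1 : c₁ * Real.log (s + rootP (P + r₁ + t₁) (r₁ * t₁))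
          + c₁ * Real.log (s + rootM (P + r₁ + t₁) (r₁ * t₁))
          = c₁ * Real.log ((s + r₁) * (s + t₁) + s * P) := by rw [← k1]; ring
      have n2 : c₂ * Real.log (s + rootP (P + r₂ + t₂) (r₂ * t₂))
          + c₂ * Real.log (s + rootM (P + r₂ + t₂) (r₂ * t₂))
          = c₂ * Real.log ((s + r₂) * (s + t₂) + s * P) := by rw [← k2]; ring
      have n3 : u = c₁ * (Real.log (s + r₁) + Real.log (s + t₁))
          + c₂ * (Real.log (s + r₂) + Real.log (s + t₂)) := by rw [hu, g1, g2]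
      rw [g3] at m3
      linarith)
  simp [Fin.sum_univ_succ] at this
  unfold Lam pairEnt
  have e : Real.negMulLog P = c₁ * Real.negMulLog P + c₂ * Real.negMulLog P := by
    rw [← add_mul, h, one_mul]
  linarith

/-- two-point subadditivity of `Λ` -/
theorem Lam_add {p₁ p₂ r₁ r₂ t₁ t₂ : ℝ} (hp₁ : 0 ≤ p₁) (hp₂ : 0 ≤ p₂) (hr₁ : 0 ≤ r₁)
    (hr₂ : 0 ≤ r₂) (ht₁ : 0 ≤ t₁) (ht₂ : 0 ≤ t₂) :
    Lam (p₁ + p₂) (r₁ + r₂) (t₁ + t₂) ≤ Lam p₁ r₁ t₁ + Lam p₂ r₂ t₂ := by
  rcases hp₁.eq_or_lt with h | h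
  · rw [← h, Lam_zero, zero_add, zero_add]
    exact Lam_anti hp₂ hr₂ (by linarith) ht₂ (by linarith)
  rcases hp₂.eq_or_lt with h' | h'
  · rw [← h', Lam_zero, add_zero, add_zero]
    exact Lam_anti hp₁ hr₁ (by linarith) ht₁ (by linarith)
  have hP : 0 < p₁ + p₂ := by positivity
  have c1 : 0 < p₁ / (p₁ + p₂) := by positivity
  have c2 : 0 < p₂ / (p₁ + p₂) := by positivity
  have hc : p₁ / (p₁ + p₂) + p₂ / (p₁ + p₂) = 1 := by
    rw [← add_div, div_self hP.ne']
  have := Lam_convex (P := p₁ + p₂) c1.le c2.le hc hP.le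
    (r₁ := r₁ / (p₁ / (p₁ + p₂))) (r₂ := r₂ / (p₂ / (p₁ + p₂)))
    (t₁ := t₁ / (p₁ / (p₁ + p₂))) (t₂ := t₂ / (p₂ / (p₁ + p₂)))
    (by positivity) (by positivity) (by positivity) (by positivity)
  rw [mul_div_cancel₀ _ c1.ne', mul_div_cancel₀ _ c2.ne', mul_div_cancel₀ _ c1.ne',
    mul_div_cancel₀ _ c2.ne', ← Lam_smul c1.le, ← Lam_smul c2.le, mul_div_cancel₀ _ c1.ne',
    mul_div_cancel₀ _ c2.ne', mul_div_cancel₀ _ c1.ne', mul_div_cancel₀ _ c2.ne',
    div_mul_cancel₀ _ hP.ne', div_mul_cancel₀ _ hP.ne'] at this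
  exact this

theorem Lam_sum {ι : Type*} (F : Finset ι) (p r t : ι → ℝ) (hp : ∀ i, 0 ≤ p i)
    (hr : ∀ i, 0 ≤ r i) (ht : ∀ i, 0 ≤ t i) :
    Lam (∑ i ∈ F, p i) (∑ i ∈ F, r i) (∑ i ∈ F, t i) ≤ ∑ i ∈ F, Lam (p i) (r i) (t i) := by
  classical
  induction F using Finset.induction_on with
  | empty => simp [Lam_zero]
  | insert a F ha ih =>
    rw [Finset.sum_insert ha, Finset.sum_insert ha, Finset.sum_insert ha, Finset.sum_insert ha]
    have := Lam_add (hp a) (Finset.sum_nonneg fun i _ => hp i : 0 ≤ ∑ i ∈ F, p i) (hr a)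
      (Finset.sum_nonneg fun i _ => hr i : 0 ≤ ∑ i ∈ F, r i) (ht a)
      (Finset.sum_nonneg fun i _ => ht i : 0 ≤ ∑ i ∈ F, t i)
    linarith

end Vale.Agent.H28
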