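import Vale.Agent.H28.Block2
import Vale.Agent.H28.Scalar2

open Matrix Complex
open scoped ComplexOrder

namespace Vale.Agent.H28

variable {X : Type*} [Fintype X] [DecidableEq X]

theorem det_add_smul_eq {A : Matrix X X ℂ} (hA : A.IsHermitian) (s c : ℝ) :
    ((s : ℂ) • (1 : Matrix X X ℂ) + (c : ℂ) • A).det
      = ((∏ i, (s + c * hA.eigenvalues i) : ℝ) : ℂ) := by
  obtain ⟨U, h1, h2, h3⟩ := spectral' hA
  have : (s : ℂ) • (1 : Matrix X X ℂ) + (c : ℂ) • A
      = U * diagonal (fun i => ((s + c * hA.eigenvalues i : ℝ) : ℂ)) * Uᴴ := by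
    conv_lhs => rw [h3]
    have e : (diagonal (fun i => ((s + c * hA.eigenvalues i : ℝ) : ℂ)) : Matrix X X ℂ)
        = (s : ℂ) • 1 + (c : ℂ) • diagonal (fun i => (hA.eigenvalues i : ℂ)) := by
      ext i j
      by_cases hij : i = j
      · subst hij; simp
      · simp [hij]
    rw [e, mul_add, add_mul, Matrix.mul_smul, Matrix.smul_mul, mul_one, h2, Matrix.mul_smul,
      Matrix.smul_mul]
  rw [this, det_mul, det_mul, mul_right_comm, ← det_mul, h2, det_one, one_mul, det_diagonal]
  push_cast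
  rfl

theorem trace_re_eq {A : Matrix X X ℂ} (hA : A.IsHermitian) :
    A.trace.re = ∑ i, hA.eigenvalues i := by
  rw [hA.trace_eq_sum_eigenvalues, Complex.re_sum]
  simp

/-- the transfer lemma in the shape used for block matrices -/
theorem SL_app {Z X : Type*} [Fintype Z] [Fintype X] (μ : Z → ℝ) (u v p m r t : X → ℝ)
    (hμ : ∀ i, 0 ≤ μ i) (hu : ∀ i, 0 ≤ u i) (hv : ∀ i, 0 ≤ v i) (hp : ∀ i, 0 ≤ p i)
    (hm : ∀ i, 0 ≤ m i) (hr : ∀ i, 0 ≤ r i) (ht : ∀ i, 0 ≤ t i)
    (hcard : Fintype.card Z = 2 * Fintype.card X)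
    (hsum : ∑ i, μ i = ∑ i, u i + ∑ i, v i + ∑ i, p i + ∑ i, m i - ∑ i, r i - ∑ i, t i)
    (h : ∀ s : ℝ, 0 < s → ∑ i, Real.log (s + u i) + ∑ i, Real.log (s + v i)
      + ∑ i, Real.log (s + p i) + ∑ i, Real.log (s + m i) - ∑ i, Real.log (s + r i)
      - ∑ i, Real.log (s + t i) ≤ ∑ i, Real.log (s + μ i)) :
    ∑ i, Real.negMulLog (u i) + ∑ i, Real.negMulLog (v i)
      + ∑ i, Real.negMulLog (p i) + ∑ i, Real.negMulLog (m i) - ∑ i, Real.negMulLog (r i)
      - ∑ i, Real.negMulLog (t i) ≤ ∑ i, Real.negMulLog (μ i) := by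
  have hc : (Fintype.card Z : ℝ) = 2 * Fintype.card X := by exact_mod_cast hcard
  have key := SL (ι := Z ⊕ (X ⊕ (X ⊕ (X ⊕ (X ⊕ (X ⊕ X))))))
    (Sum.elim (fun _ => 1) (Sum.elim (fun _ => -1) (Sum.elim (fun _ => -1)
      (Sum.elim (fun _ => -1) (Sum.elim (fun _ => -1) (Sum.elim (fun _ => 1) (fun _ => 1)))))))
    (Sum.elim μ (Sum.elim u (Sum.elim v (Sum.elim p (Sum.elim m (Sum.elim r t))))))
    (by
      rintro (i | i | i | i | i | i | i)
      exacts [hμ i, hu i, hv i, hp i, hm i, hr i, ht i])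
    (by
      simp [Fintype.sum_sum_type]
      rw [hc]; ring)
    (by
      simp [Fintype.sum_sum_type]
      linarith)
    (by
      intro s hs
      have := h s hs
      simp [Fintype.sum_sum_type]
      linarith)
  simp [Fintype.sum_sum_type] at key
  linarith

theorem trace_blocks {X Y : Type*} [Fintype X] [Fintype Y] (A : Matrix X X ℂ)
    (B : Matrix X Y ℂ) (C : Matrix Y X ℂ) (D : Matrix Y Y ℂ) :
    (fromBlocks A B C D).trace = A.trace + D.trace := by
  simp [Matrix.trace, Fintype.sum_sum_type]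

/-- output block matrix of the amplitude damping channel -/
noncomputable def outM (γ η : ℝ) (α Y β : Matrix X X ℂ) : Matrix (X ⊕ X) (X ⊕ X) ℂ :=
  fromBlocks (α + (γ : ℂ) • β) ((Real.sqrt η : ℂ) • Y) ((Real.sqrt η : ℂ) • Yᴴ) ((η : ℂ) • β)

theorem outM_eq_conj {γ η : ℝ} (hγ : 0 ≤ γ) (hη : 0 ≤ η) (α Y β : Matrix X X ℂ) :
    outM γ η α Y β
      = fromBlocks 1 0 0 ((Real.sqrt η : ℂ) • (1 : Matrix X X ℂ)) * fromBlocks α Y Yᴴ β *
          (fromBlocks 1 0 0 ((Real.sqrt η : ℂ) • (1 : Matrix X X ℂ)))ᴴ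
        + fromBlocks 0 ((Real.sqrt γ : ℂ) • (1 : Matrix X X ℂ)) 0 0 * fromBlocks α Y Yᴴ β *
          (fromBlocks 0 ((Real.sqrt γ : ℂ) • (1 : Matrix X X ℂ)) 0 0)ᴴ := by
  unfold outM
  simp only [fromBlocks_conjTranspose, fromBlocks_multiply, conjTranspose_smul, conjTranspose_one,
    conjTranspose_zero, Matrix.mul_zero, Matrix.zero_mul, add_zero, zero_add, Matrix.mul_smul,
    Matrix.smul_mul, Matrix.mul_one, Matrix.one_mul, smul_zero, fromBlocks_add, smul_smul]
  have h1 : star (Real.sqrt γ : ℂ) * (Real.sqrt γ : ℂ) = (γ : ℂ) := by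
    rw [show star ((Real.sqrt γ : ℂ)) = (Real.sqrt γ : ℂ) by simp, ← Complex.ofReal_mul,
      Real.mul_self_sqrt hγ]
  have h2 : star (Real.sqrt η : ℂ) * (Real.sqrt η : ℂ) = (η : ℂ) := by
    rw [show star ((Real.sqrt η : ℂ)) = (Real.sqrt η : ℂ) by simp, ← Complex.ofReal_mul,
      Real.mul_self_sqrt hη]
  have h3 : star ((Real.sqrt η : ℂ)) = (Real.sqrt η : ℂ) := by simp
  rw [h1, h2, h3]

theorem outM_posSemidef {γ η : ℝ} (hγ : 0 ≤ γ) (hη : 0 ≤ η) {α Y β : Matrix X X ℂ}
    (hρ : (fromBlocks α Y Yᴴ β).PosSemidef) : (outM γ η α Y β).PosSemidef := by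
  rw [outM_eq_conj hγ hη]
  exact (hρ.mul_mul_conjTranspose_same _).add (hρ.mul_mul_conjTranspose_same _)

/-- the claim when the upper-left block is diagonal -/
theorem zclaim_diag {a : X → ℝ} {Y β : Matrix X X ℂ} {γ η : ℝ} (hγ : 0 ≤ γ) (hη : 0 ≤ η)
    (hγη : γ + η = 1)
    (hρ : (fromBlocks (diagonal (fun k => (a k : ℂ))) Y Yᴴ β).PosSemidef) :
    (∑ k, Real.negMulLog (a k)) + ent β
      + pairEnt ((∑ k, a k) + β.trace.re) (γ * η * β.trace.re ^ 2)
      ≤ ent (outM γ η (diagonal (fun k => (a k : ℂ))) Y β)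
        + Real.negMulLog (∑ k, a k) + Real.negMulLog β.trace.re := by
  have ha : ∀ k, 0 ≤ a k := by
    intro k
    have := hρ.diag_nonneg (i := Sum.inl k)
    simp at this
    exact_mod_cast this
  have hβ : β.PosSemidef := hρ.submatrix (Sum.inr : X → X ⊕ X)
  obtain ⟨ξ, hξ0, hξt, hdet⟩ := block_det hγ hη hρ
  have hM : (outM γ η (diagonal (fun k => (a k : ℂ))) Y β).PosSemidef := outM_posSemidef hγ hη hρ
  set M := outM γ η (diagonal (fun k => (a k : ℂ))) Y β with hMdef
  set μ := hM.isHermitian.eigenvalues with hμ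
  set b := hβ.isHermitian.eigenvalues with hb
  have hμ0 : ∀ i, 0 ≤ μ i := hM.eigenvalues_nonneg
  have hb0 : ∀ i, 0 ≤ b i := hβ.eigenvalues_nonneg
  set r : X → ℝ := fun k => γ * (β k k).re with hr
  set t : X → ℝ := fun k => η * ξ k with ht
  have hβkk : ∀ k, 0 ≤ (β k k).re := fun k => (Complex.nonneg_iff.1 (hβ.diag_nonneg (i := k))).1
  have hr0 : ∀ k, 0 ≤ r k := fun k => mul_nonneg hγ (hβkk k)
  have ht0 : ∀ k, 0 ≤ t k := fun k => mul_nonneg hη (hξ0 k)
  set q := β.trace.re with hq
  have hqb : q = ∑ i, b i := trace_re_eq hβ.isHermitian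
  have hqd : q = ∑ k, (β k k).re := by
    rw [hq, Matrix.trace, Complex.re_sum]; rfl
  have hsum : ∑ i, μ i = (∑ k, a k) + q := by
    rw [← trace_re_eq hM.isHermitian, hMdef]
    unfold outM
    rw [trace_blocks, trace_add, trace_smul, trace_smul, trace_diagonal]
    simp only [Complex.add_re, smul_eq_mul, Complex.re_ofReal_mul, Complex.re_sum,
      Complex.ofReal_re]
    rw [← hq]
    have : η = 1 - γ := by linarith
    rw [this]; ring
  -- the transfer lemma
  have key := SL_app μ (fun j => η * b j) (fun j => γ * b j)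
    (fun k => rootP (a k + r k + t k) (r k * t k)) (fun k => rootM (a k + r k + t k) (r k * t k))
    r t hμ0 (fun i => mul_nonneg hη (hb0 i)) (fun i => mul_nonneg hγ (hb0 i))
    (fun i => by
      have := ha i; have := hr0 i; have := ht0 i
      exact rootP_nonneg (by positivity))
    (fun i => by
      have := ha i; have := hr0 i; have := ht0 i
      exact rootM_nonneg (by positivity) (by positivity))
    hr0 ht0 (by rw [Fintype.card_sum]; ring)
    (by
      rw [hsum]
      simp only [← Finset.mul_sum, ← hqb]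
      have h1 : ∑ k, rootP (a k + r k + t k) (r k * t k)
          + ∑ k, rootM (a k + r k + t k) (r k * t k) = ∑ k, a k + ∑ k, r k + ∑ k, t k := by
        rw [← Finset.sum_add_distrib, ← Finset.sum_add_distrib, ← Finset.sum_add_distrib]
        exact Finset.sum_congr rfl fun k _ => root_add _ _
      have : η = 1 - γ := by linarith
      rw [this]
      linarith)
    (by
      intro s hs
      have hd := hdet s hs
      have e1 := det_add_smul_eq hβ.isHermitian s η
      have e2 := det_add_smul_eq hβ.isHermitian s γ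
      have e3 := det_add_eq hM.isHermitian s
      rw [← hb] at e1 e2
      rw [← hμ] at e3
      rw [e1, e2] at hd
      have hMe : fromBlocks (diagonal (fun k => (a k : ℂ)) + (γ : ℂ) • β) ((Real.sqrt η : ℂ) • Y)
            ((Real.sqrt η : ℂ) • Yᴴ) ((η : ℂ) • β) = M := rfl
      rw [hMe, e3, Complex.ofReal_re, Complex.ofReal_re, Complex.ofReal_re] at hd
      have p1 : 0 < ∏ i, (s + η * b i) := Finset.prod_pos fun i _ => by
        have := hb0 i; positivity
      have p2 : 0 < ∏ i, (s + γ * b i) := Finset.prod_pos fun i _ => by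
        have := hb0 i; positivity
      have p3 : ∀ k, 0 < 1 + s * a k / ((s + γ * (β k k).re) * (s + η * ξ k)) := fun k => by
        have := ha k; have := hβkk k; have := hξ0 k; positivity
      have p4 : 0 < ∏ k, (1 + s * a k / ((s + γ * (β k k).re) * (s + η * ξ k))) :=
        Finset.prod_pos fun k _ => p3 k
      have hl := Real.log_le_log (by positivity) hd
      rw [Real.log_mul p1.ne' (by positivity), Real.log_mul p2.ne' p4.ne',
        Real.log_prod (fun i _ => by have := hb0 i; positivity),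
        Real.log_prod (fun i _ => by have := hb0 i; positivity),
        Real.log_prod (fun i _ => (p3 i).ne'),
        Real.log_prod (fun i _ => by have := hμ0 i; positivity)] at hl
      have hk : ∀ k, Real.log (1 + s * a k / ((s + γ * (β k k).re) * (s + η * ξ k)))
          = Real.log (s + rootP (a k + r k + t k) (r k * t k))
            + Real.log (s + rootM (a k + r k + t k) (r k * t k))
            - Real.log (s + r k) - Real.log (s + t k) := by
        intro k
        have q1 : 0 < s + r k := by have := hr0 k; positivity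
        have q2 : 0 < s + t k := by have := ht0 k; positivity
        have q3 := ha k
        rw [log_roots (ha k) (hr0 k) (ht0 k) hs]
        have : 1 + s * a k / ((s + γ * (β k k).re) * (s + η * ξ k))
            = ((s + r k) * (s + t k) + s * a k) / ((s + r k) * (s + t k)) := by
          have hr' : s + γ * (β k k).re = s + r k := rfl
          have ht' : s + η * ξ k = s + t k := rfl
          rw [hr', ht']
          field_simp
        rw [this, Real.log_div (by positivity) (by positivity), Real.log_mul q1.ne' q2.ne']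
        ring
      rw [Finset.sum_congr rfl fun k _ => hk k] at hl
      simp only [Finset.sum_sub_distrib, Finset.sum_add_distrib] at hl
      linarith)
  -- the subadditive scalar function
  have hL1 := Lam_sum Finset.univ a r t ha hr0 ht0
  have hL2 : Lam (∑ k, a k) (γ * q) (η * q) ≤ Lam (∑ k, a k) (∑ k, r k) (∑ k, t k) := by
    apply Lam_anti (Finset.sum_nonneg fun k _ => ha k) (Finset.sum_nonneg fun k _ => hr0 k)
    · rw [hr, ← Finset.mul_sum, ← hqd]
    · exact Finset.sum_nonneg fun k _ => ht0 k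
    · rw [ht, ← Finset.mul_sum]
      exact mul_le_mul_of_nonneg_left hξt hη
  have hentM : ent M = ∑ i, Real.negMulLog (μ i) := ent_eq hM.isHermitian
  have hentβ : ent β = ∑ i, Real.negMulLog (b i) := ent_eq hβ.isHermitian
  have hsc : ∑ j, Real.negMulLog (η * b j) + ∑ j, Real.negMulLog (γ * b j)
      = ent β + q * (Real.negMulLog η + Real.negMulLog γ) := by
    simp only [Real.negMulLog_mul, Finset.sum_add_distrib, ← Finset.mul_sum, ← Finset.sum_mul]
    rw [← hentβ, ← hqb]
    have : η = 1 - γ := by linarith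
    have h2 : η * ent β + γ * ent β = ent β := by rw [this]; ring
    linarith
  have hLe : ∑ k, Lam (a k) (r k) (t k)
      = ∑ k, Real.negMulLog (rootP (a k + r k + t k) (r k * t k))
        + ∑ k, Real.negMulLog (rootM (a k + r k + t k) (r k * t k))
        - ∑ k, Real.negMulLog (a k) - ∑ k, Real.negMulLog (r k) - ∑ k, Real.negMulLog (t k) := by
    simp only [Lam, pairEnt, Finset.sum_sub_distrib, Finset.sum_add_distrib]
  have hLq : Lam (∑ k, a k) (γ * q) (η * q)
      = pairEnt ((∑ k, a k) + q) (γ * η * q ^ 2) - Real.negMulLog (∑ k, a k)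
        - Real.negMulLog q - q * (Real.negMulLog η + Real.negMulLog γ) := by
    unfold Lam
    rw [Real.negMulLog_mul, Real.negMulLog_mul]
    have h1 : ∑ k, a k + γ * q + η * q = (∑ k, a k) + q := by
      have : η = 1 - γ := by linarith
      rw [this]; ring
    have h2 : γ * q * (η * q) = γ * η * q ^ 2 := by ring
    rw [h1, h2]
    have h3 : γ * Real.negMulLog q + η * Real.negMulLog q = Real.negMulLog q := by
      rw [← add_mul, hγη, one_mul]
    linarith
  rw [hentM]
  linarith

/-- the main entropy inequality for the amplitude damping pattern -/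
theorem zclaim {α Y β : Matrix X X ℂ} {γ η : ℝ} (hγ : 0 ≤ γ) (hη : 0 ≤ η)
    (hγη : γ + η = 1) (hρ : (fromBlocks α Y Yᴴ β).PosSemidef) :
    ent α + ent β + pairEnt (α.trace.re + β.trace.re) (γ * η * β.trace.re ^ 2)
      ≤ ent (outM γ η α Y β) + Real.negMulLog α.trace.re + Real.negMulLog β.trace.re := by
  have hα : α.PosSemidef := hρ.submatrix (Sum.inl : X → X ⊕ X)
  obtain ⟨U, h1, h2, h3⟩ := spectral' hα.isHermitian
  set a := hα.isHermitian.eigenvalues with hadef
  set V : Matrix (X ⊕ X) (X ⊕ X) ℂ := fromBlocks Uᴴ 0 0 Uᴴ with hV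
  have hVh : Vᴴ = fromBlocks U 0 0 U := by
    rw [hV, fromBlocks_conjTranspose]; simp
  have hVV : Vᴴ * V = 1 := by
    rw [hVh, hV, fromBlocks_multiply]
    simp [h2]
  have hD : Uᴴ * α * U = diagonal (fun k => (a k : ℂ)) := by
    conv_lhs => rw [h3]
    calc Uᴴ * (U * diagonal (fun k => (a k : ℂ)) * Uᴴ) * U
        = (Uᴴ * U) * diagonal (fun k => (a k : ℂ)) * (Uᴴ * U) := by
          simp only [Matrix.mul_assoc]
      _ = _ := by rw [h1]; simp
  have hρ' := hρ.mul_mul_conjTranspose_same V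
  have hconj : V * fromBlocks α Y Yᴴ β * Vᴴ
      = fromBlocks (diagonal (fun k => (a k : ℂ))) (Uᴴ * Y * U) (Uᴴ * Y * U)ᴴ (Uᴴ * β * U) := by
    rw [hVh, hV, fromBlocks_multiply, fromBlocks_multiply]
    simp [← hD, Matrix.mul_assoc]
  rw [hconj] at hρ'
  have key := zclaim_diag hγ hη hγη hρ'
  have t1 : (Uᴴ * β * U).trace = β.trace := by
    rw [Matrix.trace_mul_comm, ← Matrix.mul_assoc, h2, Matrix.one_mul]
  have t2 : α.trace.re = ∑ k, a k := trace_re_eq hα.isHermitian
  have e1 : ent (Uᴴ * β * U) = ent β := ent_conj h2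
  have e2 : ent α = ∑ k, Real.negMulLog (a k) := ent_eq hα.isHermitian
  have e3 : outM γ η (diagonal (fun k => (a k : ℂ))) (Uᴴ * Y * U) (Uᴴ * β * U)
      = V * outM γ η α Y β * Vᴴ := by
    unfold outM
    rw [hVh, hV, fromBlocks_multiply, fromBlocks_multiply]
    simp [← hD, Matrix.mul_assoc, Matrix.mul_add, Matrix.add_mul]
  have e4 : ent (V * outM γ η α Y β * Vᴴ) = ent (outM γ η α Y β) := ent_conj hVV
  rw [e3, e4, e1, t1, ← t2, ← e2] at key
  exact key

end Vale.Agent.H28
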