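import Vale.Agent.H28.Product
import Vale.Agent.H28.Zclaim

open Matrix Complex Set
open scoped ComplexOrder

namespace Vale.Agent.H28

theorem entropyBits_eq {X : Type} [Fintype X] [DecidableEq X] {ρ : Matrix X X ℂ}
    (h : ρ.IsHermitian) : entropyBits ρ = ent ρ / Real.log 2 := by
  unfold entropyBits
  rw [dif_pos h, ent_eq h]

theorem mem_holevoSet {X : Type} [Fintype X] [DecidableEq X] {Φ : Matrix X X ℂ → Matrix X X ℂ}
    {κ : Type*} [Fintype κ] (p : κ → ℝ) (ρ : κ → Matrix X X ℂ) (hp : ∀ a, 0 ≤ p a)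
    (hp1 : ∑ a, p a = 1) (hρ : ∀ a, IsDensity (ρ a)) :
    entropyBits (∑ a, (p a : ℂ) • Φ (ρ a)) - ∑ a, p a * entropyBits (Φ (ρ a)) ∈ holevoSet Φ := by
  set e := (Fintype.equivFin κ).symm
  refine ⟨Fintype.card κ, fun a => p (e a), fun a => ρ (e a), fun a => hp _, ?_, fun a => hρ _, ?_⟩
  · rw [e.sum_comp p, hp1]
  · rw [e.sum_comp (fun a => (p a : ℂ) • Φ (ρ a)), e.sum_comp (fun a => p a * entropyBits (Φ (ρ a)))]

theorem gad_ext (γ ν : ℝ) (ρ : Matrix (Fin 2) (Fin 2) ℂ) (a b : Fin 2) :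
    gad γ ν ρ a b = ∑ i, ∑ j, gad γ ν (Matrix.single i j 1) a b * ρ i j := by
  simp only [Fin.sum_univ_two, gad_single]
  fin_cases a <;> fin_cases b <;> simp [gad, Matrix.trace_fin_two] <;> ring

theorem tensorPow_piMat (γ ν : ℝ) (n : ℕ) (A : Fin n → Matrix (Fin 2) (Fin 2) ℂ) :
    tensorPow (gad γ ν) n (piMat A) = piMat (fun i => gad γ ν (A i)) := by
  ext x y
  simp only [tensorPow, piMat]
  have h : ∀ i, gad γ ν (A i) (x i) (y i)
      = ∑ a, ∑ b, gad γ ν (Matrix.single a b 1) (x i) (y i) * A i a b := fun i => gad_ext γ ν _ _ _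
  simp only [h, Fintype.prod_sum, Finset.prod_mul_distrib]

/-- `sign` of a bit -/
noncomputable def sgn (s : Fin 2) : ℝ := if s = 0 then 1 else -1

/-- the factor of the optimal pure signal states -/
noncomputable def Wv (q : ℝ) (s : Fin 2) : Matrix (Fin 2) (Fin 2) ℂ :=
  !![(√(1 - q) : ℝ), 0; (sgn s * √q : ℝ), 0]

theorem Wv_mul {q : ℝ} (h0 : 0 ≤ q) (h1 : q ≤ 1) (s : Fin 2) :
    Wv q s * (Wv q s)ᴴ
      = !![((1 - q : ℝ) : ℂ), (sgn s * (√q * √(1 - q)) : ℝ); (sgn s * (√q * √(1 - q)) : ℝ),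
          ((q : ℝ) : ℂ)] := by
  have e1 : ((√(1 - q) : ℝ) : ℂ) * ((√(1 - q) : ℝ) : ℂ) = ((1 - q : ℝ) : ℂ) := by
    rw [← Complex.ofReal_mul, Real.mul_self_sqrt (by linarith)]
  have e2 : ((√q : ℝ) : ℂ) * ((√q : ℝ) : ℂ) = ((q : ℝ) : ℂ) := by
    rw [← Complex.ofReal_mul, Real.mul_self_sqrt (by linarith)]
  have e3 : ((sgn s : ℝ) : ℂ) * ((sgn s : ℝ) : ℂ) = 1 := by
    unfold sgn; split_ifs <;> simp
  ext i j
  fin_cases i <;> fin_cases j
  · simp [Wv, Matrix.mul_apply, Fin.sum_univ_two]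
    push_cast at e1
    exact e1
  · simp [Wv, Matrix.mul_apply, Fin.sum_univ_two]
    ring
  · simp [Wv, Matrix.mul_apply, Fin.sum_univ_two]
    ring
  · simp [Wv, Matrix.mul_apply, Fin.sum_univ_two]
    linear_combination ((sgn s : ℝ) : ℂ) * ((sgn s : ℝ) : ℂ) * e2 + (q : ℂ) * e3

theorem gad_signal {γ ν q : ℝ} (h0 : 0 ≤ q) (h1 : q ≤ 1) (s : Fin 2) :
    gad γ ν (Wv q s * (Wv q s)ᴴ)
      = !![((1 - ((1 - γ) * q + γ * ν) : ℝ) : ℂ), (sgn s * (√(1 - γ) * (√q * √(1 - q))) : ℝ);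
          (sgn s * (√(1 - γ) * (√q * √(1 - q))) : ℝ), (((1 - γ) * q + γ * ν : ℝ) : ℂ)] := by
  rw [Wv_mul h0 h1]
  ext i j
  fin_cases i <;> fin_cases j <;> simp [gad, Matrix.trace_fin_two] <;> ring

theorem ent_two {A : Matrix (Fin 2) (Fin 2) ℂ} {σ π : ℝ} (h1 : A.trace = (σ : ℂ))
    (h2 : A.det = (π : ℂ)) (h : 4 * π ≤ σ ^ 2) : ent A = pairEnt σ π := by
  have hc : A.charpoly = (Polynomial.X - Polynomial.C ((rootP σ π : ℝ) : ℂ))
      * (Polynomial.X - Polynomial.C ((rootM σ π : ℝ) : ℂ)) := by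
    have hs : (σ : ℂ) = ((rootP σ π : ℝ) : ℂ) + ((rootM σ π : ℝ) : ℂ) := by
      rw [← Complex.ofReal_add, root_add]
    have hp : (π : ℂ) = ((rootP σ π : ℝ) : ℂ) * ((rootM σ π : ℝ) : ℂ) := by
      rw [← Complex.ofReal_mul, root_mul h]
    rw [charpoly_fin_two, h1, h2, hs, hp]
    simp only [map_add, map_mul]
    ring
  unfold ent pairEnt
  rw [hc, Polynomial.roots_mul (mul_ne_zero (Polynomial.X_sub_C_ne_zero _)
    (Polynomial.X_sub_C_ne_zero _)), Polynomial.roots_X_sub_C, Polynomial.roots_X_sub_C]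
  simp

theorem pairEnt_smul {c π : ℝ} (hc : 0 ≤ c) :
    pairEnt c (c ^ 2 * π) = Real.negMulLog c + c * pairEnt 1 π := by
  have hs : Real.sqrt (c ^ 2 - 4 * (c ^ 2 * π)) = c * Real.sqrt (1 ^ 2 - 4 * π) := by
    rw [show c ^ 2 - 4 * (c ^ 2 * π) = c ^ 2 * (1 ^ 2 - 4 * π) by ring,
      Real.sqrt_mul (sq_nonneg c), Real.sqrt_sq hc]
  have e1 : rootP c (c ^ 2 * π) = c * rootP 1 π := by
    unfold rootP; rw [hs]; ring
  have e2 : rootM c (c ^ 2 * π) = c * rootM 1 π := by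
    unfold rootM; rw [hs]; ring
  unfold pairEnt
  rw [e1, e2, Real.negMulLog_mul, Real.negMulLog_mul]
  have h := root_add 1 π
  have : rootP 1 π = 1 - rootM 1 π := by linarith
  have e3 : rootP 1 π * Real.negMulLog c + rootM 1 π * Real.negMulLog c = Real.negMulLog c := by
    rw [← add_mul, h, one_mul]
  linarith

section main

variable {γ ν : ℝ} {g : ℝ → ℝ}

theorem tensorPow_smul_sum {n m : ℕ} (p : Fin m → ℝ) (ρ : Fin m → Matrix (Bits n) (Bits n) ℂ) :
    ∑ a, (p a : ℂ) • tensorPow (gad γ ν) n (ρ a)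
      = tensorPow (gad γ ν) n (∑ a, (p a : ℂ) • ρ a) :=
  (tensorPow_sum Finset.univ (fun a => (p a : ℂ)) ρ).symm

theorem holevo_upper (hγ0 : 0 ≤ γ) (hγ1 : γ ≤ 1) (hν0 : 0 ≤ ν) (hν1 : ν ≤ 1)
    (hg : ConvexOn ℝ (Icc 0 1) g) (hZ : ZClaim γ ν g) {V : ℝ}
    (hV : ∀ q ∈ Icc (0 : ℝ) 1, Real.binEntropy (γ * ν + (1 - γ) * q) - g q ≤ V * Real.log 2)
    (n : ℕ) {r : ℝ} (hr : r ∈ holevoSet (tensorPow (gad γ ν) n)) : r ≤ n * V := by
  obtain ⟨m, p, ρ, hp, hp1, hρ, rfl⟩ := hr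
  have hlog : 0 < Real.log 2 := Real.log_pos (by norm_num)
  have hK := tensorPow_isKraus hγ0 hγ1 hν0 hν1 n
  set ρb : Matrix (Bits n) (Bits n) ℂ := ∑ a, (p a : ℂ) • ρ a with hρb
  have hρbp : ρb.PosSemidef := by
    rw [hρb]
    exact posSemidef_sum _ fun a _ => smul_posSemidef (hρ a).1 (hp a)
  have hdga : ∀ a, ∑ x, dg (ρ a) x = 1 := by
    intro a; rw [sum_dg, (hρ a).2]; rfl
  have hdg : ∀ x, dg ρb x = ∑ a, p a * dg (ρ a) x := by
    intro x
    simp only [dg, hρb, Matrix.sum_apply, Matrix.smul_apply, smul_eq_mul, Complex.re_sum,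
      Complex.re_ofReal_mul]
  have hdgb : ∑ x, dg ρb x = 1 := by
    simp only [hdg]
    rw [Finset.sum_comm]
    simp only [← Finset.mul_sum, hdga, mul_one, hp1]
  have hmarg : ∀ i, marg (dg ρb) i = ∑ a, p a * marg (dg (ρ a)) i := by
    intro i
    unfold marg
    simp only [hdg, Finset.mul_sum]
    rw [Finset.sum_comm]
    apply Finset.sum_congr rfl
    intro x _
    split_ifs
    · rfl
    · simp
  have hm01 : ∀ a i, marg (dg (ρ a)) i ∈ Icc (0 : ℝ) 1 := by
    intro a i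
    refine ⟨marg_nonneg (dg_nonneg (hρ a).1) i, ?_⟩
    rw [← hdga a]
    exact marg_le (dg_nonneg (hρ a).1) i
  have hmb01 : ∀ i, marg (dg ρb) i ∈ Icc (0 : ℝ) 1 := by
    intro i
    refine ⟨marg_nonneg (dg_nonneg hρbp) i, ?_⟩
    rw [← hdgb]
    exact marg_le (dg_nonneg hρbp) i
  have hup := ent_upper hγ0 hγ1 hν0 hν1 n ρb hρbp hdgb
  have hlo : ∀ a, ∑ i, g (marg (dg (ρ a)) i) ≤ ent (tensorPow (gad γ ν) n (ρ a)) := by
    intro a
    have := ent_lower hγ0 hγ1 hν0 hν1 hg hZ n (ρ a) (hρ a).1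
    rw [hdga a] at this
    simpa using this
  have hJ : ∀ i, g (marg (dg ρb) i) ≤ ∑ a, p a * g (marg (dg (ρ a)) i) := by
    intro i
    rw [hmarg i]
    have := hg.map_sum_le (t := Finset.univ) (w := p) (p := fun a => marg (dg (ρ a)) i)
      (fun a _ => hp a) hp1 (fun a _ => hm01 a i)
    simpa [smul_eq_mul] using this
  rw [tensorPow_smul_sum, ← hρb, entropyBits_eq (hK.posSemidef hρbp).isHermitian]
  have hEB : ∀ a, entropyBits (tensorPow (gad γ ν) n (ρ a))
      = ent (tensorPow (gad γ ν) n (ρ a)) / Real.log 2 := fun a =>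
    entropyBits_eq (hK.posSemidef (hρ a).1).isHermitian
  simp only [hEB]
  have hsum : ∑ i, g (marg (dg ρb) i) ≤ ∑ a, p a * ent (tensorPow (gad γ ν) n (ρ a)) := by
    calc ∑ i, g (marg (dg ρb) i) ≤ ∑ i, ∑ a, p a * g (marg (dg (ρ a)) i) :=
          Finset.sum_le_sum fun i _ => hJ i
      _ = ∑ a, p a * ∑ i, g (marg (dg (ρ a)) i) := by
          rw [Finset.sum_comm]
          simp only [Finset.mul_sum]
      _ ≤ _ := Finset.sum_le_sum fun a _ => mul_le_mul_of_nonneg_left (hlo a) (hp a)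
  have hfin : ∑ i : Fin n, (Real.binEntropy (γ * ν + (1 - γ) * marg (dg ρb) i)
      - g (marg (dg ρb) i)) ≤ ∑ _i : Fin n, V * Real.log 2 :=
    Finset.sum_le_sum fun i _ => hV _ (hmb01 i)
  rw [Finset.sum_sub_distrib, Finset.sum_const, Finset.card_univ, Fintype.card_fin, nsmul_eq_mul]
    at hfin
  have e1 : ∑ a, p a * (ent (tensorPow (gad γ ν) n (ρ a)) / Real.log 2)
      = (∑ a, p a * ent (tensorPow (gad γ ν) n (ρ a))) / Real.log 2 := by
    rw [Finset.sum_div]
    exact Finset.sum_congr rfl fun a _ => by ring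
  rw [e1, ← sub_div, div_le_iff₀ hlog]
  linarith

theorem holevo_lower (hγ0 : 0 ≤ γ) (hγ1 : γ ≤ 1) (hν0 : 0 ≤ ν) (hν1 : ν ≤ 1) {q : ℝ}
    (hq : q ∈ Icc (0 : ℝ) 1)
    (hgq : g q = pairEnt 1 (((1 - γ) * q + γ * ν) * (1 - ((1 - γ) * q + γ * ν))
      - (1 - γ) * (q * (1 - q)))) (n : ℕ) :
    n * ((Real.binEntropy (γ * ν + (1 - γ) * q) - g q) / Real.log 2)
      ∈ holevoSet (tensorPow (gad γ ν) n) := by
  have hlog : 0 < Real.log 2 := Real.log_pos (by norm_num)
  set τ := (1 - γ) * q + γ * ν with hτ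
  have hK := tensorPow_isKraus hγ0 hγ1 hν0 hν1 n
  set ψ : Fin 2 → Matrix (Fin 2) (Fin 2) ℂ := fun s => Wv q s * (Wv q s)ᴴ with hψ
  have hψt : ∀ s, (ψ s).trace = 1 := by
    intro s
    rw [hψ]
    simp only
    rw [Wv_mul hq.1 hq.2, Matrix.trace_fin_two]
    simp
  set ρ : Bits n → Matrix (Bits n) (Bits n) ℂ := fun s => piMat (fun i => ψ (s i)) with hρ
  have hρp : ∀ s, (ρ s).PosSemidef := by
    intro s
    have : ρ s = piMat (fun i => Wv q (s i)) * (piMat (fun i => Wv q (s i)))ᴴ := by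
      rw [piMat_conjTranspose, ← piMat_mul]
    rw [this]
    exact posSemidef_self_mul_conjTranspose _
  have hρd : ∀ s, IsDensity (ρ s) := by
    intro s
    refine ⟨hρp s, ?_⟩
    rw [hρ]
    simp only
    rw [piMat_trace]
    simp only [hψt, Finset.prod_const_one]
  set p : Bits n → ℝ := fun _ => (1 / 2 : ℝ) ^ n with hp
  have hp1 : ∑ s, p s = 1 := by
    simp only [hp, Finset.sum_const, Finset.card_univ, nsmul_eq_mul]
    rw [Fintype.card_fun]
    simp
  have hmem := mem_holevoSet (Φ := tensorPow (gad γ ν) n) p ρ (fun _ => by simp only [hp]; positivity) hp1 hρd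
  have hT : ∀ s, tensorPow (gad γ ν) n (ρ s) = piMat (fun i => gad γ ν (ψ (s i))) := fun s =>
    tensorPow_piMat γ ν n _
  -- output signal states
  have hout : ∀ s, gad γ ν (ψ s) = !![((1 - τ : ℝ) : ℂ), (sgn s * (√(1 - γ) * (√q * √(1 - q))) : ℝ);
          (sgn s * (√(1 - γ) * (√q * √(1 - q))) : ℝ), ((τ : ℝ) : ℂ)] := fun s =>
    gad_signal hq.1 hq.2 s
  have houtH : ∀ s, (gad γ ν (ψ s)).IsHermitian := by
    intro s
    rw [gad_kraus hγ0 hγ1 hν0 hν1]
    exact (posSemidef_sum _ fun k _ =>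
      (posSemidef_self_mul_conjTranspose (Wv q s)).mul_mul_conjTranspose_same _).isHermitian
  have houtt : ∀ s, (gad γ ν (ψ s)).trace = 1 := by
    intro s
    rw [hout, Matrix.trace_fin_two]
    simp
  have hsg : ∀ s, sgn s * sgn s = 1 := by
    intro s; unfold sgn; split_ifs <;> norm_num
  have hdet : ∀ s, (gad γ ν (ψ s)).det = ((τ * (1 - τ) - (1 - γ) * (q * (1 - q)) : ℝ) : ℂ) := by
    intro s
    rw [hout, Matrix.det_fin_two]
    simp only [Matrix.of_apply, Matrix.cons_val', Matrix.cons_val_zero, Matrix.cons_val_one,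
      Matrix.cons_val_fin_one]
    rw [← Complex.ofReal_mul, ← Complex.ofReal_mul, ← Complex.ofReal_sub]
    congr 1
    have a1 : √(1 - γ) * √(1 - γ) = 1 - γ := Real.mul_self_sqrt (by linarith)
    have a2 : √q * √q = q := Real.mul_self_sqrt hq.1
    have a3 : √(1 - q) * √(1 - q) = 1 - q := Real.mul_self_sqrt (by linarith [hq.2])
    have : sgn s * (√(1 - γ) * (√q * √(1 - q))) * (sgn s * (√(1 - γ) * (√q * √(1 - q))))
        = (sgn s * sgn s) * ((√(1 - γ) * √(1 - γ)) * ((√q * √q) * (√(1 - q) * √(1 - q)))) := by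
      ring
    rw [this, hsg, a1, a2, a3]
    ring
  have hdisc : 4 * (τ * (1 - τ) - (1 - γ) * (q * (1 - q))) ≤ 1 ^ 2 := by
    have : 0 ≤ (1 - γ) * (q * (1 - q)) :=
      mul_nonneg (by linarith) (mul_nonneg hq.1 (by linarith [hq.2]))
    nlinarith [sq_nonneg (2 * τ - 1)]
  have hent : ∀ s, ent (gad γ ν (ψ s)) = g q := by
    intro s
    rw [hgq]
    exact ent_two (by rw [houtt s]; simp) (hdet s) hdisc
  have hentT : ∀ s, ent (tensorPow (gad γ ν) n (ρ s)) = n * g q := by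
    intro s
    rw [hT, ent_piMat _ (fun i => houtH _) (fun i => houtt _)]
    simp [hent]
  have havg : ∑ s, (p s : ℂ) • tensorPow (gad γ ν) n (ρ s)
      = diagonal (fun x : Bits n => ((∏ i, (if x i = 0 then 1 - τ else τ) : ℝ) : ℂ)) := by
    have e1 : ∀ s : Bits n, (p s : ℂ) • tensorPow (gad γ ν) n (ρ s)
        = piMat (fun i => ((1 / 2 : ℝ) : ℂ) • gad γ ν (ψ (s i))) := by
      intro s
      rw [hT]
      ext x y
      simp only [piMat, Matrix.smul_apply, smul_eq_mul, Finset.prod_mul_distrib,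
        Finset.prod_const, Finset.card_univ, Fintype.card_fin, hp]
      push_cast
      ring
    simp only [e1]
    rw [← piMat_sum (fun (_ : Fin n) s => ((1 / 2 : ℝ) : ℂ) • gad γ ν (ψ s))]
    have e2 : ∑ s, ((1 / 2 : ℝ) : ℂ) • gad γ ν (ψ s)
        = diagonal (fun b : Fin 2 => (((if b = 0 then 1 - τ else τ) : ℝ) : ℂ)) := by
      rw [Fin.sum_univ_two, hout, hout]
      ext i j
      fin_cases i <;> fin_cases j <;> simp [sgn] <;> ring
    simp only [e2]
    rw [piMat_diagonal]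
    congr 1
    funext x
    push_cast
    rfl
  have hentavg : ent (∑ s, (p s : ℂ) • tensorPow (gad γ ν) n (ρ s))
      = n * Real.binEntropy (γ * ν + (1 - γ) * q) := by
    rw [havg, ent_diagonal, shannon_prod n (fun _ b => if b = 0 then 1 - τ else τ)
      (fun i => by simp)]
    simp only [Finset.sum_const, Finset.card_univ, Fintype.card_fin, nsmul_eq_mul]
    rw [Real.binEntropy_eq_negMulLog_add_negMulLog_one_sub]
    have : γ * ν + (1 - γ) * q = τ := by rw [hτ]; ring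
    rw [this]
    simp
    left
    ring
  have hTp : ∀ s, (tensorPow (gad γ ν) n (ρ s)).PosSemidef := fun s => hK.posSemidef (hρp s)
  have havgH : (∑ s, (p s : ℂ) • tensorPow (gad γ ν) n (ρ s)).IsHermitian :=
    (posSemidef_sum _ fun s _ => smul_posSemidef (hTp s) (by simp only [hp]; positivity)).isHermitian
  rw [entropyBits_eq havgH, hentavg] at hmem
  have e3 : ∑ s, p s * entropyBits (tensorPow (gad γ ν) n (ρ s)) = n * g q / Real.log 2 := by
    have : ∀ s, p s * entropyBits (tensorPow (gad γ ν) n (ρ s)) = p s * (n * g q / Real.log 2) := by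
      intro s
      rw [entropyBits_eq (hTp s).isHermitian, hentT]
    simp only [this]
    rw [← Finset.sum_mul, hp1, one_mul]
  rw [e3] at hmem
  convert hmem using 1
  ring

end main

/-- transport of Holevo sets along a relabelling of the basis -/
theorem holevoSet_transport {X Y : Type} [Fintype X] [DecidableEq X] [Fintype Y] [DecidableEq Y]
    (e : X ≃ Y) (Φ : Matrix Y Y ℂ → Matrix Y Y ℂ) (Ψ : Matrix X X ℂ → Matrix X X ℂ)
    (h : ∀ ρ, Ψ (ρ.submatrix e e) = (Φ ρ).submatrix e e) : holevoSet Φ ⊆ holevoSet Ψ := by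
  have hS : ∀ A : Matrix Y Y ℂ, entropyBits (A.submatrix e e) = entropyBits A := by
    intro A
    by_cases hA : A.IsHermitian
    · rw [entropyBits_eq hA, entropyBits_eq (hA.submatrix e), ent_submatrix]
    · have hA' : ¬ (A.submatrix e e).IsHermitian := by
        intro h'
        apply hA
        have := h'.submatrix e.symm
        simpa using this
      unfold entropyBits
      rw [dif_neg hA, dif_neg hA']
  rintro r ⟨m, p, ρ, hp, hp1, hρ, rfl⟩
  refine ⟨m, p, fun a => (ρ a).submatrix e e, hp, hp1, fun a => ⟨(hρ a).1.submatrix e, ?_⟩, ?_⟩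
  · rw [← (hρ a).2]
    simp only [Matrix.trace, Matrix.diag_apply, submatrix_apply]
    exact e.sum_comp (fun y => ρ a y y)
  · have e1 : ∑ a, (p a : ℂ) • Ψ ((ρ a).submatrix e e)
        = (∑ a, (p a : ℂ) • Φ (ρ a)).submatrix e e := by
      ext x y
      simp only [Matrix.sum_apply, Matrix.smul_apply, submatrix_apply, h]
    rw [e1, hS]
    simp only [h, hS]

theorem holevoSet_one (γ ν : ℝ) : holevoSet (gad γ ν) = holevoSet (tensorPow (gad γ ν) 1) := by
  set e : Bits 1 ≃ Fin 2 := Equiv.funUnique (Fin 1) (Fin 2) with he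
  have key : ∀ ρ : Matrix (Fin 2) (Fin 2) ℂ,
      tensorPow (gad γ ν) 1 (ρ.submatrix e e) = (gad γ ν ρ).submatrix e e := by
    intro ρ
    ext x y
    simp only [tensorPow, submatrix_apply]
    rw [gad_ext γ ν ρ (e x) (e y), ← e.sum_comp]
    apply Finset.sum_congr rfl
    intro x' _
    rw [← e.sum_comp]
    apply Finset.sum_congr rfl
    intro y' _
    simp [he, Equiv.funUnique]
  apply Set.Subset.antisymm
  · exact holevoSet_transport e _ _ key
  · apply holevoSet_transport e.symm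
    intro ρ
    have := key (ρ.submatrix e.symm e.symm)
    have h2 : (ρ.submatrix e.symm e.symm).submatrix e e = ρ := by
      ext x y; simp
    rw [h2] at this
    rw [this]
    ext x y; simp

/-- abstract additivity statement from a block inequality -/
theorem additivity {γ ν : ℝ} {g : ℝ → ℝ} (hγ0 : 0 ≤ γ) (hγ1 : γ ≤ 1) (hν0 : 0 ≤ ν) (hν1 : ν ≤ 1)
    (hg : ConvexOn ℝ (Icc 0 1) g) (hZ : ZClaim γ ν g)
    (hgq : ∀ q, g q = pairEnt 1 (((1 - γ) * q + γ * ν) * (1 - ((1 - γ) * q + γ * ν))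
      - (1 - γ) * (q * (1 - q)))) :
    (∀ n : ℕ, IsGreatest (holevoSet (tensorPow (gad γ ν) n)) (n * holevo (gad γ ν))) ∧
    rateSet (gad γ ν) = {holevo (gad γ ν)} ∧
    capacity (gad γ ν) = holevo (gad γ ν) ∧
    IsGreatest ((fun q : ℝ => (Real.binEntropy (γ * ν + (1 - γ) * q) - g q) / Real.log 2) ''
      Icc 0 1) (capacity (gad γ ν)) := by
  have hlog : 0 < Real.log 2 := Real.log_pos (by norm_num)
  have hcont : Continuous (fun q : ℝ => (Real.binEntropy (γ * ν + (1 - γ) * q) - g q) / Real.log 2) := by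
    have hgc : Continuous g := by
      have : g = fun q => pairEnt 1 (((1 - γ) * q + γ * ν) * (1 - ((1 - γ) * q + γ * ν))
        - (1 - γ) * (q * (1 - q))) := funext hgq
      rw [this]
      unfold pairEnt rootP rootM
      apply Continuous.add
      · exact Real.continuous_negMulLog.comp (by fun_prop)
      · exact Real.continuous_negMulLog.comp (by fun_prop)
    apply Continuous.div_const
    apply Continuous.sub _ hgc
    exact Real.binEntropy_continuous.comp (by fun_prop)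
  obtain ⟨q, hq, hmax⟩ := (isCompact_Icc (a := (0 : ℝ)) (b := 1)).exists_isMaxOn
    ⟨0, by simp⟩ hcont.continuousOn
  set V := (Real.binEntropy (γ * ν + (1 - γ) * q) - g q) / Real.log 2 with hV
  have hVb : ∀ q ∈ Icc (0 : ℝ) 1, Real.binEntropy (γ * ν + (1 - γ) * q) - g q ≤ V * Real.log 2 := by
    intro q' hq'
    have := hmax hq'
    simp only [Set.mem_ofPred_eq] at this
    rw [← hV, div_le_iff₀ hlog] at this
    exact this
  have hG : ∀ n : ℕ, IsGreatest (holevoSet (tensorPow (gad γ ν) n)) (n * V) := fun n =>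
    ⟨holevo_lower hγ0 hγ1 hν0 hν1 hq (hgq q) n,
      fun r hr => holevo_upper hγ0 hγ1 hν0 hν1 hg hZ hVb n hr⟩
  have h1 : holevo (gad γ ν) = V := by
    unfold holevo
    rw [holevoSet_one, (hG 1).csSup_eq]
    simp
  have hrate : rateSet (gad γ ν) = {holevo (gad γ ν)} := by
    ext r
    simp only [rateSet, Set.mem_ofPred_eq, Set.mem_singleton_iff]
    have hn : ∀ n : ℕ, 1 ≤ n → holevo (tensorPow (gad γ ν) n) / n = V := by
      intro n hn
      unfold holevo
      rw [(hG n).csSup_eq]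
      have : (n : ℝ) ≠ 0 := by positivity
      field_simp
    constructor
    · rintro ⟨n, hn1, rfl⟩
      rw [hn n hn1, h1]
    · rintro rfl
      exact ⟨1, le_rfl, by rw [hn 1 le_rfl, h1]⟩
  have hcap : capacity (gad γ ν) = holevo (gad γ ν) := by
    unfold capacity
    rw [hrate, csSup_singleton]
  refine ⟨fun n => by rw [h1]; exact hG n, hrate, hcap, ?_⟩
  rw [hcap, h1]
  refine ⟨⟨q, hq, rfl⟩, ?_⟩
  rintro _ ⟨q', hq', rfl⟩
  exact hmax hq'

end Vale.Agent.H28
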