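import Mathlib

open Matrix
open scoped ComplexOrder

namespace Vale.Agent.H28

/-- Density matrices: positive semidefinite with trace one. -/
def IsDensity {X : Type} [Fintype X] (ρ : Matrix X X ℂ) : Prop :=
  ρ.PosSemidef ∧ ρ.trace = 1

/-- Von Neumann entropy in bits, `-∑ λᵢ log₂ λᵢ` over the eigenvalues (with multiplicity) of a
Hermitian matrix (and the junk value `0` on matrices that are not Hermitian). -/
noncomputable def entropyBits {X : Type} [Fintype X] [DecidableEq X] (ρ : Matrix X X ℂ) : ℝ :=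
  open Classical in
  if h : ρ.IsHermitian then (∑ i, Real.negMulLog (h.eigenvalues i)) / Real.log 2 else 0

/-- The generalized amplitude damping channel with damping strength `γ` and stationary
excited-state population `ν`, as a linear map on all `2 × 2` complex matrices. -/
noncomputable def gad (γ ν : ℝ) (ρ : Matrix (Fin 2) (Fin 2) ℂ) : Matrix (Fin 2) (Fin 2) ℂ :=
  !![ρ.trace - ((1 - γ : ℝ) * ρ 1 1 + (γ * ν : ℝ) * ρ.trace), (√(1 - γ) : ℝ) * ρ 0 1;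
    (√(1 - γ) : ℝ) * ρ 1 0, (1 - γ : ℝ) * ρ 1 1 + (γ * ν : ℝ) * ρ.trace]

/-- The `n`-fold tensor power of a linear map `Φ` of `2 × 2` matrices.  The `n`-qubit space has the
standard basis indexed by bit strings `Fin n → Fin 2`, and
`(Φ^{⊗n} ρ)_{x,y} = ∑_{x',y'} (∏ᵢ Φ(|x'ᵢ⟩⟨y'ᵢ|)_{xᵢ,yᵢ}) ρ_{x',y'}`. -/
noncomputable def tensorPow (Φ : Matrix (Fin 2) (Fin 2) ℂ → Matrix (Fin 2) (Fin 2) ℂ) (n : ℕ)
    (ρ : Matrix (Fin n → Fin 2) (Fin n → Fin 2) ℂ) :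
    Matrix (Fin n → Fin 2) (Fin n → Fin 2) ℂ :=
  fun x y => ∑ x', ∑ y', (∏ i, Φ (Matrix.single (x' i) (y' i) 1) (x i) (y i)) * ρ x' y'

/-- All Holevo quantities `S(∑ₐ pₐ Φ(ρₐ)) - ∑ₐ pₐ S(Φ(ρₐ))` of finite ensembles of input states. -/
def holevoSet {X : Type} [Fintype X] [DecidableEq X] (Φ : Matrix X X ℂ → Matrix X X ℂ) : Set ℝ :=
  {r | ∃ (m : ℕ) (p : Fin m → ℝ) (ρ : Fin m → Matrix X X ℂ),
    (∀ a, 0 ≤ p a) ∧ ∑ a, p a = 1 ∧ (∀ a, IsDensity (ρ a)) ∧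
    r = entropyBits (∑ a, (p a : ℂ) • Φ (ρ a)) - ∑ a, p a * entropyBits (Φ (ρ a))}

/-- The Holevo capacity `χ(Φ)`. -/
noncomputable def holevo {X : Type} [Fintype X] [DecidableEq X]
    (Φ : Matrix X X ℂ → Matrix X X ℂ) : ℝ :=
  sSup (holevoSet Φ)

/-- The numbers `χ(Φ^{⊗n}) / n`, `n ≥ 1`. -/
def rateSet (Φ : Matrix (Fin 2) (Fin 2) ℂ → Matrix (Fin 2) (Fin 2) ℂ) : Set ℝ :=
  {r | ∃ n : ℕ, 1 ≤ n ∧ r = holevo (tensorPow Φ n) / n}

/-- The classical capacity `C(Φ) = sup_n χ(Φ^{⊗n}) / n` of a qubit channel. -/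
noncomputable def capacity (Φ : Matrix (Fin 2) (Fin 2) ℂ → Matrix (Fin 2) (Fin 2) ℂ) : ℝ :=
  sSup (rateSet Φ)

end Vale.Agent.H28
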