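import Vale.Agent.H28.Scalar

open Filter Topology Set

namespace Vale.Agent.H28

theorem two_mul_le_log {r : ℝ} (h0 : 0 ≤ r) (h1 : r < 1) :
    2 * r ≤ Real.log (1 + r) - Real.log (1 - r) := by
  have hs := Real.hasSum_log_sub_log_of_abs_lt_one (x := r) (by rw [abs_of_nonneg h0]; exact h1)
  have := sum_le_hasSum {0} (fun k _ => by positivity) hs
  simpa using this

/-- the auxiliary function `√(1-r²) (log(1+r) - log(1-r)) / (2r)` is decreasing -/
theorem kaux_anti : AntitoneOn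
    (fun r : ℝ => Real.sqrt (1 - r ^ 2) * (Real.log (1 + r) - Real.log (1 - r)) / (2 * r))
    (Ioo 0 1) := by
  have hder : ∀ r ∈ Ioo (0 : ℝ) 1, HasDerivAt
      (fun r : ℝ => Real.sqrt (1 - r ^ 2) * (Real.log (1 + r) - Real.log (1 - r)) / (2 * r))
      ((2 * r - (Real.log (1 + r) - Real.log (1 - r))) / (2 * r ^ 2 * Real.sqrt (1 - r ^ 2))) r := by
    rintro r ⟨h0, h1⟩
    have hp1 : 0 < 1 + r := by linarith
    have hp2 : 0 < 1 - r := by linarith
    have hp3 : 0 < 1 - r ^ 2 := by nlinarith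
    have e1 : HasDerivAt (fun r : ℝ => Real.sqrt (1 - r ^ 2)) (-(2 * r) / (2 * Real.sqrt (1 - r ^ 2))) r := by
      have : HasDerivAt (fun r : ℝ => 1 - r ^ 2) (-(2 * r)) r := by
        have := (hasDerivAt_pow 2 r).const_sub 1
        simpa using this
      exact this.sqrt hp3.ne'
    have e2 : HasDerivAt (fun r : ℝ => Real.log (1 + r)) (1 / (1 + r)) r :=
      ((hasDerivAt_id r).const_add 1).log hp1.ne'
    have e3 : HasDerivAt (fun r : ℝ => Real.log (1 - r)) (-1 / (1 - r)) r :=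
      ((hasDerivAt_id r).const_sub 1).log hp2.ne'
    have e4 : HasDerivAt (fun r : ℝ => 2 * r) 2 r := by
      simpa using (hasDerivAt_id r).const_mul 2
    have e5 := (e1.fun_mul (e2.fun_sub e3)).fun_div e4 (by positivity)
    refine HasDerivAt.congr_deriv e5 ?_
    set w := Real.sqrt (1 - r ^ 2) with hw
    have hwp : 0 < w := Real.sqrt_pos.2 hp3
    have hw2 : w ^ 2 = 1 - r ^ 2 := Real.sq_sqrt hp3.le
    set L := Real.log (1 + r) - Real.log (1 - r) with hL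
    have hrw : (1 / (1 + r) - -1 / (1 - r)) = 2 / w ^ 2 := by
      rw [hw2]
      field_simp
      ring
    rw [hrw]
    field_simp
    rw [hw2]
    ring
  apply antitoneOn_of_deriv_nonpos (convex_Ioo 0 1)
  · intro r hr
    exact (hder r hr).continuousAt.continuousWithinAt
  · intro r hr
    rw [interior_Ioo] at hr
    exact (hder r hr).differentiableAt.differentiableWithinAt
  · intro r hr
    rw [interior_Ioo] at hr
    rw [(hder r hr).deriv]
    apply div_nonpos_of_nonpos_of_nonneg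
    · have := two_mul_le_log hr.1.le hr.2
      linarith
    · positivity

theorem pairEnt_cont : Continuous (fun C : ℝ => pairEnt 1 (C ^ 2 / 4)) := by
  unfold pairEnt rootP rootM
  have h : Continuous (fun C : ℝ => Real.sqrt (1 ^ 2 - 4 * (C ^ 2 / 4))) := by fun_prop
  apply Continuous.add
  · exact Real.continuous_negMulLog.comp (by fun_prop)
  · exact Real.continuous_negMulLog.comp (by fun_prop)

/-- convexity of `C ↦ h((1+√(1-C²))/2)` on `[0,1]` -/
theorem eof_convex : ConvexOn ℝ (Icc 0 1) (fun C : ℝ => pairEnt 1 (C ^ 2 / 4)) := by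
  have hder : ∀ C ∈ Ioo (0 : ℝ) 1, HasDerivAt (fun C : ℝ => pairEnt 1 (C ^ 2 / 4))
      ((fun r : ℝ => Real.sqrt (1 - r ^ 2) * (Real.log (1 + r) - Real.log (1 - r)) / (2 * r))
        (Real.sqrt (1 - C ^ 2))) C := by
    rintro C ⟨h0, h1⟩
    have hp : 0 < 1 - C ^ 2 := by nlinarith
    set r := Real.sqrt (1 - C ^ 2) with hr
    have hr0 : 0 < r := Real.sqrt_pos.2 hp
    have hr2 : r ^ 2 = 1 - C ^ 2 := Real.sq_sqrt hp.le
    have hr1 : r < 1 := by nlinarith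
    have e1 : HasDerivAt (fun C : ℝ => Real.sqrt (1 - C ^ 2)) (-(2 * C) / (2 * r)) C := by
      have : HasDerivAt (fun C : ℝ => 1 - C ^ 2) (-(2 * C)) C := by
        have := (hasDerivAt_pow 2 C).const_sub 1
        simpa using this
      exact this.sqrt hp.ne'
    have e2 : HasDerivAt (fun C : ℝ => (1 + Real.sqrt (1 - C ^ 2)) / 2) (-(2 * C) / (2 * r) / 2) C :=
      (e1.const_add 1).div_const 2
    have e3 : HasDerivAt (fun C : ℝ => (1 - Real.sqrt (1 - C ^ 2)) / 2)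
        (-(-(2 * C) / (2 * r)) / 2) C :=
      (e1.const_sub 1).div_const 2
    have hp1 : (1 + Real.sqrt (1 - C ^ 2)) / 2 ≠ 0 := by rw [← hr]; positivity
    have hp2 : (1 - Real.sqrt (1 - C ^ 2)) / 2 ≠ 0 := by
      rw [← hr]
      have : 0 < 1 - r := by linarith
      positivity
    have f1 := (Real.hasDerivAt_negMulLog hp1).comp C e2
    have f2 := (Real.hasDerivAt_negMulLog hp2).comp C e3
    have f3 := f1.add f2
    have heq : (fun C : ℝ => pairEnt 1 (C ^ 2 / 4))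
        = (Real.negMulLog ∘ fun C => (1 + Real.sqrt (1 - C ^ 2)) / 2)
          + (Real.negMulLog ∘ fun C => (1 - Real.sqrt (1 - C ^ 2)) / 2) := by
      funext C
      unfold pairEnt rootP rootM
      simp only [Pi.add_apply, Function.comp_apply]
      have : (1 : ℝ) ^ 2 - 4 * (C ^ 2 / 4) = 1 - C ^ 2 := by ring
      rw [this]
    rw [heq]
    refine HasDerivAt.congr_deriv f3 ?_
    simp only
    rw [← hr]
    have hC : Real.sqrt (1 - r ^ 2) = C := by
      rw [hr2]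
      rw [show 1 - (1 - C ^ 2) = C ^ 2 by ring]
      exact Real.sqrt_sq h0.le
    rw [hC, Real.log_div (by positivity) (by norm_num), Real.log_div (by linarith) (by norm_num)]
    field_simp
    ring
  apply MonotoneOn.convexOn_of_deriv (convex_Icc 0 1) pairEnt_cont.continuousOn
  · intro C hC
    rw [interior_Icc] at hC
    exact (hder C hC).differentiableAt.differentiableWithinAt
  · rw [interior_Icc]
    intro C₁ hC₁ C₂ hC₂ h12
    rw [(hder C₁ hC₁).deriv, (hder C₂ hC₂).deriv]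
    have g : ∀ C ∈ Ioo (0 : ℝ) 1, Real.sqrt (1 - C ^ 2) ∈ Ioo (0 : ℝ) 1 := by
      rintro C ⟨h0, h1⟩
      have hp : 0 < 1 - C ^ 2 := by nlinarith
      have hr2 : Real.sqrt (1 - C ^ 2) ^ 2 = 1 - C ^ 2 := Real.sq_sqrt hp.le
      have := Real.sqrt_pos.2 hp
      exact ⟨this, by nlinarith⟩
    apply kaux_anti (g C₂ hC₂) (g C₁ hC₁)
    apply Real.sqrt_le_sqrt
    nlinarith [hC₁.1, hC₂.1]

/-- convexity of `q ↦ h((1+√(1-4κq²))/2)` on `[0,1]` -/
theorem g_convex {κ : ℝ} (h0 : 0 ≤ κ) (h1 : 4 * κ ≤ 1) :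
    ConvexOn ℝ (Icc 0 1) (fun x : ℝ => pairEnt 1 (κ * x ^ 2)) := by
  set c := 2 * Real.sqrt κ with hc
  have hc0 : 0 ≤ c := by positivity
  have hc2 : c ^ 2 = 4 * κ := by rw [hc, mul_pow, Real.sq_sqrt h0]; ring
  have hc1 : c ≤ 1 := by nlinarith
  refine ⟨convex_Icc 0 1, ?_⟩
  intro x hx y hy a b ha hb hab
  have hx' : c * x ∈ Icc (0 : ℝ) 1 := ⟨mul_nonneg hc0 hx.1, by nlinarith [hx.1, hx.2]⟩
  have hy' : c * y ∈ Icc (0 : ℝ) 1 := ⟨mul_nonneg hc0 hy.1, by nlinarith [hy.1, hy.2]⟩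
  have := eof_convex.2 hx' hy' ha hb hab
  simp only [smul_eq_mul] at this ⊢
  have e : ∀ z : ℝ, (c * z) ^ 2 / 4 = κ * z ^ 2 := by
    intro z; rw [mul_pow, hc2]; ring
  have e2 : a * (c * x) + b * (c * y) = c * (a * x + b * y) := by ring
  rw [e2, e, e, e] at this
  exact this

/-- perspective subadditivity -/
theorem persp {f : ℝ → ℝ} (hf : ConvexOn ℝ (Icc 0 1) f) {t₁ t₂ Q₁ Q₂ : ℝ} (h1 : 0 ≤ Q₁)
    (h2 : Q₁ ≤ t₁) (h3 : 0 ≤ Q₂) (h4 : Q₂ ≤ t₂) :
    (t₁ + t₂) * f ((Q₁ + Q₂) / (t₁ + t₂)) ≤ t₁ * f (Q₁ / t₁) + t₂ * f (Q₂ / t₂) := by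
  have ht₁ : 0 ≤ t₁ := h1.trans h2
  have ht₂ : 0 ≤ t₂ := h3.trans h4
  rcases ht₁.eq_or_lt with h | h
  · have : Q₁ = 0 := by linarith
    rw [← h, this]; simp
  rcases ht₂.eq_or_lt with h' | h'
  · have : Q₂ = 0 := by linarith
    rw [← h', this]; simp
  have ht : 0 < t₁ + t₂ := by linarith
  have m1 : Q₁ / t₁ ∈ Icc (0 : ℝ) 1 := ⟨div_nonneg h1 ht₁, (div_le_one h).2 h2⟩
  have m2 : Q₂ / t₂ ∈ Icc (0 : ℝ) 1 := ⟨div_nonneg h3 ht₂, (div_le_one h').2 h4⟩
  have m3 : 0 ≤ t₁ / (t₁ + t₂) := by positivity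
  have m4 : 0 ≤ t₂ / (t₁ + t₂) := by positivity
  have := hf.2 m1 m2 m3 m4 (by rw [← add_div, div_self ht.ne'])
  simp only [smul_eq_mul] at this
  have e : t₁ / (t₁ + t₂) * (Q₁ / t₁) + t₂ / (t₁ + t₂) * (Q₂ / t₂) = (Q₁ + Q₂) / (t₁ + t₂) := by
    field_simp
  rw [e] at this
  calc (t₁ + t₂) * f ((Q₁ + Q₂) / (t₁ + t₂))
      ≤ (t₁ + t₂) * (t₁ / (t₁ + t₂) * f (Q₁ / t₁) + t₂ / (t₁ + t₂) * f (Q₂ / t₂)) :=
        mul_le_mul_of_nonneg_left this ht.le
    _ = _ := by field_simp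

end Vale.Agent.H28
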