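import Mathlib

open Matrix
open scoped ComplexOrder

namespace Vale.Agent.H28

/-- `φ x = - x log x`. -/
noncomputable abbrev phi (x : ℝ) : ℝ := Real.negMulLog x

/-- entropy (nats, unnormalised) computed from the characteristic polynomial. -/
noncomputable def ent {X : Type*} [Fintype X] [DecidableEq X] (A : Matrix X X ℂ) : ℝ :=
  (A.charpoly.roots.map (fun z => Real.negMulLog z.re)).sum

section basic

variable {X Y : Type*} [Fintype X] [DecidableEq X] [Fintype Y] [DecidableEq Y]

theorem ent_eq {A : Matrix X X ℂ} (hA : A.IsHermitian) :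
    ent A = ∑ i, Real.negMulLog (hA.eigenvalues i) := by
  unfold ent
  rw [hA.roots_charpoly_eq_eigenvalues, Multiset.map_map]
  simp

theorem ent_congr {A : Matrix X X ℂ} {B : Matrix Y Y ℂ} (h : A.charpoly = B.charpoly) :
    ent A = ent B := by
  unfold ent
  rw [h]

theorem ent_reindex (e : X ≃ Y) (A : Matrix X X ℂ) : ent (reindex e e A) = ent A :=
  ent_congr (charpoly_reindex e A)

theorem ent_submatrix (e : Y ≃ X) (A : Matrix X X ℂ) : ent (A.submatrix e e) = ent A := by
  have := ent_reindex e.symm A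
  simpa [reindex_apply] using this

theorem ent_diagonal (d : X → ℝ) :
    ent (diagonal fun i => (d i : ℂ)) = ∑ i, Real.negMulLog (d i) := by
  unfold ent
  rw [charpoly_diagonal, Polynomial.roots_prod]
  · simp
  · simp [Finset.prod_ne_zero_iff, Polynomial.X_sub_C_ne_zero]

theorem ent_fromBlocks_diag {A : Matrix X X ℂ} {D : Matrix Y Y ℂ} :
    ent (fromBlocks A 0 0 D) = ent A + ent D := by
  unfold ent
  rw [charpoly_fromBlocks_zero₁₂, Polynomial.roots_mul]
  · simp
  · exact mul_ne_zero (charpoly_monic A).ne_zero (charpoly_monic D).ne_zero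

theorem ent_conj {A : Matrix X X ℂ} {U V : Matrix X X ℂ} (h : V * U = 1) :
    ent (U * A * V) = ent A := by
  apply ent_congr
  rw [mul_assoc, charpoly_mul_comm, mul_assoc, h, mul_one]

/-- spectral theorem in plain matrix form -/
theorem spectral' {A : Matrix X X ℂ} (hA : A.IsHermitian) :
    ∃ U : Matrix X X ℂ, Uᴴ * U = 1 ∧ U * Uᴴ = 1 ∧
      A = U * diagonal (fun i => (hA.eigenvalues i : ℂ)) * Uᴴ := by
  refine ⟨hA.eigenvectorUnitary, ?_, ?_, ?_⟩
  · simpa [star_eq_conjTranspose] using Unitary.coe_star_mul_self hA.eigenvectorUnitary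
  · simpa [star_eq_conjTranspose] using Unitary.coe_mul_star_self hA.eigenvectorUnitary
  · have h := hA.spectral_theorem
    rw [Unitary.conjStarAlgAut_apply] at h
    simpa [star_eq_conjTranspose, Function.comp_def] using h

theorem det_add_eq {A : Matrix X X ℂ} (hA : A.IsHermitian) (s : ℝ) :
    ((s : ℂ) • (1 : Matrix X X ℂ) + A).det = ((∏ i, (s + hA.eigenvalues i) : ℝ) : ℂ) := by
  obtain ⟨U, h1, h2, h3⟩ := spectral' hA
  have : (s : ℂ) • (1 : Matrix X X ℂ) + A
      = U * diagonal (fun i => ((s + hA.eigenvalues i : ℝ) : ℂ)) * Uᴴ := by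
    conv_lhs => rw [h3]
    have e : (diagonal (fun i => ((s + hA.eigenvalues i : ℝ) : ℂ)) : Matrix X X ℂ)
        = (s : ℂ) • 1 + diagonal (fun i => (hA.eigenvalues i : ℂ)) := by
      ext i j
      by_cases hij : i = j
      · subst hij; simp
      · simp [hij]
    rw [e, mul_add, add_mul, Matrix.mul_smul, Matrix.smul_mul, mul_one, h2]
  rw [this, det_mul, det_mul, mul_right_comm, ← det_mul, h2, det_one, one_mul, det_diagonal]
  push_cast
  rfl

end basic

end Vale.Agent.H28
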