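import Mathlib

open Matrix Complex
open scoped ComplexOrder

namespace Vale.Agent.H28

theorem scalar_key {h c l : ℝ} {w : ℂ} (hc : 0 ≤ c) (hh : c < h) (hw : ‖w‖ ^ 2 ≤ c * w.re) :
    ‖(h : ℂ) + l * I‖ * (h - c) ≤ ‖(h : ℂ) + l * I - w‖ * h := by
  have hpos : 0 < h := lt_of_le_of_lt hc hh
  set z : ℂ := (h : ℂ) + l * I with hz
  have h1 : ‖w - (c / 2 : ℝ)‖ ≤ c / 2 := by
    have e : ‖w - (c / 2 : ℝ)‖ ^ 2 = ‖w‖ ^ 2 - c * w.re + (c / 2) ^ 2 := by
      rw [← Complex.normSq_eq_norm_sq, ← Complex.normSq_eq_norm_sq, Complex.normSq_apply,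
        Complex.normSq_apply]
      simp only [Complex.sub_re, Complex.sub_im, Complex.ofReal_re, Complex.ofReal_im]
      ring
    have : ‖w - (c / 2 : ℝ)‖ ^ 2 ≤ (c / 2) ^ 2 := by rw [e]; linarith
    exact (pow_le_pow_iff_left₀ (norm_nonneg _) (by positivity) (by norm_num)).1 this
  have h2 : ‖z - (c / 2 : ℝ)‖ ≤ ‖z - w‖ + c / 2 := by
    have : z - (c / 2 : ℝ) = (z - w) + (w - (c / 2 : ℝ)) := by ring
    rw [this]
    exact (norm_add_le _ _).trans (by linarith)
  have hN : h ≤ ‖z‖ := by
    have : z.re = h := by simp [hz]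
    rw [← this]; exact Complex.re_le_norm z
  have hM2 : ‖z - (c / 2 : ℝ)‖ ^ 2 = ‖z‖ ^ 2 - h * c + c ^ 2 / 4 := by
    rw [← Complex.normSq_eq_norm_sq, ← Complex.normSq_eq_norm_sq, Complex.normSq_apply,
      Complex.normSq_apply]
    simp [hz]
    ring
  have h3 : h * c / 2 + ‖z‖ * (h - c) ≤ h * ‖z - (c / 2 : ℝ)‖ := by
    have hl : 0 ≤ h * c / 2 + ‖z‖ * (h - c) := by
      have : 0 ≤ h - c := by linarith
      positivity
    apply (pow_le_pow_iff_left₀ hl (by positivity) (by norm_num : (2 : ℕ) ≠ 0)).1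
    rw [mul_pow, hM2]
    have hk : 0 ≤ c * ((‖z‖ - h) * ((2 * h - c) * ‖z‖ + h ^ 2)) := by
      have a1 : 0 ≤ ‖z‖ - h := by linarith
      have a2 : 0 ≤ 2 * h - c := by linarith
      positivity
    nlinarith [hk]
  nlinarith [h2, h3, hpos, mul_le_mul_of_nonneg_left h2 hpos.le]

/-- Cauchy-Schwarz for a positive definite form, in the shape needed below -/
theorem cs_key {X : Type*} [Fintype X] [DecidableEq X] {A : Matrix X X ℂ} (hA : A.PosDef)
    (b u : X → ℂ) :
    ‖star b ⬝ᵥ u‖ ^ 2 ≤ (star b ⬝ᵥ (A⁻¹ *ᵥ b)).re * (star u ⬝ᵥ (A *ᵥ u)).re := by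
  set v := A⁻¹ *ᵥ b with hv
  have hunit : IsUnit A.det := (Matrix.isUnit_iff_isUnit_det A).1 hA.isUnit
  have hAv : A *ᵥ v = b := by
    rw [hv, mulVec_mulVec, Matrix.mul_nonsing_inv _ hunit, one_mulVec]
  set w := star b ⬝ᵥ u with hw
  set c := star b ⬝ᵥ v with hcdef
  have hc0 : 0 ≤ c := hA.inv.posSemidef.dotProduct_mulVec_nonneg b
  have hcre : c = (c.re : ℂ) := by
    obtain ⟨_, him⟩ := Complex.nonneg_iff.1 hc0
    apply Complex.ext <;> simp [← him]
  have hq0 : 0 ≤ star u ⬝ᵥ (A *ᵥ u) := hA.posSemidef.dotProduct_mulVec_nonneg u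
  set q := star u ⬝ᵥ (A *ᵥ u) with hq
  have hqre : q = (q.re : ℂ) := by
    obtain ⟨_, him⟩ := Complex.nonneg_iff.1 hq0
    apply Complex.ext <;> simp [← him]
  have hub : star u ⬝ᵥ b = star w := by
    rw [hw, ← Matrix.star_dotProduct_star, star_star, dotProduct_comm]
  have hvAu : star v ⬝ᵥ (A *ᵥ u) = w := by
    have hbv : star b = star v ᵥ* A := by
      conv_lhs => rw [← hAv, star_mulVec, hA.isHermitian.eq]
    rw [hw, hbv, ← dotProduct_mulVec]
  have hvb : star v ⬝ᵥ b = c := by
    have : star v ⬝ᵥ b = star c := by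
      rw [hcdef, ← Matrix.star_dotProduct_star, star_star, dotProduct_comm]
    rw [this, hcre]
    simp
  have key : 0 ≤ star (c • u - w • v) ⬝ᵥ (A *ᵥ (c • u - w • v)) :=
    hA.posSemidef.dotProduct_mulVec_nonneg _
  have hexp : star (c • u - w • v) ⬝ᵥ (A *ᵥ (c • u - w • v))
      = star c * c * q - star c * w * star w - star w * c * w + star w * w * c := by
    rw [star_sub, star_smul, star_smul, mulVec_sub, mulVec_smul, mulVec_smul, hAv,
      sub_dotProduct, dotProduct_sub, dotProduct_sub]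
    simp only [smul_dotProduct, dotProduct_smul, smul_eq_mul, hub, hvAu, hvb, ← hq]
    ring
  rw [hexp] at key
  have hsc : star c = c := by rw [hcre]; simp
  rw [hsc] at key
  have hww : star w * w = ((‖w‖ ^ 2 : ℝ) : ℂ) := by
    have := Complex.conj_mul' w
    rw [starRingEnd_apply] at this
    rw [this]; push_cast; rfl
  have e2 : c * c * q - c * w * star w - star w * c * w + star w * w * c
      = ((c.re * (c.re * q.re - ‖w‖ ^ 2) : ℝ) : ℂ) := by
    have : c * c * q - c * w * star w - star w * c * w + star w * w * c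
        = c * (c * q - star w * w) := by ring
    rw [this, hww]
    conv_lhs => rw [hcre, hqre]
    push_cast
    ring
  rw [e2] at key
  have key' : 0 ≤ c.re * (c.re * q.re - ‖w‖ ^ 2) := by exact_mod_cast key
  have hcr : 0 ≤ c.re := (Complex.nonneg_iff.1 hc0).1
  rcases hcr.eq_or_lt with h0 | hpos
  · -- `c = 0`, hence `b = 0`
    have hb : b = 0 := by
      by_contra hb
      have := hA.inv.dotProduct_mulVec_pos hb
      have h2 : (0 : ℂ) < c := this
      rw [hcre, ← h0] at h2
      simp at h2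
    have : w = 0 := by rw [hw, hb]; simp
    rw [this]
    simp [← h0]
  · have := nonneg_of_mul_nonneg_right key' hpos
    linarith

theorem G1_fin : ∀ (n : ℕ) (H : Matrix (Fin n) (Fin n) ℂ) (_ : H.PosDef) (l : Fin n → ℝ),
    (∏ k, ‖H k k + (l k : ℂ) * I‖) * ‖H.det‖
      ≤ ‖(H + diagonal (fun k => (l k : ℂ) * I)).det‖ * ∏ k, ‖H k k‖ := by
  intro n
  induction n with
  | zero => intro H hH l; simp
  | succ n ih =>
    intro H hH l
    set e : Fin n ⊕ Fin 1 ≃ Fin (n + 1) := finSumFinEquiv with he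
    set H' := H.submatrix e e with hH'
    have hH'p : H'.PosDef := by
      rw [hH']; exact hH.submatrix e.injective
    set A := H'.toBlocks₁₁ with hAdef
    set B := H'.toBlocks₁₂ with hBdef
    set C := H'.toBlocks₂₁ with hCdef
    set D := H'.toBlocks₂₂ with hDdef
    have hblk : H' = fromBlocks A B C D := (fromBlocks_toBlocks H').symm
    have hCB : C = Bᴴ := by
      have := hH'p.isHermitian
      rw [hblk, isHermitian_fromBlocks_iff] at this
      exact this.2.1.symm
    have hAp : A.PosDef := by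
      have : A = H'.submatrix Sum.inl Sum.inl := rfl
      rw [this]; exact hH'p.submatrix Sum.inl_injective
    have hAunit : IsUnit A.det := (Matrix.isUnit_iff_isUnit_det A).1 hAp.isUnit
    set lA : Fin n → ℝ := fun k => l (e (Sum.inl k)) with hlA
    set l1 : ℝ := l (e (Sum.inr 0)) with hl1
    set LA : Matrix (Fin n) (Fin n) ℂ := diagonal (fun k => (lA k : ℂ) * I) with hLA
    have ihA := ih A hAp lA
    -- determinants through blocks
    have : Invertible A := hAp.isUnit.invertible
    have hdetH : H.det = A.det * (D 0 0 - (Bᴴ * A⁻¹ * B) 0 0) := by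
      rw [← det_submatrix_equiv_self e H, ← hH', hblk, det_fromBlocks₁₁, hCB, invOf_eq_nonsing_inv]
      simp
    have hApos : 0 < ‖A.det‖ := by
      rw [norm_pos_iff]; exact hAunit.ne_zero
    have hAkk : ∀ k, A k k ≠ 0 := fun k => (hAp.diag_pos (i := k)).ne'
    have hALne : (A + LA).det ≠ 0 := by
      intro h0
      rw [← hLA, h0, norm_zero, zero_mul] at ihA
      have : 0 < (∏ k, ‖A k k + (lA k : ℂ) * I‖) * ‖A.det‖ := by
        apply mul_pos _ hApos
        apply Finset.prod_pos
        intro k _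
        rw [norm_pos_iff]
        intro h1
        have hre := congrArg Complex.re h1
        have hpos := Complex.pos_iff.1 (hAp.diag_pos (i := k))
        simp at hre
        linarith [hpos.1]
      linarith
    have hALunit : IsUnit (A + LA) := by
      rw [Matrix.isUnit_iff_isUnit_det]; exact isUnit_iff_ne_zero.2 hALne
    have : Invertible (A + LA) := hALunit.invertible
    have hdetHL : (H + diagonal (fun k => (l k : ℂ) * I)).det
        = (A + LA).det * (D 0 0 + (l1 : ℂ) * I - (Bᴴ * (A + LA)⁻¹ * B) 0 0) := by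
      have hsub : (H + diagonal (fun k => (l k : ℂ) * I)).submatrix e e
          = fromBlocks (A + LA) B Bᴴ (D + diagonal (fun _ => (l1 : ℂ) * I)) := by
        rw [Matrix.submatrix_add, Pi.add_apply, Pi.add_apply, ← hH', hblk, hCB]
        have : (diagonal (fun k => (l k : ℂ) * I)).submatrix e e
            = fromBlocks LA 0 0 (diagonal (fun _ : Fin 1 => (l1 : ℂ) * I)) := by
          ext i j
          rcases i with i | i <;> rcases j with j | j
          · simp [hLA, diagonal_apply, hlA]
          · simp [diagonal_apply]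
          · simp [diagonal_apply]
          · have hi : i = 0 := Subsingleton.elim _ _
            have hj : j = 0 := Subsingleton.elim _ _
            subst hi; subst hj
            simp [hl1]
        rw [this, fromBlocks_add]
        simp
      rw [← det_submatrix_equiv_self e, hsub, det_fromBlocks₁₁, invOf_eq_nonsing_inv]
      simp
    -- the column vector
    set b : Fin n → ℂ := fun k => B k 0 with hb
    set u : Fin n → ℂ := (A + LA)⁻¹ *ᵥ b with hu
    set w : ℂ := (Bᴴ * (A + LA)⁻¹ * B) 0 0 with hw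
    set c : ℂ := (Bᴴ * A⁻¹ * B) 0 0 with hc
    have hw' : w = star b ⬝ᵥ u := by
      rw [hw, hu, Matrix.mul_assoc]
      simp only [Matrix.mul_apply, dotProduct, mulVec, conjTranspose_apply, Pi.star_apply, hb]
    have hc' : c = star b ⬝ᵥ (A⁻¹ *ᵥ b) := by
      rw [hc, Matrix.mul_assoc]
      simp only [Matrix.mul_apply, dotProduct, mulVec, conjTranspose_apply, Pi.star_apply, hb]
    have hc0 : 0 ≤ c := by rw [hc']; exact hAp.inv.posSemidef.dotProduct_mulVec_nonneg b
    have hcre : c = (c.re : ℂ) := by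
      obtain ⟨_, him⟩ := Complex.nonneg_iff.1 hc0
      apply Complex.ext <;> simp [← him]
    have hD0 : 0 < D 0 0 := by
      have : D 0 0 = H' (Sum.inr 0) (Sum.inr 0) := rfl
      rw [this]; exact hH'p.diag_pos
    have hDre : D 0 0 = ((D 0 0).re : ℂ) := by
      obtain ⟨_, him⟩ := Complex.pos_iff.1 hD0
      apply Complex.ext <;> simp [← him]
    have hdetpos : 0 < H.det := hH.det_pos
    have hAdetpos : 0 < A.det := hAp.det_pos
    have hch : c.re < (D 0 0).re := by
      have h1 : 0 < A.det * (D 0 0 - c) := by rw [← hdetH]; exact hdetpos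
      have hAre : A.det = (A.det.re : ℂ) := by
        obtain ⟨_, him⟩ := Complex.pos_iff.1 hAdetpos
        apply Complex.ext <;> simp [← him]
      rw [hAre, hDre, hcre, ← Complex.ofReal_sub, ← Complex.ofReal_mul] at h1
      have h2 : 0 < A.det.re * ((D 0 0).re - c.re) := by exact_mod_cast h1
      have h3 : 0 < A.det.re := (Complex.pos_iff.1 hAdetpos).1
      have := (mul_pos_iff_of_pos_left h3).1 h2
      linarith
    -- real part of w
    have hALu : (A + LA) *ᵥ u = b := by
      rw [hu, mulVec_mulVec, Matrix.mul_nonsing_inv _ ((Matrix.isUnit_iff_isUnit_det _).1 hALunit),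
        one_mulVec]
    have hwre : w.re = (star u ⬝ᵥ (A *ᵥ u)).re := by
      have h1 : w = star ((A + LA) *ᵥ u) ⬝ᵥ u := by rw [hALu, hw']
      have h2 : star w = star u ⬝ᵥ ((A + LA) *ᵥ u) := by
        rw [h1, ← Matrix.star_dotProduct_star, star_star, dotProduct_comm]
      have h3 : star u ⬝ᵥ ((A + LA) *ᵥ u) = star u ⬝ᵥ (A *ᵥ u) + star u ⬝ᵥ (LA *ᵥ u) := by
        rw [add_mulVec, dotProduct_add]
      have h4 : (star u ⬝ᵥ (LA *ᵥ u)).re = 0 := by
        simp only [dotProduct, hLA, mulVec_diagonal, Pi.star_apply, Complex.re_sum]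
        apply Finset.sum_eq_zero
        intro k _
        have : star (u k) * ((lA k : ℂ) * I * u k) = ((lA k * ‖u k‖ ^ 2 : ℝ) : ℂ) * I := by
          have h5 := Complex.conj_mul' (u k)
          rw [starRingEnd_apply] at h5
          calc star (u k) * ((lA k : ℂ) * I * u k) = (lA k : ℂ) * I * (star (u k) * u k) := by ring
            _ = _ := by rw [h5]; push_cast; ring
        rw [this, Complex.re_ofReal_mul]
        simp
      have h5 : w.re = (star w).re := by simp
      rw [h5, h2, h3, Complex.add_re, h4, add_zero]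
    have hcs : ‖w‖ ^ 2 ≤ c.re * w.re := by
      have := cs_key hAp b u
      rw [hwre, hw', hc']
      exact this
    have hsk := scalar_key (l := l1) (Complex.nonneg_iff.1 hc0).1 hch hcs
    rw [← hDre] at hsk
    -- assemble
    have hprod1 : (∏ k, ‖H k k + (l k : ℂ) * I‖)
        = (∏ k, ‖A k k + (lA k : ℂ) * I‖) * ‖D 0 0 + (l1 : ℂ) * I‖ := by
      rw [← e.prod_comp, Fintype.prod_sum_type]
      congr 1
      simp
      rfl
    have hprod2 : (∏ k, ‖H k k‖) = (∏ k, ‖A k k‖) * ‖D 0 0‖ := by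
      rw [← e.prod_comp, Fintype.prod_sum_type]
      congr 1
      simp
      rfl
    have hnD : ‖D 0 0‖ = (D 0 0).re := by
      rw [hDre, Complex.norm_real, Real.norm_of_nonneg]
      · simp
      · exact (Complex.pos_iff.1 hD0).1.le
    have hnDc : ‖D 0 0 - c‖ = (D 0 0).re - c.re := by
      rw [hDre, hcre, ← Complex.ofReal_sub, Complex.norm_real, Real.norm_of_nonneg]
      · simp
      · simp; linarith
    rw [hprod1, hprod2, hdetH, hdetHL, norm_mul, norm_mul, hnDc, hnD]
    calc (∏ k, ‖A k k + (lA k : ℂ) * I‖) * ‖D 0 0 + (l1 : ℂ) * I‖ *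
          (‖A.det‖ * ((D 0 0).re - c.re))
        = ((∏ k, ‖A k k + (lA k : ℂ) * I‖) * ‖A.det‖) *
          (‖D 0 0 + (l1 : ℂ) * I‖ * ((D 0 0).re - c.re)) := by ring
      _ ≤ (‖(A + LA).det‖ * ∏ k, ‖A k k‖) * (‖D 0 0 + (l1 : ℂ) * I - w‖ * (D 0 0).re) := by
          apply mul_le_mul ihA hsk
          · have : 0 ≤ (D 0 0).re - c.re := by linarith
            positivity
          · positivity
      _ = _ := by ring

theorem G1 {X : Type*} [Fintype X] [DecidableEq X] (H : Matrix X X ℂ) (hH : H.PosDef)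
    (l : X → ℝ) :
    (∏ k, ‖H k k + (l k : ℂ) * I‖) * ‖H.det‖
      ≤ ‖(H + diagonal (fun k => (l k : ℂ) * I)).det‖ * ∏ k, ‖H k k‖ := by
  set e := (Fintype.equivFin X).symm
  have := G1_fin _ (H.submatrix e e) (hH.submatrix e.injective) (fun k => l (e k))
  simp only [submatrix_apply] at this
  rw [det_submatrix_equiv_self] at this
  have h2 : (H + diagonal (fun k => (l k : ℂ) * I)).submatrix e e
      = H.submatrix e e + diagonal (fun k => (l (e k) : ℂ) * I) := by
    rw [Matrix.submatrix_add, Pi.add_apply, Pi.add_apply, submatrix_diagonal_equiv]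
    rfl
  rw [← h2, det_submatrix_equiv_self, e.prod_comp (fun k => ‖H k k + (l k : ℂ) * I‖),
    e.prod_comp (fun k => ‖H k k‖)] at this
  exact this

end Vale.Agent.H28
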