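import Vale.Agent.H1.LT2.Defs

/-!
P371, row P: positivity of `-d² + K² - Q` along a Riccati path.
-/

open MeasureTheory Matrix Set
open scoped ENNReal ComplexOrder

namespace Vale.LT2

open Vale.LT (IsH1)

variable {N : ℕ}

namespace RowP

theorem ibp_real {f g h k : ℝ → ℝ} {a b : ℝ} (hab : a ≤ b)
    (hg : IntervalIntegrable g volume a b) (hk : IntervalIntegrable k volume a b)
    (hf : ∀ x ∈ Icc a b, f x = f a + ∫ t in a..x, g t)
    (hh : ∀ x ∈ Icc a b, h x = h a + ∫ t in a..x, k t) :
    ∫ x in a..b, (g x * h x + f x * k x) = f b * h b - f a * h a := by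
  set F : ℝ → ℝ := fun x => f a + ∫ t in a..x, g t with hF
  set H : ℝ → ℝ := fun x => h a + ∫ t in a..x, k t with hH
  have hFac : AbsolutelyContinuousOnInterval F a b := by
    have h1 := hg.absolutelyContinuousOnInterval_intervalIntegral (c := a) (by simp)
    have h2 : AbsolutelyContinuousOnInterval (fun _ : ℝ => f a) a b :=
      ((LipschitzWith.const (f a)).lipschitzOnWith (s := uIcc a b)).absolutelyContinuousOnInterval
    exact h2.add h1
  have hHac : AbsolutelyContinuousOnInterval H a b := by
    have h1 := hk.absolutelyContinuousOnInterval_intervalIntegral (c := a) (by simp)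
    have h2 : AbsolutelyContinuousOnInterval (fun _ : ℝ => h a) a b :=
      ((LipschitzWith.const (h a)).lipschitzOnWith (s := uIcc a b)).absolutelyContinuousOnInterval
    exact h2.add h1
  have key := hFac.integral_deriv_mul_eq_sub hHac
  have hFb : F b = f b := (hf b ⟨hab, le_rfl⟩).symm
  have hHb : H b = h b := (hh b ⟨hab, le_rfl⟩).symm
  have hFa : F a = f a := by simp [hF]
  have hHa : H a = h a := by simp [hH]
  rw [hFb, hFa, hHb, hHa] at key
  rw [← key]
  refine intervalIntegral.integral_congr_ae ?_
  filter_upwards [hg.ae_hasDerivAt_integral, hk.ae_hasDerivAt_integral] with x hx1 hx2 hx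
  have hxu : x ∈ uIcc a b := uIoc_subset_uIcc hx
  have hxI : x ∈ Icc a b := by rwa [uIcc_of_le hab] at hxu
  have d1 : HasDerivAt F (g x) x := (hx1 hxu a (by simp)).const_add (f a)
  have d2 : HasDerivAt H (k x) x := (hx2 hxu a (by simp)).const_add (h a)
  have e1 : F x = f x := (hf x hxI).symm
  have e2 : H x = h x := (hh x hxI).symm
  rw [d1.deriv, d2.deriv, e1, e2]

theorem contOn_of_prim {f g : ℝ → ℂ} {a b : ℝ} (hab : a ≤ b)
    (hg : IntervalIntegrable g volume a b)
    (hf : ∀ x ∈ Icc a b, f x = f a + ∫ t in a..x, g t) : ContinuousOn f (uIcc a b) := by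
  have h1 : ContinuousOn (fun x => f a + ∫ t in a..x, g t) (uIcc a b) :=
    continuousOn_const.add (intervalIntegral.continuousOn_primitive_interval' hg (by simp))
  refine h1.congr fun x hx => ?_
  rw [uIcc_of_le hab] at hx
  exact hf x hx

theorem ibp_complex {f g h k : ℝ → ℂ} {a b : ℝ} (hab : a ≤ b)
    (hg : IntervalIntegrable g volume a b) (hk : IntervalIntegrable k volume a b)
    (hf : ∀ x ∈ Icc a b, f x = f a + ∫ t in a..x, g t)
    (hh : ∀ x ∈ Icc a b, h x = h a + ∫ t in a..x, k t) :
    IntervalIntegrable (fun x => g x * h x + f x * k x) volume a b ∧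
    ∫ x in a..b, (g x * h x + f x * k x) = f b * h b - f a * h a := by
  have hfc := contOn_of_prim hab hg hf
  have hhc := contOn_of_prim hab hk hh
  have hI : IntervalIntegrable (fun x => g x * h x + f x * k x) volume a b :=
    (hg.mul_continuousOn hhc).add (hk.continuousOn_mul hfc)
  refine ⟨hI, ?_⟩
  have hsub : ∀ x ∈ Icc a b, uIcc a x ⊆ uIcc a b := fun x hx => by
    rw [uIcc_of_le hx.1, uIcc_of_le hab]
    exact Icc_subset_Icc le_rfl hx.2
  have hgr : IntervalIntegrable (fun x => (g x).re) volume a b := ⟨hg.1.re, hg.2.re⟩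
  have hgi : IntervalIntegrable (fun x => (g x).im) volume a b := ⟨hg.1.im, hg.2.im⟩
  have hkr : IntervalIntegrable (fun x => (k x).re) volume a b := ⟨hk.1.re, hk.2.re⟩
  have hki : IntervalIntegrable (fun x => (k x).im) volume a b := ⟨hk.1.im, hk.2.im⟩
  have re_of : ∀ {f g : ℝ → ℂ}, IntervalIntegrable g volume a b →
      (∀ x ∈ Icc a b, f x = f a + ∫ t in a..x, g t) →
      ∀ x ∈ Icc a b, (f x).re = (f a).re + ∫ t in a..x, (g t).re := by
    intro f g hg hf x hx
    have h1 : (∫ t in a..x, g t).re = ∫ t in a..x, (g t).re :=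
      (Complex.reCLM.intervalIntegral_comp_comm (hg.mono_set (hsub x hx))).symm
    rw [hf x hx, Complex.add_re, h1]
  have im_of : ∀ {f g : ℝ → ℂ}, IntervalIntegrable g volume a b →
      (∀ x ∈ Icc a b, f x = f a + ∫ t in a..x, g t) →
      ∀ x ∈ Icc a b, (f x).im = (f a).im + ∫ t in a..x, (g t).im := by
    intro f g hg hf x hx
    have h1 : (∫ t in a..x, g t).im = ∫ t in a..x, (g t).im :=
      (Complex.imCLM.intervalIntegral_comp_comm (hg.mono_set (hsub x hx))).symm
    rw [hf x hx, Complex.add_im, h1]
  have hfr := re_of hg hf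
  have hfi := im_of hg hf
  have hhr := re_of hk hh
  have hhi := im_of hk hh
  have hfrc : ContinuousOn (fun x => (f x).re) (uIcc a b) := Complex.continuous_re.comp_continuousOn hfc
  have hfic : ContinuousOn (fun x => (f x).im) (uIcc a b) := Complex.continuous_im.comp_continuousOn hfc
  have hhrc : ContinuousOn (fun x => (h x).re) (uIcc a b) := Complex.continuous_re.comp_continuousOn hhc
  have hhic : ContinuousOn (fun x => (h x).im) (uIcc a b) := Complex.continuous_im.comp_continuousOn hhc
  have i1 : IntervalIntegrable (fun x => (g x).re * (h x).re + (f x).re * (k x).re) volume a b :=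
    (hgr.mul_continuousOn hhrc).add (hkr.continuousOn_mul hfrc)
  have i2 : IntervalIntegrable (fun x => (g x).im * (h x).im + (f x).im * (k x).im) volume a b :=
    (hgi.mul_continuousOn hhic).add (hki.continuousOn_mul hfic)
  have i3 : IntervalIntegrable (fun x => (g x).re * (h x).im + (f x).re * (k x).im) volume a b :=
    (hgr.mul_continuousOn hhic).add (hki.continuousOn_mul hfrc)
  have i4 : IntervalIntegrable (fun x => (g x).im * (h x).re + (f x).im * (k x).re) volume a b :=
    (hgi.mul_continuousOn hhrc).add (hkr.continuousOn_mul hfic)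
  have e1 := ibp_real hab hgr hkr hfr hhr
  have e2 := ibp_real hab hgi hki hfi hhi
  have e3 := ibp_real hab hgr hki hfr hhi
  have e4 := ibp_real hab hgi hkr hfi hhr
  apply Complex.ext
  · have h1 : (∫ x in a..b, (g x * h x + f x * k x)).re
        = ∫ x in a..b, (g x * h x + f x * k x).re :=
      (Complex.reCLM.intervalIntegral_comp_comm hI).symm
    have h2 : ∫ x in a..b, (g x * h x + f x * k x).re
        = ∫ x in a..b, (((g x).re * (h x).re + (f x).re * (k x).re)
          - ((g x).im * (h x).im + (f x).im * (k x).im)) := by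
      congr 1; funext x
      simp only [Complex.add_re, Complex.mul_re]; ring
    rw [h1, h2, intervalIntegral.integral_sub i1 i2, e1, e2]
    simp only [Complex.sub_re, Complex.mul_re]; ring
  · have h1 : (∫ x in a..b, (g x * h x + f x * k x)).im
        = ∫ x in a..b, (g x * h x + f x * k x).im :=
      (Complex.imCLM.intervalIntegral_comp_comm hI).symm
    have h2 : ∫ x in a..b, (g x * h x + f x * k x).im
        = ∫ x in a..b, (((g x).re * (h x).im + (f x).re * (k x).im)
          + ((g x).im * (h x).re + (f x).im * (k x).re)) := by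
      congr 1; funext x
      simp only [Complex.add_im, Complex.mul_im]; ring
    rw [h1, h2, intervalIntegral.integral_add i3 i4, e3, e4]
    simp only [Complex.sub_im, Complex.mul_im]; ring

/-- the elementary matrix inequality -/
theorem mat_ineq {m : ℕ} (M : Mat N) (hM : M.IsHermitian) (U D : Matrix (Fin N) (Fin m) ℂ) :
    ((M * (D * Uᴴ + U * Dᴴ)).trace).re ≤ ((D * Dᴴ).trace).re + tp (M * M) (U * Uᴴ) := by
  have h0 : 0 ≤ (((D - M * U) * (D - M * U)ᴴ).trace).re := by
    have := (Matrix.posSemidef_self_mul_conjTranspose (D - M * U)).trace_nonneg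
    exact (Complex.le_def.1 this).1
  have h1 : (D - M * U) * (D - M * U)ᴴ
      = D * Dᴴ - D * Uᴴ * M - M * U * Dᴴ + M * U * Uᴴ * M := by
    rw [Matrix.conjTranspose_sub, Matrix.conjTranspose_mul, hM.eq]
    simp only [Matrix.sub_mul, Matrix.mul_sub, Matrix.mul_assoc]
    abel
  rw [h1] at h0
  have h2 : (D * Uᴴ * M).trace = (M * (D * Uᴴ)).trace := Matrix.trace_mul_comm _ _
  have h3 : (M * U * Uᴴ * M).trace = (M * M * (U * Uᴴ)).trace := by
    rw [Matrix.trace_mul_comm]
    simp only [Matrix.mul_assoc]
  simp only [Matrix.trace_add, Matrix.trace_sub, h2, h3, Complex.add_re, Complex.sub_re] at h0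
  rw [Matrix.mul_add, Matrix.trace_add, Complex.add_re, tp]
  rw [← Matrix.mul_assoc M U Dᴴ]
  linarith

theorem ii_sum {ι : Type*} (s : Finset ι) {f : ι → ℝ → ℂ} {a b : ℝ}
    (h : ∀ i ∈ s, IntervalIntegrable (f i) volume a b) :
    IntervalIntegrable (fun x => ∑ i ∈ s, f i x) volume a b := by
  have h1 : (fun x => ∑ i ∈ s, f i x) = ∑ i ∈ s, f i := by
    funext x
    simp
  rw [h1]
  exact IntervalIntegrable.sum s h

end RowP

open RowP in
theorem riccati_pos {m : ℕ} (L : ℝ) (hL : 0 < L) (K : Mat N) (Q M : ℝ → Mat N)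
    (hQc : ∀ i j, Continuous (fun x => Q x i j)) (hM : RicPath L K Q M)
    (u du : Fin N → ℝ → Fin m → ℂ) (hu : ∀ j, IsH1 (u j) (du j))
    (hsupp : ∀ j x, L ≤ |x| → u j x = 0) :
    ∫ x, tp (Q x) (Matrix.of fun j k => u j x ⬝ᵥ star (u k x))
      ≤ (∫ x, ∑ j, ∑ i, ‖du j x i‖ ^ 2)
        + ∫ x, tp (K * K) (Matrix.of fun j k => u j x ⬝ᵥ star (u k x)) := by
  have hLL : -L ≤ L := by linarith
  set U : ℝ → Matrix (Fin N) (Fin m) ℂ := fun x => Matrix.of fun j i => u j x i with hU
  set D : ℝ → Matrix (Fin N) (Fin m) ℂ := fun x => Matrix.of fun j i => du j x i with hD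
  set P : ℝ → Mat N := fun x => U x * (U x)ᴴ with hP
  set E : ℝ → Mat N := fun x => K * K - M x * M x - Q x with hE
  have hPeq : ∀ x, (Matrix.of fun j k => u j x ⬝ᵥ star (u k x) : Mat N) = P x := by
    intro x
    ext j k
    simp [hP, hU, Matrix.mul_apply, dotProduct]
  simp only [hPeq]
  -- continuity facts
  have huc : ∀ j i, Continuous (fun x => u j x i) := fun j i =>
    Vale.LT.Dual.h1_cont ((hu j).memLp_deriv i) ((hu j).ftc i)
  have hdui : ∀ j i a b, IntervalIntegrable (fun x => du j x i) volume a b := fun j i a b =>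
    Vale.LT.Dual.h1_ii ((hu j).memLp_deriv i) a b
  have hMc : ∀ j k, ContinuousOn (fun x => M x j k) (uIcc (-L) L) := by
    intro j k
    rw [uIcc_of_le hLL]
    exact hM.cont j k
  have hEc : ∀ j k, ContinuousOn (fun x => E x j k) (uIcc (-L) L) := by
    intro j k
    simp only [hE, Matrix.sub_apply, Matrix.mul_apply]
    refine ContinuousOn.sub (ContinuousOn.sub continuousOn_const ?_) (hQc j k).continuousOn
    exact continuousOn_finsetSum _ fun l _ => (hMc j l).mul (hMc l k)
  -- the product functions
  have hstarii : ∀ j i a b, IntervalIntegrable (fun x => star (du j x i)) volume a b := by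
    intro j i a b
    exact Vale.LT.Dual.h1_ii ((hu j).memLp_deriv i).star a b
  have hstar : ∀ j i, ∀ a b : ℝ, star (u j b i) = star (u j a i) + ∫ t in a..b, star (du j t i) := by
    intro j i a b
    have h1 : (∫ t in a..b, star (du j t i)) = star (∫ t in a..b, du j t i) := by
      have := Complex.conjCLE.toContinuousLinearMap.intervalIntegral_comp_comm (hdui j i a b)
      simpa using this
    rw [h1, ← (hu j).ftc i a b, star_sub]
    ring
  have hw : ∀ j k i, ∀ x ∈ Icc (-L) L,
      IntervalIntegrable (fun t => du k t i * star (u j t i) + u k t i * star (du j t i))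
        volume (-L) x ∧
      (u k x i * star (u j x i)) = (u k (-L) i * star (u j (-L) i)) +
        ∫ t in (-L)..x, (du k t i * star (u j t i) + u k t i * star (du j t i)) := by
    intro j k i x hx
    have h1 := ibp_complex (f := fun x => u k x i) (g := fun x => du k x i)
      (h := fun x => star (u j x i)) (k := fun x => star (du j x i)) hx.1 (hdui k i _ _)
      (hstarii j i _ _) (fun y _ => by rw [← (hu k).ftc i (-L) y]; ring)
      (fun y _ => hstar j i (-L) y)
    refine ⟨h1.1, ?_⟩
    rw [h1.2]; ring
  have hMftc : ∀ j k, ∀ x ∈ Icc (-L) L, M x j k = M (-L) j k + ∫ t in (-L)..x, E t j k := by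
    intro j k x hx
    have h1 := intervalIntegral.integral_eq_sub_of_hasDerivAt_of_le hx.1
      (f := fun x => M x j k) (f' := fun x => E x j k)
      ((hM.cont j k).mono (Icc_subset_Icc le_rfl hx.2))
      (fun y hy => hM.deriv y ⟨hy.1, hy.2.trans_le hx.2⟩ j k)
      (((hEc j k).mono (by
        rw [uIcc_of_le hx.1, uIcc_of_le hLL]; exact Icc_subset_Icc le_rfl hx.2)).intervalIntegrable)
    rw [h1]; ring
  have hu0 : ∀ j i, u j (-L) i = 0 ∧ u j L i = 0 := by
    intro j i
    constructor
    · rw [hsupp j (-L) (by rw [abs_neg, abs_of_pos hL])]; rfl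
    · rw [hsupp j L (by rw [abs_of_pos hL])]; rfl
  have hterm : ∀ j k i,
      IntervalIntegrable (fun x => E x j k * (u k x i * star (u j x i)) + M x j k *
        (du k x i * star (u j x i) + u k x i * star (du j x i))) volume (-L) L ∧
      ∫ x in (-L)..L, (E x j k * (u k x i * star (u j x i)) + M x j k *
        (du k x i * star (u j x i) + u k x i * star (du j x i))) = 0 := by
    intro j k i
    have h1 := ibp_complex (f := fun x => M x j k) (g := fun x => E x j k)
      (h := fun x => u k x i * star (u j x i))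
      (k := fun x => du k x i * star (u j x i) + u k x i * star (du j x i)) hLL
      (hEc j k).intervalIntegrable (hw j k i L ⟨hLL, le_rfl⟩).1 (hMftc j k)
      (fun x hx => (hw j k i x hx).2)
    refine ⟨h1.1, ?_⟩
    rw [h1.2, (hu0 k i).1, (hu0 k i).2]
    simp
  set T : ℝ → ℂ := fun x => (E x * P x).trace
    + (M x * (D x * (U x)ᴴ + U x * (D x)ᴴ)).trace with hT
  have hTsum : ∀ x, T x = ∑ j, ∑ k, ∑ i, (E x j k * (u k x i * star (u j x i)) + M x j k *
        (du k x i * star (u j x i) + u k x i * star (du j x i))) := by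
    intro x
    simp only [hT, hP, hU, hD, Matrix.trace, Matrix.diag, Matrix.mul_apply, Matrix.add_apply,
      Matrix.conjTranspose_apply, Matrix.of_apply, Finset.mul_sum, mul_add,
      Finset.sum_add_distrib]
  have hTI : IntervalIntegrable T volume (-L) L := by
    have : T = fun x => ∑ j, ∑ k, ∑ i, (E x j k * (u k x i * star (u j x i)) + M x j k *
        (du k x i * star (u j x i) + u k x i * star (du j x i))) := funext hTsum
    rw [this]
    exact ii_sum _ fun j _ => ii_sum _ fun k _ => ii_sum _ fun i _ => (hterm j k i).1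
  have hT0 : ∫ x in (-L)..L, T x = 0 := by
    simp only [hTsum]
    rw [intervalIntegral.integral_finsetSum]
    · refine Finset.sum_eq_zero fun j _ => ?_
      rw [intervalIntegral.integral_finsetSum]
      · refine Finset.sum_eq_zero fun k _ => ?_
        rw [intervalIntegral.integral_finsetSum]
        · exact Finset.sum_eq_zero fun i _ => (hterm j k i).2
        · exact fun i _ => (hterm j k i).1
      · exact fun k _ => ii_sum _ fun i _ => (hterm j k i).1
    · exact fun j _ => ii_sum _ fun k _ => ii_sum _ fun i _ => (hterm j k i).1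
  have hTre : ∫ x in (-L)..L, (T x).re = 0 := by
    have := Complex.reCLM.intervalIntegral_comp_comm hTI
    simp only [Complex.reCLM_apply] at this
    rw [this, hT0]; rfl
  -- pointwise inequality
  have hpt : ∀ x ∈ Icc (-L) L, tp (Q x) (P x)
      ≤ (tp (K * K) (P x) + ∑ j, ∑ i, ‖du j x i‖ ^ 2) - (T x).re := by
    intro x hx
    have h1 := mat_ineq (M x) (hM.between x hx).herm (U x) (D x)
    have h2 : ((D x * (D x)ᴴ).trace).re = ∑ j, ∑ i, ‖du j x i‖ ^ 2 := by
      simp only [hD, Matrix.trace, Matrix.diag, Matrix.mul_apply, Matrix.conjTranspose_apply,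
        Matrix.of_apply, Complex.re_sum]
      refine Finset.sum_congr rfl fun j _ => Finset.sum_congr rfl fun i _ => ?_
      rw [Complex.star_def, Complex.mul_conj, Complex.normSq_eq_norm_sq, Complex.ofReal_re]
    have h3 : ((E x * P x).trace).re = tp (K * K) (P x) - tp (M x * M x) (P x)
        - tp (Q x) (P x) := by
      simp only [hE, tp, Matrix.sub_mul, Matrix.trace_sub, Complex.sub_re]
    have h4 : (T x).re = ((E x * P x).trace).re
        + ((M x * (D x * (U x)ᴴ + U x * (D x)ᴴ)).trace).re := by
      simp only [hT, Complex.add_re]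
    rw [h2] at h1
    have h5 : tp (M x * M x) (U x * (U x)ᴴ) = tp (M x * M x) (P x) := rfl
    linarith
  -- continuity of P
  have hPc : ∀ j k, Continuous (fun x => P x j k) := by
    intro j k
    simp only [hP, hU, Matrix.mul_apply, Matrix.conjTranspose_apply, Matrix.of_apply]
    exact continuous_finsetSum _ fun i _ => (huc j i).mul (huc k i).star
  have htpc : ∀ A : ℝ → Mat N, (∀ j k, Continuous (fun x => A x j k)) →
      Continuous (fun x => tp (A x) (P x)) := by
    intro A hA
    simp only [tp, Matrix.trace, Matrix.diag, Matrix.mul_apply]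
    exact Complex.continuous_re.comp (continuous_finsetSum _ fun j _ =>
      continuous_finsetSum _ fun k _ => (hA j k).mul (hPc k j))
  have hP0 : ∀ x, L ≤ |x| → P x = 0 := by
    intro x hx
    have : U x = 0 := by
      ext j i
      simp only [hU, Matrix.of_apply, hsupp j x hx]
      rfl
    simp [hP, this]
  have hsupp' : ∀ A : ℝ → Mat N, Function.support (fun x => tp (A x) (P x)) ⊆ Ioc (-L) L := by
    intro A x hx
    by_contra hx'
    apply hx
    have : L ≤ |x| := by
      by_contra h
      push Not at h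
      have := abs_lt.1 h
      exact hx' ⟨this.1, this.2.le⟩
    simp [hP0 x this, tp]
  have hCi : Integrable (fun x => ∑ j, ∑ i, ‖du j x i‖ ^ 2) := by
    refine integrable_finsetSum _ fun j _ => integrable_finsetSum _ fun i _ => ?_
    exact (memLp_two_iff_integrable_sq_norm ((hu j).memLp_deriv i).1).1 ((hu j).memLp_deriv i)
  rw [← intervalIntegral.integral_eq_integral_of_support_subset (hsupp' Q),
    ← intervalIntegral.integral_eq_integral_of_support_subset (hsupp' (fun _ => K * K))]
  have hKc : Continuous (fun x => tp (K * K) (P x)) := htpc (fun _ => K * K) fun j k =>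
    continuous_const
  have hTrei : IntervalIntegrable (fun x => (T x).re) volume (-L) L := ⟨hTI.1.re, hTI.2.re⟩
  have hle : ∫ x in (-L)..L, tp (Q x) (P x)
      ≤ ∫ x in (-L)..L, ((tp (K * K) (P x) + ∑ j, ∑ i, ‖du j x i‖ ^ 2) - (T x).re) := by
    refine intervalIntegral.integral_mono_on hLL ((htpc Q hQc).intervalIntegrable _ _) ?_ hpt
    exact ((hKc.intervalIntegrable _ _).add hCi.intervalIntegrable).sub hTrei
  rw [intervalIntegral.integral_sub ((hKc.intervalIntegrable _ _).add hCi.intervalIntegrable)
    hTrei, hTre, sub_zero,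
    intervalIntegral.integral_add (hKc.intervalIntegrable _ _) hCi.intervalIntegrable] at hle
  have hCle : ∫ x in (-L)..L, ∑ j, ∑ i, ‖du j x i‖ ^ 2 ≤ ∫ x, ∑ j, ∑ i, ‖du j x i‖ ^ 2 := by
    rw [intervalIntegral.integral_of_le hLL]
    refine setIntegral_le_integral hCi (Filter.Eventually.of_forall fun x => ?_)
    exact Finset.sum_nonneg fun j _ => Finset.sum_nonneg fun i _ => by positivity
  linarith

end Vale.LT2
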