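import Vale.Agent.H28.Ent
import Vale.Agent.H28.Conv

open Matrix Complex Set
open scoped ComplexOrder

namespace Vale.Agent.H28

variable {X : Type*} [Fintype X] [DecidableEq X]

theorem ent_le_diag {A : Matrix X X ℂ} (hA : A.PosSemidef) :
    ent A ≤ ∑ x, Real.negMulLog (A x x).re := by
  obtain ⟨U, h1, h2, h3⟩ := spectral' hA.isHermitian
  set lam := hA.isHermitian.eigenvalues with hlam
  have hl0 : ∀ i, 0 ≤ lam i := hA.eigenvalues_nonneg
  have hrow : ∀ x, ∑ j, Complex.normSq (U x j) = 1 := by
    intro x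
    have := congrFun (congrFun h2 x) x
    rw [Matrix.mul_apply] at this
    simp only [conjTranspose_apply, Matrix.one_apply_eq] at this
    have h4 : ∀ j, U x j * star (U x j) = (Complex.normSq (U x j) : ℂ) := fun j => Complex.mul_conj _
    simp only [h4] at this
    exact_mod_cast this
  have hcol : ∀ j, ∑ x, Complex.normSq (U x j) = 1 := by
    intro j
    have := congrFun (congrFun h1 j) j
    rw [Matrix.mul_apply] at this
    simp only [conjTranspose_apply, Matrix.one_apply_eq] at this
    have h4 : ∀ x, star (U x j) * U x j = (Complex.normSq (U x j) : ℂ) := fun x => by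
      rw [mul_comm]; exact Complex.mul_conj _
    simp only [h4] at this
    exact_mod_cast this
  have hdiag : ∀ x, (A x x).re = ∑ j, Complex.normSq (U x j) * lam j := by
    intro x
    conv_lhs => rw [h3]
    rw [Matrix.mul_apply, Complex.re_sum]
    apply Finset.sum_congr rfl
    intro j _
    rw [mul_diagonal, conjTranspose_apply]
    have : U x j * (lam j : ℂ) * star (U x j) = (lam j : ℂ) * (U x j * star (U x j)) := by ring
    rw [this, show U x j * star (U x j) = (Complex.normSq (U x j) : ℂ) from Complex.mul_conj _,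
      ← Complex.ofReal_mul, Complex.ofReal_re]
    ring
  have hJ : ∀ x, ∑ j, Complex.normSq (U x j) * Real.negMulLog (lam j)
      ≤ Real.negMulLog (A x x).re := by
    intro x
    rw [hdiag x]
    have := Real.concaveOn_negMulLog.le_map_sum (t := Finset.univ)
      (w := fun j => Complex.normSq (U x j)) (p := lam) (fun j _ => Complex.normSq_nonneg _)
      (hrow x) (fun j _ => hl0 j)
    simpa [smul_eq_mul] using this
  calc ent A = ∑ j, Real.negMulLog (lam j) := ent_eq hA.isHermitian
    _ = ∑ j, (∑ x, Complex.normSq (U x j)) * Real.negMulLog (lam j) := by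
        simp [hcol]
    _ = ∑ x, ∑ j, Complex.normSq (U x j) * Real.negMulLog (lam j) := by
        simp only [Finset.sum_mul]
        rw [Finset.sum_comm]
    _ ≤ _ := Finset.sum_le_sum fun x _ => hJ x

/-- total mass of a function on bit strings -/
theorem sum_cons {n : ℕ} {M : Type*} [AddCommMonoid M] (f : (Fin (n + 1) → Fin 2) → M) :
    ∑ x, f x = ∑ x : Fin n → Fin 2, f (Fin.cons 0 x) + ∑ x : Fin n → Fin 2, f (Fin.cons 1 x) := by
  rw [← (Fin.consEquiv (fun _ => Fin 2)).sum_comp, Fintype.sum_prod_type, Fin.sum_univ_two]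
  rfl

/-- marginal: total weight of strings with `i`-th bit equal to one -/
noncomputable def marg {n : ℕ} (D : (Fin n → Fin 2) → ℝ) (i : Fin n) : ℝ :=
  ∑ x, if x i = 1 then D x else 0

theorem marg_nonneg {n : ℕ} {D : (Fin n → Fin 2) → ℝ} (hD : ∀ x, 0 ≤ D x) (i : Fin n) :
    0 ≤ marg D i := by
  unfold marg
  exact Finset.sum_nonneg fun x _ => by split_ifs <;> simp [hD x]

theorem marg_le {n : ℕ} {D : (Fin n → Fin 2) → ℝ} (hD : ∀ x, 0 ≤ D x) (i : Fin n) :
    marg D i ≤ ∑ x, D x := by
  unfold marg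
  exact Finset.sum_le_sum fun x _ => by split_ifs <;> simp [hD x]

theorem marg_zero {n : ℕ} (D : (Fin (n + 1) → Fin 2) → ℝ) :
    marg D 0 = ∑ x : Fin n → Fin 2, D (Fin.cons 1 x) := by
  unfold marg
  rw [sum_cons]
  simp

theorem marg_succ {n : ℕ} (D : (Fin (n + 1) → Fin 2) → ℝ) (i : Fin n) :
    marg D i.succ = marg (fun x => D (Fin.cons 0 x)) i + marg (fun x => D (Fin.cons 1 x)) i := by
  unfold marg
  rw [sum_cons]
  simp

/-- classical subadditivity of the Shannon entropy, unnormalised -/
theorem shannon : ∀ (n : ℕ) (D : (Fin n → Fin 2) → ℝ) (_ : ∀ x, 0 ≤ D x),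
    ∑ x, Real.negMulLog (D x)
      ≤ Real.negMulLog (∑ x, D x)
        + ∑ i, (∑ x, D x) * Real.binEntropy (marg D i / ∑ x, D x) := by
  intro n
  induction n with
  | zero =>
    intro D hD
    simp
  | succ n ih =>
    intro D hD
    set D0 : (Fin n → Fin 2) → ℝ := fun x => D (Fin.cons 0 x) with hD0
    set D1 : (Fin n → Fin 2) → ℝ := fun x => D (Fin.cons 1 x) with hD1
    have h0 := ih D0 (fun x => hD _)
    have h1 := ih D1 (fun x => hD _)
    set t0 := ∑ x, D0 x with ht0
    set t1 := ∑ x, D1 x with ht1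
    have hn0 : 0 ≤ t0 := Finset.sum_nonneg fun x _ => hD _
    have hn1 : 0 ≤ t1 := Finset.sum_nonneg fun x _ => hD _
    have hsum : ∑ x, D x = t0 + t1 := sum_cons D
    rw [hsum, sum_cons, Fin.sum_univ_succ, marg_zero]
    have hm : ∀ i : Fin n, t0 * Real.binEntropy (marg D0 i / t0)
        + t1 * Real.binEntropy (marg D1 i / t1)
        ≤ (t0 + t1) * Real.binEntropy (marg D i.succ / (t0 + t1)) := by
      intro i
      have hc : ConvexOn ℝ (Icc 0 1) (fun x => -Real.binEntropy x) :=
        Real.strictConcave_binEntropy.concaveOn.neg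
      have := persp hc (marg_nonneg (fun x => hD _ : ∀ x, 0 ≤ D0 x) i)
        (marg_le (fun x => hD _ : ∀ x, 0 ≤ D0 x) i)
        (marg_nonneg (fun x => hD _ : ∀ x, 0 ≤ D1 x) i)
        (marg_le (fun x => hD _ : ∀ x, 0 ≤ D1 x) i)
      rw [marg_succ]
      simp only [mul_neg] at this
      linarith
    have hsm := Finset.sum_le_sum (fun i (_ : i ∈ Finset.univ) => hm i)
    rw [Finset.sum_add_distrib] at hsm
    have hb : Real.negMulLog t0 + Real.negMulLog t1
        ≤ Real.negMulLog (t0 + t1) + (t0 + t1) * Real.binEntropy (t1 / (t0 + t1)) := by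
      rcases (add_nonneg hn0 hn1).eq_or_lt with h | h
      · have e0 : t0 = 0 := by linarith
        have e1 : t1 = 0 := by linarith
        rw [e0, e1]; simp
      · apply le_of_eq
        rw [Real.binEntropy_eq_negMulLog_add_negMulLog_one_sub]
        have e1 : t1 = (t0 + t1) * (t1 / (t0 + t1)) := by field_simp
        have e0 : t0 = (t0 + t1) * (1 - t1 / (t0 + t1)) := by field_simp; ring
        have f1 : Real.negMulLog t1 = t1 / (t0 + t1) * Real.negMulLog (t0 + t1)
            + (t0 + t1) * Real.negMulLog (t1 / (t0 + t1)) := by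
          conv_lhs => rw [e1]
          rw [Real.negMulLog_mul]
        have f0 : Real.negMulLog t0 = (1 - t1 / (t0 + t1)) * Real.negMulLog (t0 + t1)
            + (t0 + t1) * Real.negMulLog (1 - t1 / (t0 + t1)) := by
          conv_lhs => rw [e0]
          rw [Real.negMulLog_mul]
        rw [f1, f0]
        ring
    have hD1' : ∑ x : Fin n → Fin 2, D (Fin.cons 1 x) = t1 := rfl
    rw [hD1']
    have hs0 : ∑ x : Fin n → Fin 2, Real.negMulLog (D (Fin.cons 0 x)) = ∑ x, Real.negMulLog (D0 x) := rfl
    have hs1 : ∑ x : Fin n → Fin 2, Real.negMulLog (D (Fin.cons 1 x)) = ∑ x, Real.negMulLog (D1 x) := rfl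
    rw [hs0, hs1]
    linarith

end Vale.Agent.H28
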