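import Vale.Agent.H28.Recur

open Matrix Complex Set
open scoped ComplexOrder

namespace Vale.Agent.H28

theorem trace_re_eq' {X : Type*} [Fintype X] [DecidableEq X] {A : Matrix X X ℂ}
    (hA : A.IsHermitian) : A.trace.re = ∑ i, hA.eigenvalues i := by
  rw [hA.trace_eq_sum_eigenvalues, Complex.re_sum]
  simp

theorem piMat_mul {n : ℕ} (A B : Fin n → Matrix (Fin 2) (Fin 2) ℂ) :
    piMat (fun i => A i * B i) = piMat A * piMat B := by
  ext x y
  simp only [piMat, Matrix.mul_apply, Fintype.prod_sum, Finset.prod_mul_distrib]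

theorem piMat_conjTranspose {n : ℕ} (A : Fin n → Matrix (Fin 2) (Fin 2) ℂ) :
    (piMat A)ᴴ = piMat (fun i => (A i)ᴴ) := by
  ext x y
  simp only [piMat, conjTranspose_apply, star_prod]

theorem piMat_sum {n : ℕ} {κ : Type*} [Fintype κ] [DecidableEq κ]
    (A : Fin n → κ → Matrix (Fin 2) (Fin 2) ℂ) :
    piMat (fun i => ∑ k, A i k) = ∑ k : Fin n → κ, piMat (fun i => A i (k i)) := by
  ext x y
  simp only [piMat, Matrix.sum_apply, Fintype.prod_sum]

theorem piMat_diagonal {n : ℕ} (d : Fin n → Fin 2 → ℂ) :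
    piMat (fun i => diagonal (d i)) = diagonal (fun x => ∏ i, d i (x i)) := by
  ext x y
  simp only [piMat]
  by_cases h : x = y
  · subst h; simp
  · rw [diagonal_apply_ne _ h]
    obtain ⟨i, hi⟩ := Function.ne_iff.1 h
    exact Finset.prod_eq_zero (Finset.mem_univ i) (diagonal_apply_ne _ hi)

theorem piMat_one {n : ℕ} : piMat (fun _ : Fin n => (1 : Matrix (Fin 2) (Fin 2) ℂ)) = 1 := by
  have := piMat_diagonal (fun (_ : Fin n) (_ : Fin 2) => (1 : ℂ))
  simp only [diagonal_one, Finset.prod_const_one] at this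
  exact this

theorem piMat_trace {n : ℕ} (A : Fin n → Matrix (Fin 2) (Fin 2) ℂ) :
    (piMat A).trace = ∏ i, (A i).trace := by
  simp only [Matrix.trace, Matrix.diag_apply, piMat, Fintype.prod_sum]

theorem prod_sum_one : ∀ (n : ℕ) (d : Fin n → Fin 2 → ℝ) (_ : ∀ i, d i 0 + d i 1 = 1),
    ∑ x : Bits n, ∏ i, d i (x i) = 1 := by
  intro n d hd
  rw [← Fintype.prod_sum]
  simp only [Fin.sum_univ_two, hd, Finset.prod_const_one]

theorem shannon_prod : ∀ (n : ℕ) (d : Fin n → Fin 2 → ℝ) (_ : ∀ i, d i 0 + d i 1 = 1),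
    ∑ x : Bits n, Real.negMulLog (∏ i, d i (x i))
      = ∑ i, (Real.negMulLog (d i 0) + Real.negMulLog (d i 1)) := by
  intro n
  induction n with
  | zero => intro d _; simp
  | succ n ih =>
    intro d hd
    rw [sum_cons, Fin.sum_univ_succ]
    simp only [Fin.prod_univ_succ, Fin.cons_zero, Fin.cons_succ, Real.negMulLog_mul,
      Finset.sum_add_distrib, ← Finset.mul_sum, ← Finset.sum_mul]
    have h1 := ih (fun i => d i.succ) (fun i => hd _)
    have h2 := prod_sum_one n (fun i => d i.succ) (fun i => hd _)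
    rw [h1, h2]
    have h3 := hd 0
    have h4 : d 0 1 = 1 - d 0 0 := by linarith
    simp only [Finset.sum_add_distrib]
    rw [h4]
    ring

theorem ent_piMat {n : ℕ} (A : Fin n → Matrix (Fin 2) (Fin 2) ℂ) (hA : ∀ i, (A i).IsHermitian)
    (ht : ∀ i, (A i).trace = 1) : ent (piMat A) = ∑ i, ent (A i) := by
  choose U h1 h2 h3 using fun i => spectral' (hA i)
  have e : piMat A = piMat U * diagonal (fun x => ((∏ i, (hA i).eigenvalues (x i) : ℝ) : ℂ))
      * (piMat U)ᴴ := by
    have : (fun i => A i) = fun i => U i * diagonal (fun j => ((hA i).eigenvalues j : ℂ)) * (U i)ᴴ := by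
      funext i; exact h3 i
    conv_lhs => rw [show A = fun i => A i from rfl, this]
    rw [piMat_mul (fun i => U i * diagonal (fun j => ((hA i).eigenvalues j : ℂ))) (fun i => (U i)ᴴ),
      piMat_mul U (fun i => diagonal (fun j => ((hA i).eigenvalues j : ℂ))), piMat_diagonal,
      piMat_conjTranspose]
    congr 3
    funext x
    push_cast
    rfl
  have hU : (piMat U)ᴴ * piMat U = 1 := by
    rw [piMat_conjTranspose, ← piMat_mul]
    simp only [h1]
    exact piMat_one
  have hd : ∀ i, (hA i).eigenvalues 0 + (hA i).eigenvalues 1 = 1 := by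
    intro i
    have := trace_re_eq' (hA i)
    rw [ht i, Fin.sum_univ_two] at this
    simpa using this.symm
  rw [e, ent_conj hU, ent_diagonal, shannon_prod n (fun i j => (hA i).eigenvalues j) hd]
  apply Finset.sum_congr rfl
  intro i _
  rw [ent_eq (hA i), Fin.sum_univ_two]

end Vale.Agent.H28
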