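import Vale.Agent.H28.Tensor

open Matrix Complex Set
open scoped ComplexOrder

namespace Vale.Agent.H28

/-- block form of the channel acting on the first qubit -/
noncomputable def outG {X : Type*} (γ ν : ℝ) (α Y β : Matrix X X ℂ) : Matrix (X ⊕ X) (X ⊕ X) ℂ :=
  fromBlocks (((1 - γ * ν : ℝ) : ℂ) • α + ((γ * (1 - ν) : ℝ) : ℂ) • β)
    ((Real.sqrt (1 - γ) : ℂ) • Y) ((Real.sqrt (1 - γ) : ℂ) • Yᴴ)
    (((γ * ν : ℝ) : ℂ) • α + ((1 - γ + γ * ν : ℝ) : ℂ) • β)

theorem blk_conj {n : ℕ} {σ : Matrix (Bits (n + 1)) (Bits (n + 1)) ℂ} (h : σ.IsHermitian) :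
    blk σ 1 0 = (blk σ 0 1)ᴴ := by
  ext x y
  simp only [blk, submatrix_apply, conjTranspose_apply]
  exact (h.apply _ _).symm

theorem gad_single (γ ν : ℝ) (i j a b : Fin 2) :
    gad γ ν (Matrix.single i j 1) a b =
      if i = j then (if a = b then
        (if i = 0 then (if a = 0 then ((1 - γ * ν : ℝ) : ℂ) else ((γ * ν : ℝ) : ℂ))
          else (if a = 0 then ((γ * (1 - ν) : ℝ) : ℂ) else ((1 - γ + γ * ν : ℝ) : ℂ))) else 0)
      else (if a = i ∧ b = j then ((√(1 - γ) : ℝ) : ℂ) else 0) := by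
  fin_cases i <;> fin_cases j <;> fin_cases a <;> fin_cases b <;>
    simp [gad, Matrix.trace_fin_two, Matrix.single] <;> ring

theorem tensorPow_block {γ ν : ℝ} {n : ℕ} (σ : Matrix (Bits (n + 1)) (Bits (n + 1)) ℂ) :
    (tensorPow (gad γ ν) (n + 1) σ).submatrix (splitE n) (splitE n)
      = fromBlocks (((1 - γ * ν : ℝ) : ℂ) • tensorPow (gad γ ν) n (blk σ 0 0)
          + ((γ * (1 - ν) : ℝ) : ℂ) • tensorPow (gad γ ν) n (blk σ 1 1))
        ((Real.sqrt (1 - γ) : ℂ) • tensorPow (gad γ ν) n (blk σ 0 1))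
        ((Real.sqrt (1 - γ) : ℂ) • tensorPow (gad γ ν) n (blk σ 1 0))
        (((γ * ν : ℝ) : ℂ) • tensorPow (gad γ ν) n (blk σ 0 0)
          + ((1 - γ + γ * ν : ℝ) : ℂ) • tensorPow (gad γ ν) n (blk σ 1 1)) := by
  ext i j
  rcases i with i | i <;> rcases j with j | j
  · have := tensorPow_cons (Φ := gad γ ν) n σ 0 0 i j
    simp only [gad_single, Fin.sum_univ_two] at this
    simp only [submatrix_apply, splitE, Equiv.coe_fn_mk, Sum.elim_inl]
    rw [this]
    simp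
  · have := tensorPow_cons (Φ := gad γ ν) n σ 0 1 i j
    simp only [gad_single, Fin.sum_univ_two] at this
    simp only [submatrix_apply, splitE, Equiv.coe_fn_mk, Sum.elim_inl, Sum.elim_inr]
    rw [this]
    simp
  · have := tensorPow_cons (Φ := gad γ ν) n σ 1 0 i j
    simp only [gad_single, Fin.sum_univ_two] at this
    simp only [submatrix_apply, splitE, Equiv.coe_fn_mk, Sum.elim_inl, Sum.elim_inr]
    rw [this]
    simp
  · have := tensorPow_cons (Φ := gad γ ν) n σ 1 1 i j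
    simp only [gad_single, Fin.sum_univ_two] at this
    simp only [submatrix_apply, splitE, Equiv.coe_fn_mk, Sum.elim_inr]
    rw [this]
    simp

/-- Kraus operators of the generalized amplitude damping channel -/
noncomputable def gadK (γ ν : ℝ) : Fin 4 → Matrix (Fin 2) (Fin 2) ℂ :=
  ![!![(√(1 - ν) : ℝ), 0; 0, (√(1 - ν) * √(1 - γ) : ℝ)],
    !![0, (√(1 - ν) * √γ : ℝ); 0, 0],
    !![(√ν * √(1 - γ) : ℝ), 0; 0, (√ν : ℝ)],
    !![0, 0; (√ν * √γ : ℝ), 0]]

theorem gad_kraus {γ ν : ℝ} (hγ0 : 0 ≤ γ) (hγ1 : γ ≤ 1) (hν0 : 0 ≤ ν) (hν1 : ν ≤ 1)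
    (ρ : Matrix (Fin 2) (Fin 2) ℂ) :
    gad γ ν ρ = ∑ k, gadK γ ν k * ρ * (gadK γ ν k)ᴴ := by
  have h1 : ((√(1 - ν) : ℝ) : ℂ) * ((√(1 - ν) : ℝ) : ℂ) = ((1 - ν : ℝ) : ℂ) := by
    rw [← Complex.ofReal_mul, Real.mul_self_sqrt (by linarith)]
  have h2 : ((√ν : ℝ) : ℂ) * ((√ν : ℝ) : ℂ) = ((ν : ℝ) : ℂ) := by
    rw [← Complex.ofReal_mul, Real.mul_self_sqrt (by linarith)]
  have h3 : ((√(1 - γ) : ℝ) : ℂ) * ((√(1 - γ) : ℝ) : ℂ) = ((1 - γ : ℝ) : ℂ) := by
    rw [← Complex.ofReal_mul, Real.mul_self_sqrt (by linarith)]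
  have h4 : ((√γ : ℝ) : ℂ) * ((√γ : ℝ) : ℂ) = ((γ : ℝ) : ℂ) := by
    rw [← Complex.ofReal_mul, Real.mul_self_sqrt (by linarith)]
  push_cast at h1 h2 h3 h4
  ext i j
  rw [Matrix.sum_apply, Fin.sum_univ_four]
  fin_cases i <;> fin_cases j
  · simp [gad, gadK, Matrix.trace_fin_two, Matrix.mul_apply, Matrix.vecMul, dotProduct,
      Fin.sum_univ_two]
    linear_combination (-(ρ 0 0 + ρ 1 1 * (√γ : ℝ) * (√γ : ℝ))) * h1
      - (ρ 0 0 * (√(1 - γ) : ℝ) * (√(1 - γ) : ℝ)) * h2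
      - (ρ 0 0 * ν) * h3 - (ρ 1 1 * (1 - ν)) * h4
  · simp [gad, gadK, Matrix.trace_fin_two, Matrix.mul_apply, Matrix.vecMul, dotProduct,
      Fin.sum_univ_two]
    linear_combination (-(ρ 0 1 * (√(1 - γ) : ℝ))) * h1 - (ρ 0 1 * (√(1 - γ) : ℝ)) * h2
  · simp [gad, gadK, Matrix.trace_fin_two, Matrix.mul_apply, Matrix.vecMul, dotProduct,
      Fin.sum_univ_two]
    linear_combination (-(ρ 1 0 * (√(1 - γ) : ℝ))) * h1 - (ρ 1 0 * (√(1 - γ) : ℝ)) * h2
  · simp [gad, gadK, Matrix.trace_fin_two, Matrix.mul_apply, Matrix.vecMul, dotProduct,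
      Fin.sum_univ_two]
    linear_combination (-(ρ 1 1 * (√(1 - γ) : ℝ) * (√(1 - γ) : ℝ))) * h1
      - (ρ 1 1 + ρ 0 0 * (√γ : ℝ) * (√γ : ℝ)) * h2
      - (ρ 1 1 * (1 - ν)) * h3 - (ρ 0 0 * ν) * h4

theorem tensorPow_isKraus {γ ν : ℝ} (hγ0 : 0 ≤ γ) (hγ1 : γ ≤ 1) (hν0 : 0 ≤ ν) (hν1 : ν ≤ 1)
    (n : ℕ) : IsKraus (tensorPow (gad γ ν) n) :=
  isKraus_of_fintype _ (tensorPow_kraus (gadK γ ν) (gad_kraus hγ0 hγ1 hν0 hν1) n)

/-- real diagonal -/
noncomputable def dg {n : ℕ} (σ : Matrix (Bits n) (Bits n) ℂ) : Bits n → ℝ := fun x => (σ x x).re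

theorem dg_nonneg {n : ℕ} {σ : Matrix (Bits n) (Bits n) ℂ} (h : σ.PosSemidef) (x : Bits n) :
    0 ≤ dg σ x := (Complex.nonneg_iff.1 (h.diag_nonneg (i := x))).1

theorem sum_dg {n : ℕ} (σ : Matrix (Bits n) (Bits n) ℂ) : ∑ x, dg σ x = σ.trace.re := by
  rw [Matrix.trace, Complex.re_sum]; rfl

theorem dg_tensor (γ ν : ℝ) : ∀ (n : ℕ) (σ : Matrix (Bits n) (Bits n) ℂ),
    ∑ x, dg (tensorPow (gad γ ν) n σ) x = ∑ x, dg σ x ∧
    ∀ i, marg (dg (tensorPow (gad γ ν) n σ)) i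
      = γ * ν * (∑ x, dg σ x) + (1 - γ) * marg (dg σ) i := by
  intro n
  induction n with
  | zero =>
    intro σ
    refine ⟨?_, fun i => i.elim0⟩
    apply Finset.sum_congr rfl
    intro x _
    have hsub : ∀ a b c d : Bits 0, σ a b = σ c d := fun a b c d => by
      rw [Subsingleton.elim a c, Subsingleton.elim b d]
    simp only [dg, tensorPow]
    simp
    rw [hsub _ _ x x]
  | succ n ih =>
    intro σ
    have e0 : ∀ x : Bits n, dg (tensorPow (gad γ ν) (n + 1) σ) (Fin.cons 0 x)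
        = (1 - γ * ν) * dg (tensorPow (gad γ ν) n (blk σ 0 0)) x
          + (γ * (1 - ν)) * dg (tensorPow (gad γ ν) n (blk σ 1 1)) x := by
      intro x
      have := tensorPow_cons (Φ := gad γ ν) n σ 0 0 x x
      simp only [gad_single, Fin.sum_univ_two] at this
      simp only [dg]
      rw [this]
      simp only [Complex.add_re, if_true, Complex.re_ofReal_mul]
      simp
    have e1 : ∀ x : Bits n, dg (tensorPow (gad γ ν) (n + 1) σ) (Fin.cons 1 x)
        = (γ * ν) * dg (tensorPow (gad γ ν) n (blk σ 0 0)) x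
          + (1 - γ + γ * ν) * dg (tensorPow (gad γ ν) n (blk σ 1 1)) x := by
      intro x
      have := tensorPow_cons (Φ := gad γ ν) n σ 1 1 x x
      simp only [gad_single, Fin.sum_univ_two] at this
      simp only [dg]
      rw [this]
      simp
    obtain ⟨a0, b0⟩ := ih (blk σ 0 0)
    obtain ⟨a1, b1⟩ := ih (blk σ 1 1)
    have hs : ∑ x, dg σ x = ∑ x, dg (blk σ 0 0) x + ∑ x, dg (blk σ 1 1) x := by
      rw [sum_cons]; rfl
    refine ⟨?_, ?_⟩
    · rw [sum_cons, hs]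
      simp only [e0, e1, Finset.sum_add_distrib, ← Finset.mul_sum, a0, a1]
      ring
    · intro i
      refine Fin.cases ?_ (fun i => ?_) i
      · rw [marg_zero, marg_zero, hs]
        simp only [e1, Finset.sum_add_distrib, ← Finset.mul_sum, a0, a1]
        have : ∑ x : Bits n, dg σ (Fin.cons 1 x) = ∑ x, dg (blk σ 1 1) x := rfl
        rw [this]
        ring
      · rw [marg_succ, marg_succ, hs]
        have l : ∀ (c d : ℝ) (D D' : Bits n → ℝ), marg (fun x => c * D x + d * D' x) i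
            = c * marg D i + d * marg D' i := by
          intro c d D D'
          unfold marg
          rw [Finset.mul_sum, Finset.mul_sum, ← Finset.sum_add_distrib]
          apply Finset.sum_congr rfl
          intro x _
          split_ifs <;> ring
        simp only [e0, e1, l, b0 i, b1 i]
        have h0 : marg (fun x : Bits n => dg σ (Fin.cons 0 x)) i = marg (dg (blk σ 0 0)) i := rfl
        have h1 : marg (fun x : Bits n => dg σ (Fin.cons 1 x)) i = marg (dg (blk σ 1 1)) i := rfl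
        rw [h0, h1]
        ring

/-- the one-shot block inequality needed for additivity -/
def ZClaim (γ ν : ℝ) (g : ℝ → ℝ) : Prop :=
  ∀ (n : ℕ) (α Y β : Matrix (Bits n) (Bits n) ℂ), (fromBlocks α Y Yᴴ β).PosSemidef →
    ent α + ent β + (Real.negMulLog (α.trace.re + β.trace.re)
      + (α.trace.re + β.trace.re) * g (β.trace.re / (α.trace.re + β.trace.re)))
      ≤ ent (outG γ ν α Y β) + Real.negMulLog α.trace.re + Real.negMulLog β.trace.re

theorem ent_lower {γ ν : ℝ} (hγ0 : 0 ≤ γ) (hγ1 : γ ≤ 1) (hν0 : 0 ≤ ν) (hν1 : ν ≤ 1)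
    {g : ℝ → ℝ} (hg : ConvexOn ℝ (Icc 0 1) g) (hZ : ZClaim γ ν g) :
    ∀ (n : ℕ) (σ : Matrix (Bits n) (Bits n) ℂ), σ.PosSemidef →
      Real.negMulLog (∑ x, dg σ x) + ∑ i, (∑ x, dg σ x) * g (marg (dg σ) i / ∑ x, dg σ x)
        ≤ ent (tensorPow (gad γ ν) n σ) := by
  intro n
  induction n with
  | zero =>
    intro σ hσ
    have h1 : tensorPow (gad γ ν) 0 σ = σ := by
      ext x y
      have hsub : ∀ a b c d : Bits 0, σ a b = σ c d := fun a b c d => by
        rw [Subsingleton.elim a c, Subsingleton.elim b d]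
      simp only [tensorPow]
      simp
      exact hsub _ _ _ _
    rw [h1]
    have h2 : σ = diagonal (fun x => ((dg σ x : ℝ) : ℂ)) := by
      ext x y
      have : x = y := Subsingleton.elim x y
      subst this
      rw [diagonal_apply_eq]
      obtain ⟨_, h3⟩ := Complex.nonneg_iff.1 (hσ.diag_nonneg (i := x))
      apply Complex.ext
      · rfl
      · simp [← h3]
    have h3 : ent σ = ∑ x, Real.negMulLog (dg σ x) := by
      conv_lhs => rw [h2]
      exact ent_diagonal _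
    rw [h3]
    simp
  | succ n ih =>
    intro σ hσ
    have hb : (fromBlocks (blk σ 0 0) (blk σ 0 1) (blk σ 0 1)ᴴ (blk σ 1 1)).PosSemidef := by
      have := hσ.submatrix (splitE n)
      rw [submatrix_splitE, blk_conj hσ.isHermitian] at this
      exact this
    have hK := tensorPow_isKraus hγ0 hγ1 hν0 hν1 n
    obtain ⟨hTb, hTh⟩ := hK.block hb
    have hblock : (tensorPow (gad γ ν) (n + 1) σ).submatrix (splitE n) (splitE n)
        = outG γ ν (tensorPow (gad γ ν) n (blk σ 0 0)) (tensorPow (gad γ ν) n (blk σ 0 1))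
          (tensorPow (gad γ ν) n (blk σ 1 1)) := by
      rw [tensorPow_block, blk_conj hσ.isHermitian, hTh]
      rfl
    have hent : ent (tensorPow (gad γ ν) (n + 1) σ) = ent (outG γ ν
        (tensorPow (gad γ ν) n (blk σ 0 0)) (tensorPow (gad γ ν) n (blk σ 0 1))
          (tensorPow (gad γ ν) n (blk σ 1 1))) := by
      rw [← hblock, ent_submatrix]
    have h00 : (blk σ 0 0).PosSemidef := hσ.submatrix _
    have h11 : (blk σ 1 1).PosSemidef := hσ.submatrix _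
    have key := hZ n _ _ _ hTb
    rw [← hent] at key
    have t0 : (tensorPow (gad γ ν) n (blk σ 0 0)).trace.re = ∑ x, dg (blk σ 0 0) x := by
      rw [← sum_dg, (dg_tensor γ ν n _).1]
    have t1 : (tensorPow (gad γ ν) n (blk σ 1 1)).trace.re = ∑ x, dg (blk σ 1 1) x := by
      rw [← sum_dg, (dg_tensor γ ν n _).1]
    rw [t0, t1] at key
    have i0 := ih _ h00
    have i1 := ih _ h11
    have hs : ∑ x, dg σ x = ∑ x, dg (blk σ 0 0) x + ∑ x, dg (blk σ 1 1) x := by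
      rw [sum_cons]; rfl
    set p := ∑ x, dg (blk σ 0 0) x with hp
    set q := ∑ x, dg (blk σ 1 1) x with hq
    rw [hs, Fin.sum_univ_succ, marg_zero]
    have hm0 : ∑ x : Bits n, dg σ (Fin.cons 1 x) = q := rfl
    rw [hm0]
    have hm : ∀ i : Fin n, (p + q) * g (marg (dg σ) i.succ / (p + q))
        ≤ p * g (marg (dg (blk σ 0 0)) i / p) + q * g (marg (dg (blk σ 1 1)) i / q) := by
      intro i
      rw [marg_succ]
      exact persp hg (marg_nonneg (dg_nonneg h00) i) (marg_le (dg_nonneg h00) i)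
        (marg_nonneg (dg_nonneg h11) i) (marg_le (dg_nonneg h11) i)
    have hsm := Finset.sum_le_sum (fun i (_ : i ∈ Finset.univ) => hm i)
    rw [Finset.sum_add_distrib] at hsm
    linarith

theorem ent_upper {γ ν : ℝ} (hγ0 : 0 ≤ γ) (hγ1 : γ ≤ 1) (hν0 : 0 ≤ ν) (hν1 : ν ≤ 1)
    (n : ℕ) (σ : Matrix (Bits n) (Bits n) ℂ) (hσ : σ.PosSemidef) (ht : ∑ x, dg σ x = 1) :
    ent (tensorPow (gad γ ν) n σ)
      ≤ ∑ i, Real.binEntropy (γ * ν + (1 - γ) * marg (dg σ) i) := by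
  have hT := (tensorPow_isKraus hγ0 hγ1 hν0 hν1 n).posSemidef hσ
  have h1 := ent_le_diag hT
  have h2 := shannon n (dg (tensorPow (gad γ ν) n σ)) (dg_nonneg hT)
  obtain ⟨h3, h4⟩ := dg_tensor γ ν n σ
  rw [h3, ht] at h2
  simp only [Real.negMulLog_one, zero_add, one_mul, div_one] at h2
  refine h1.trans (h2.trans (le_of_eq ?_))
  apply Finset.sum_congr rfl
  intro i _
  rw [h4 i, ht, mul_one]

end Vale.Agent.H28
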