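import Mathlib

open Filter Topology

namespace Vale.Agent.H28

/-- The basic transfer lemma: a signed combination of logarithms `log (s + x)` which is
nonnegative for every `s > 0` (with vanishing total weight and first moment) yields a
nonnegative signed combination of `-x log x`. -/
theorem SL {ι : Type*} [Fintype ι] (w x : ι → ℝ) (hx : ∀ i, 0 ≤ x i)
    (h0 : ∑ i, w i = 0) (h1 : ∑ i, w i * x i = 0)
    (h : ∀ s : ℝ, 0 < s → 0 ≤ ∑ i, w i * Real.log (s + x i)) :
    0 ≤ ∑ i, w i * Real.negMulLog (x i) := by
  set G : ℝ → ℝ := fun T => ∑ i, w i * ((T + x i) * Real.log (T + x i)) with hG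
  have hcont : Continuous G := by
    apply continuous_finsetSum
    intro i _
    exact continuous_const.mul (Real.continuous_mul_log.comp (continuous_id.add continuous_const))
  have hder : ∀ T : ℝ, 0 < T → HasDerivAt G (∑ i, w i * (Real.log (T + x i) + 1)) T := by
    intro T hT
    apply HasDerivAt.fun_sum
    intro i _
    have hpos : T + x i ≠ 0 := by have := hx i; positivity
    have h1 : HasDerivAt (fun T : ℝ => T + x i) 1 T := (hasDerivAt_id T).add_const (x i)
    have h2 := (Real.hasDerivAt_mul_log hpos).comp T h1
    simpa using h2.const_mul (w i)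
  have hmono : MonotoneOn G (Set.Ici 0) := by
    apply monotoneOn_of_deriv_nonneg (convex_Ici 0) hcont.continuousOn
    · intro T hT
      rw [interior_Ici] at hT
      exact (hder T hT).differentiableAt.differentiableWithinAt
    · intro T hT
      rw [interior_Ici] at hT
      rw [(hder T hT).deriv]
      have := h T hT
      simp only [mul_add, mul_one, Finset.sum_add_distrib, h0]
      linarith
  have hlim : Tendsto G atTop (𝓝 0) := by
    have key : Tendsto (fun T : ℝ => ∑ i, w i * (T * Real.log (1 + x i / T)
        + x i * Real.log (1 + x i / T))) atTop (𝓝 (∑ i, w i * (x i + x i * 0))) := by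
      apply tendsto_finsetSum
      intro i _
      apply Tendsto.const_mul
      apply Tendsto.add
      · exact Real.tendsto_mul_log_one_add_div_atTop (x i)
      · apply Tendsto.const_mul
        have : Tendsto (fun T : ℝ => 1 + x i / T) atTop (𝓝 (1 + 0)) :=
          tendsto_const_nhds.add (tendsto_const_nhds.div_atTop tendsto_id)
        have h2 := (Real.continuousAt_log (by norm_num : (1 + 0 : ℝ) ≠ 0)).tendsto.comp this
        simpa [Function.comp_def] using h2
    have e0 : ∑ i, w i * (x i + x i * 0) = 0 := by simpa using h1
    rw [e0] at key
    refine key.congr' ?_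
    filter_upwards [eventually_gt_atTop 0] with T hT
    have e1 : ∀ i, w i * ((T + x i) * Real.log (T + x i)) =
        w i * (T * Real.log (1 + x i / T) + x i * Real.log (1 + x i / T))
          + (w i * (T * Real.log T) + (w i * x i) * Real.log T) := by
      intro i
      have hp : 0 < 1 + x i / T := by have := hx i; positivity
      have : T + x i = T * (1 + x i / T) := by field_simp
      rw [show Real.log (T + x i) = Real.log T + Real.log (1 + x i / T) by
        rw [this, Real.log_mul hT.ne' hp.ne']]
      ring
    simp only [hG]
    rw [Finset.sum_congr rfl (fun i _ => e1 i), Finset.sum_add_distrib,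
      Finset.sum_add_distrib, ← Finset.sum_mul, ← Finset.sum_mul, h0, h1]
    ring
  have hle : G 0 ≤ 0 := by
    apply ge_of_tendsto hlim
    filter_upwards [eventually_ge_atTop 0] with T hT
    exact hmono (Set.mem_Ici.2 le_rfl) (Set.mem_Ici.2 hT) hT
  have : G 0 = - ∑ i, w i * Real.negMulLog (x i) := by
    simp only [hG, Real.negMulLog, zero_add]
    rw [← Finset.sum_neg_distrib]
    apply Finset.sum_congr rfl
    intro i _
    ring
  linarith

end Vale.Agent.H28
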