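import Vale.Agent.H28.SL

open Filter Topology

namespace Vale.Agent.H28

/-- larger root of `x^2 - σ x + π` -/
noncomputable def rootP (σ π : ℝ) : ℝ := (σ + Real.sqrt (σ ^ 2 - 4 * π)) / 2

/-- smaller root of `x^2 - σ x + π` -/
noncomputable def rootM (σ π : ℝ) : ℝ := (σ - Real.sqrt (σ ^ 2 - 4 * π)) / 2

/-- `φ(λ₊) + φ(λ₋)` for the two roots of `x^2 - σ x + π`. -/
noncomputable def pairEnt (σ π : ℝ) : ℝ :=
  Real.negMulLog (rootP σ π) + Real.negMulLog (rootM σ π)

theorem root_add (σ π : ℝ) : rootP σ π + rootM σ π = σ := by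
  unfold rootP rootM; ring

theorem root_mul {σ π : ℝ} (h : 4 * π ≤ σ ^ 2) : rootP σ π * rootM σ π = π := by
  unfold rootP rootM
  have := Real.sq_sqrt (by linarith : 0 ≤ σ ^ 2 - 4 * π)
  nlinarith

theorem rootM_nonneg {σ π : ℝ} (hσ : 0 ≤ σ) (hπ : 0 ≤ π) : 0 ≤ rootM σ π := by
  unfold rootM
  have : Real.sqrt (σ ^ 2 - 4 * π) ≤ σ := by
    rw [Real.sqrt_le_left hσ]
    nlinarith
  linarith

theorem rootP_nonneg {σ π : ℝ} (hσ : 0 ≤ σ) : 0 ≤ rootP σ π := by
  unfold rootP
  have := Real.sqrt_nonneg (σ ^ 2 - 4 * π)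
  linarith

/-- the two roots as a multiset identity -/
theorem root_prod (σ π s : ℝ) (h : 4 * π ≤ σ ^ 2) :
    (s + rootP σ π) * (s + rootM σ π) = s ^ 2 + s * σ + π := by
  have h1 := root_add σ π
  have h2 := root_mul h
  have : (s + rootP σ π) * (s + rootM σ π)
      = s ^ 2 + s * (rootP σ π + rootM σ π) + rootP σ π * rootM σ π := by ring
  rw [this, h1, h2]

/-- if `u + v = σ`, `u v = π` then the pair entropy is `φ u + φ v` -/
theorem pairEnt_eq {u v σ π : ℝ} (h1 : u + v = σ) (h2 : u * v = π) :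
    pairEnt σ π = Real.negMulLog u + Real.negMulLog v := by
  have hsq : σ ^ 2 - 4 * π = (u - v) ^ 2 := by rw [← h1, ← h2]; ring
  unfold pairEnt rootP rootM
  rw [hsq, Real.sqrt_sq_eq_abs]
  rcases abs_cases (u - v) with ⟨h, _⟩ | ⟨h, _⟩
  · rw [h, ← h1]
    congr 1
    · congr 1; ring
    · congr 1; ring
  · rw [h, ← h1, add_comm]
    congr 1
    · congr 1; ring
    · congr 1; ring

/-- the three-variable function `Λ(p,r,t)` (without the `-φ(p)` term it is not homogeneous) -/
noncomputable def Lam (p r t : ℝ) : ℝ :=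
  pairEnt (p + r + t) (r * t) - Real.negMulLog p - Real.negMulLog r - Real.negMulLog t

theorem disc_ok {p r t : ℝ} (hp : 0 ≤ p) (hr : 0 ≤ r) (ht : 0 ≤ t) :
    4 * (r * t) ≤ (p + r + t) ^ 2 := by
  nlinarith [sq_nonneg (r - t), mul_nonneg hp hr, mul_nonneg hp ht, sq_nonneg p]

theorem Lam_zero (r t : ℝ) : Lam 0 r t = 0 := by
  unfold Lam
  rw [pairEnt_eq (u := r) (v := t) (by ring) rfl]
  simp

theorem log_roots {p r t s : ℝ} (hp : 0 ≤ p) (hr : 0 ≤ r) (ht : 0 ≤ t) (hs : 0 < s) :
    Real.log (s + rootP (p + r + t) (r * t)) + Real.log (s + rootM (p + r + t) (r * t))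
      = Real.log ((s + r) * (s + t) + s * p) := by
  have h1 := rootP_nonneg (π := r * t) (by positivity : 0 ≤ p + r + t)
  have h2 := rootM_nonneg (by positivity : 0 ≤ p + r + t) (mul_nonneg hr ht)
  rw [← Real.log_mul (by positivity) (by positivity), root_prod _ _ _ (disc_ok hp hr ht)]
  congr 1
  ring

/-- homogeneity of degree one -/
theorem Lam_smul {c : ℝ} (hc : 0 ≤ c) (p r t : ℝ) :
    Lam (c * p) (c * r) (c * t) = c * Lam p r t := by
  have e1 : rootP (c * p + c * r + c * t) (c * r * (c * t)) = c * rootP (p + r + t) (r * t) := by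
    unfold rootP
    rw [show (c * p + c * r + c * t) ^ 2 - 4 * (c * r * (c * t))
      = c ^ 2 * ((p + r + t) ^ 2 - 4 * (r * t)) by ring, Real.sqrt_mul (sq_nonneg c),
      Real.sqrt_sq hc]
    ring
  have e2 : rootM (c * p + c * r + c * t) (c * r * (c * t)) = c * rootM (p + r + t) (r * t) := by
    unfold rootM
    rw [show (c * p + c * r + c * t) ^ 2 - 4 * (c * r * (c * t))
      = c ^ 2 * ((p + r + t) ^ 2 - 4 * (r * t)) by ring, Real.sqrt_mul (sq_nonneg c),
      Real.sqrt_sq hc]
    ring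
  have h3 := root_add (p + r + t) (r * t)
  unfold Lam pairEnt
  rw [e1, e2]
  simp only [Real.negMulLog_mul]
  have : rootP (p + r + t) (r * t) = p + r + t - rootM (p + r + t) (r * t) := by linarith
  generalize Real.negMulLog (rootP (p + r + t) (r * t)) = A at *
  rw [this]
  ring

/-- `Λ` is decreasing in `t` -/
theorem Lam_anti_t {p r t t' : ℝ} (hp : 0 ≤ p) (hr : 0 ≤ r) (ht : 0 ≤ t) (htt : t ≤ t') :
    Lam p r t' ≤ Lam p r t := by
  have ht' : 0 ≤ t' := ht.trans htt
  have := SL (ι := Fin 6) ![1, 1, -1, -1, -1, 1]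
    ![rootP (p + r + t) (r * t), rootM (p + r + t) (r * t), t,
      rootP (p + r + t') (r * t'), rootM (p + r + t') (r * t'), t']
    (by
      intro i
      fin_cases i
      · exact rootP_nonneg (by positivity)
      · exact rootM_nonneg (by positivity) (by positivity)
      · exact ht
      · exact rootP_nonneg (by positivity)
      · exact rootM_nonneg (by positivity) (by positivity)
      · exact ht')
    (by simp [Fin.sum_univ_succ])
    (by
      have h1 := root_add (p + r + t) (r * t)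
      have h2 := root_add (p + r + t') (r * t')
      simp [Fin.sum_univ_succ]
      linarith)
    (by
      intro s hs
      have h1 := log_roots hp hr ht hs
      have h2 := log_roots hp hr ht' hs
      simp [Fin.sum_univ_succ]
      have h3 : Real.log ((s + r) * (s + t') + s * p) + Real.log (s + t)
          ≤ Real.log ((s + r) * (s + t) + s * p) + Real.log (s + t') := by
        rw [← Real.log_mul (by positivity) (by positivity),
          ← Real.log_mul (by positivity) (by positivity)]
        apply Real.log_le_log (by positivity)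
        nlinarith [mul_nonneg (mul_nonneg hs.le hp) (sub_nonneg.2 htt)]
      linarith)
  simp [Fin.sum_univ_succ] at this
  unfold Lam pairEnt
  linarith

theorem Lam_symm (p r t : ℝ) : Lam p r t = Lam p t r := by
  unfold Lam
  rw [show p + r + t = p + t + r by ring, mul_comm r t]
  ring

theorem Lam_anti {p r r' t t' : ℝ} (hp : 0 ≤ p) (hr : 0 ≤ r) (hrr : r ≤ r') (ht : 0 ≤ t)
    (htt : t ≤ t') : Lam p r' t' ≤ Lam p r t := by
  have h1 := Lam_anti_t hp (hr.trans hrr) ht htt
  have h2 : Lam p r' t ≤ Lam p r t := by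
    rw [Lam_symm p r' t, Lam_symm p r t]
    exact Lam_anti_t hp ht hr hrr
  linarith

end Vale.Agent.H28
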