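import Vale.Agent.H28.CapDefs
import Vale.Agent.H28.Upper

open Matrix Complex
open scoped ComplexOrder

namespace Vale.Agent.H28

/-- bit strings -/
abbrev Bits (n : ℕ) := Fin n → Fin 2

/-- splitting off the first bit -/
def splitE (n : ℕ) : Bits n ⊕ Bits n ≃ Bits (n + 1) where
  toFun := Sum.elim (fun x => Fin.cons 0 x) (fun x => Fin.cons 1 x)
  invFun x := if x 0 = 0 then Sum.inl (Fin.tail x) else Sum.inr (Fin.tail x)
  left_inv := by
    rintro (x | x)
    · simp
    · simp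
  right_inv := by
    intro x
    by_cases h : x 0 = 0
    · simp only [h, if_true, Sum.elim_inl]
      rw [← h, Fin.cons_self_tail]
    · have h1 : x 0 = 1 := by omega
      simp only [h, if_false, Sum.elim_inr]
      rw [← h1, Fin.cons_self_tail]

/-- blocks of an `(n+1)`-qubit matrix with respect to the first qubit -/
def blk {n : ℕ} (σ : Matrix (Bits (n + 1)) (Bits (n + 1)) ℂ) (i j : Fin 2) :
    Matrix (Bits n) (Bits n) ℂ :=
  σ.submatrix (fun x => (Fin.cons i x : Bits (n + 1))) (fun x => (Fin.cons j x : Bits (n + 1)))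

theorem submatrix_splitE {n : ℕ} (σ : Matrix (Bits (n + 1)) (Bits (n + 1)) ℂ) :
    σ.submatrix (splitE n) (splitE n)
      = fromBlocks (blk σ 0 0) (blk σ 0 1) (blk σ 1 0) (blk σ 1 1) := by
  ext i j
  rcases i with i | i <;> rcases j with j | j <;> rfl

variable {Φ : Matrix (Fin 2) (Fin 2) ℂ → Matrix (Fin 2) (Fin 2) ℂ}

theorem tensorPow_cons (n : ℕ) (σ : Matrix (Bits (n + 1)) (Bits (n + 1)) ℂ) (a b : Fin 2)
    (x y : Bits n) :
    tensorPow Φ (n + 1) σ (Fin.cons a x) (Fin.cons b y)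
      = ∑ i, ∑ j, Φ (Matrix.single i j 1) a b * tensorPow Φ n (blk σ i j) x y := by
  unfold tensorPow
  simp only [sum_cons, Fin.prod_univ_succ, Fin.cons_zero, Fin.cons_succ, Fin.sum_univ_two]
  simp only [blk, submatrix_apply, Finset.mul_sum, Finset.sum_add_distrib, mul_assoc]

theorem blk_add {n : ℕ} (σ τ : Matrix (Bits (n + 1)) (Bits (n + 1)) ℂ) (i j : Fin 2) :
    blk (σ + τ) i j = blk σ i j + blk τ i j := rfl

theorem tensorPow_sum {n : ℕ} {ι : Type*} (s : Finset ι) (c : ι → ℂ)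
    (σ : ι → Matrix (Bits n) (Bits n) ℂ) :
    tensorPow Φ n (∑ a ∈ s, c a • σ a) = ∑ a ∈ s, c a • tensorPow Φ n (σ a) := by
  ext x y
  simp only [tensorPow, Matrix.sum_apply, Matrix.smul_apply, smul_eq_mul, Finset.mul_sum]
  rw [Finset.sum_comm]
  rw [Finset.sum_comm]
  conv_rhs => rw [Finset.sum_comm]
  apply Finset.sum_congr rfl
  intro x' _
  rw [Finset.sum_comm]
  apply Finset.sum_congr rfl
  intro a _
  apply Finset.sum_congr rfl
  intro y' _
  ring

/-- Kraus representation -/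
def IsKraus {X : Type*} [Fintype X] (T : Matrix X X ℂ → Matrix X X ℂ) : Prop :=
  ∃ (m : ℕ) (K : Fin m → Matrix X X ℂ), ∀ ρ, T ρ = ∑ k, K k * ρ * (K k)ᴴ

theorem isKraus_of_fintype {X : Type*} [Fintype X] {T : Matrix X X ℂ → Matrix X X ℂ}
    {κ : Type*} [Fintype κ] (K : κ → Matrix X X ℂ) (h : ∀ ρ, T ρ = ∑ k, K k * ρ * (K k)ᴴ) :
    IsKraus T := by
  refine ⟨Fintype.card κ, fun k => K ((Fintype.equivFin κ).symm k), fun ρ => ?_⟩
  rw [h ρ, ← (Fintype.equivFin κ).symm.sum_comp]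

/-- tensor product of matrices over the qubits -/
def piMat {n : ℕ} (A : Fin n → Matrix (Fin 2) (Fin 2) ℂ) : Matrix (Bits n) (Bits n) ℂ :=
  fun x y => ∏ i, A i (x i) (y i)

theorem tensorPow_kraus {κ : Type*} [Fintype κ] (K : κ → Matrix (Fin 2) (Fin 2) ℂ)
    (h : ∀ ρ, Φ ρ = ∑ k, K k * ρ * (K k)ᴴ) (n : ℕ) (ρ : Matrix (Bits n) (Bits n) ℂ) :
    tensorPow Φ n ρ = ∑ k : Fin n → κ, piMat (fun i => K (k i)) * ρ *
      (piMat (fun i => K (k i)))ᴴ := by
  classical
  have h1 : ∀ i j a b : Fin 2, Φ (Matrix.single i j 1) a b = ∑ k, K k a i * star (K k b j) := by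
    intro i j a b
    rw [h, Matrix.sum_apply]
    apply Finset.sum_congr rfl
    intro k _
    rw [Matrix.mul_apply, Finset.sum_eq_single j]
    · rw [Matrix.mul_apply, Finset.sum_eq_single i]
      · simp [conjTranspose_apply]
      · intro c _ hc
        simp [Matrix.single, hc.symm]
      · simp
    · intro c _ hc
      rw [Matrix.mul_apply, Finset.sum_eq_single i]
      · simp [Matrix.single, hc.symm]
      · intro c _ hc
        simp [Matrix.single, hc.symm]
      · simp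
    · simp
  ext x y
  unfold tensorPow
  simp only [h1]
  rw [Matrix.sum_apply]
  simp only [Fintype.prod_sum, Finset.sum_mul, Matrix.mul_apply, conjTranspose_apply, piMat,
    star_prod, Finset.prod_mul_distrib]
  rw [Finset.sum_comm]
  have h2 : ∀ (y' : Bits n), ∑ x' : Bits n, ∑ k : Fin n → κ,
      ((∏ i, K (k i) (x i) (x' i)) * ∏ i, star (K (k i) (y i) (y' i))) * ρ x' y'
      = ∑ k : Fin n → κ, ∑ x' : Bits n,
      ((∏ i, K (k i) (x i) (x' i)) * ρ x' y') * ∏ i, star (K (k i) (y i) (y' i)) := by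
    intro y'
    rw [Finset.sum_comm]
    apply Finset.sum_congr rfl
    intro k _
    apply Finset.sum_congr rfl
    intro x' _
    ring
  rw [Finset.sum_congr rfl fun y' _ => h2 y', Finset.sum_comm]

theorem IsKraus.posSemidef {X : Type*} [Fintype X] {T : Matrix X X ℂ → Matrix X X ℂ}
    (hT : IsKraus T) {ρ : Matrix X X ℂ} (hρ : ρ.PosSemidef) : (T ρ).PosSemidef := by
  obtain ⟨m, K, hK⟩ := hT
  rw [hK]
  exact posSemidef_sum _ fun k _ => hρ.mul_mul_conjTranspose_same _

theorem IsKraus.block {X : Type*} [Fintype X] {T : Matrix X X ℂ → Matrix X X ℂ}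
    (hT : IsKraus T) {α Y β : Matrix X X ℂ} (hρ : (fromBlocks α Y Yᴴ β).PosSemidef) :
    (fromBlocks (T α) (T Y) (T Y)ᴴ (T β)).PosSemidef ∧ T Yᴴ = (T Y)ᴴ := by
  classical
  obtain ⟨m, K, hK⟩ := hT
  have hh : T Yᴴ = (T Y)ᴴ := by
    rw [hK, hK, conjTranspose_sum]
    apply Finset.sum_congr rfl
    intro k _
    rw [conjTranspose_mul, conjTranspose_mul, conjTranspose_conjTranspose, Matrix.mul_assoc]
  refine ⟨?_, hh⟩
  rw [← hh]
  have : fromBlocks (T α) (T Y) (T Yᴴ) (T β)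
      = ∑ k, fromBlocks (K k) 0 0 (K k) * fromBlocks α Y Yᴴ β *
        (fromBlocks (K k) 0 0 (K k))ᴴ := by
    have e : ∀ k, fromBlocks (K k) 0 0 (K k) * fromBlocks α Y Yᴴ β *
        (fromBlocks (K k) 0 0 (K k))ᴴ
        = fromBlocks (K k * α * (K k)ᴴ) (K k * Y * (K k)ᴴ) (K k * Yᴴ * (K k)ᴴ)
          (K k * β * (K k)ᴴ) := by
      intro k
      rw [fromBlocks_conjTranspose, fromBlocks_multiply, fromBlocks_multiply]
      simp
    simp only [e]
    rw [hK, hK, hK, hK]
    ext i j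
    rcases i with i | i <;> rcases j with j | j <;> simp [Matrix.sum_apply]
  rw [this]
  exact posSemidef_sum _ fun k _ => hρ.mul_mul_conjTranspose_same _

end Vale.Agent.H28
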