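import Vale.Agent.H28.Nu01

open Matrix Complex Set
open scoped ComplexOrder

namespace Vale.Agent.H28

section gen

variable {X : Type*} [Fintype X] [DecidableEq X]

theorem ent_smul' {A : Matrix X X ℂ} (hA : A.IsHermitian) (c : ℝ) :
    ent ((c : ℂ) • A) = c * ent A + Real.negMulLog c * A.trace.re := by
  obtain ⟨U, h1, h2, h3⟩ := spectral' hA
  have e : (c : ℂ) • A = U * diagonal (fun i => ((c * hA.eigenvalues i : ℝ) : ℂ)) * Uᴴ := by
    conv_lhs => rw [h3]
    have e : (diagonal (fun i => ((c * hA.eigenvalues i : ℝ) : ℂ)) : Matrix X X ℂ)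
        = (c : ℂ) • diagonal (fun i => (hA.eigenvalues i : ℂ)) := by
      ext i j
      by_cases hij : i = j
      · subst hij; simp
      · simp [hij]
    rw [e, Matrix.mul_smul, Matrix.smul_mul]
  rw [e, ent_conj h1, ent_diagonal, ent_eq hA, trace_re_eq hA]
  simp only [Real.negMulLog_mul]
  rw [Finset.sum_add_distrib, Finset.mul_sum, Finset.mul_sum]
  have : ∀ x y : ℝ, x + y = y + x := fun x y => add_comm x y
  rw [this]
  congr 1
  apply Finset.sum_congr rfl
  intro i _
  ring

/-- the binary data-processing inequality for commuting scalars, summed -/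
theorem sum_pair_ge {u v : X → ℝ} (hu : ∀ i, 0 ≤ u i) (hv : ∀ i, 0 ≤ v i) :
    Real.negMulLog (∑ i, u i + ∑ i, v i) - Real.negMulLog (∑ i, u i) - Real.negMulLog (∑ i, v i)
      ≤ ∑ i, (Real.negMulLog (u i + v i) - Real.negMulLog (u i) - Real.negMulLog (v i)) := by
  have key := Lam_sum Finset.univ u v (fun _ => 0) hu hv (fun _ => le_rfl)
  have e : ∀ a b : ℝ, Lam a b 0
      = Real.negMulLog (a + b) - Real.negMulLog a - Real.negMulLog b := by
    intro a b
    unfold Lam
    rw [pairEnt_eq (u := a + b) (v := 0) (by ring) (by ring)]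
    simp
  simp only [Finset.sum_const_zero, e] at key
  exact key

theorem ent_add_ge {A B : Matrix X X ℂ} (hA : A.PosSemidef) (hB : B.PosSemidef) :
    ent A + ent B + Real.negMulLog (A.trace.re + B.trace.re)
      ≤ ent (A + B) + Real.negMulLog A.trace.re + Real.negMulLog B.trace.re := by
  have hAB : (A + B).PosSemidef := hA.add hB
  obtain ⟨U, h1, h2, h3⟩ := spectral' hAB.isHermitian
  set lam := hAB.isHermitian.eigenvalues with hlam
  have hA' : (Uᴴ * A * U).PosSemidef := by
    have := hA.mul_mul_conjTranspose_same Uᴴ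
    rwa [conjTranspose_conjTranspose] at this
  have hB' : (Uᴴ * B * U).PosSemidef := by
    have := hB.mul_mul_conjTranspose_same Uᴴ
    rwa [conjTranspose_conjTranspose] at this
  have hsum : Uᴴ * A * U + Uᴴ * B * U = diagonal (fun i => (lam i : ℂ)) := by
    rw [← Matrix.add_mul, ← Matrix.mul_add]
    conv_lhs => rw [h3]
    calc Uᴴ * (U * diagonal (fun k => (lam k : ℂ)) * Uᴴ) * U
        = (Uᴴ * U) * diagonal (fun k => (lam k : ℂ)) * (Uᴴ * U) := by
          simp only [Matrix.mul_assoc]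
      _ = _ := by rw [h1]; simp
  have eA : ent (Uᴴ * A * U) = ent A := ent_conj h2
  have eB : ent (Uᴴ * B * U) = ent B := ent_conj h2
  have tA : (Uᴴ * A * U).trace = A.trace := by
    rw [Matrix.trace_mul_comm, ← Matrix.mul_assoc, h2, Matrix.one_mul]
  have tB : (Uᴴ * B * U).trace = B.trace := by
    rw [Matrix.trace_mul_comm, ← Matrix.mul_assoc, h2, Matrix.one_mul]
  have dA := ent_le_diag hA'
  have dB := ent_le_diag hB'
  have nA : ∀ x, 0 ≤ ((Uᴴ * A * U) x x).re := fun x =>
    (Complex.nonneg_iff.1 (hA'.diag_nonneg (i := x))).1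
  have nB : ∀ x, 0 ≤ ((Uᴴ * B * U) x x).re := fun x =>
    (Complex.nonneg_iff.1 (hB'.diag_nonneg (i := x))).1
  have hx : ∀ x, ((Uᴴ * A * U) x x).re + ((Uᴴ * B * U) x x).re = lam x := by
    intro x
    have := congrFun (congrFun hsum x) x
    rw [Matrix.add_apply, diagonal_apply_eq] at this
    rw [← Complex.add_re, this, Complex.ofReal_re]
  have key := sum_pair_ge nA nB
  have sA : ∑ x, ((Uᴴ * A * U) x x).re = A.trace.re := by
    rw [← tA, Matrix.trace, Complex.re_sum]; rfl
  have sB : ∑ x, ((Uᴴ * B * U) x x).re = B.trace.re := by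
    rw [← tB, Matrix.trace, Complex.re_sum]; rfl
  rw [sA, sB] at key
  simp only [Finset.sum_sub_distrib, hx] at key
  have e : ent (A + B) = ∑ x, Real.negMulLog (lam x) := ent_eq hAB.isHermitian
  rw [e]
  linarith

theorem zero_of_trace {A : Matrix X X ℂ} (hA : A.PosSemidef) (h : A.trace.re = 0) : A = 0 := by
  have h2 := (Complex.nonneg_iff.1 hA.trace_nonneg).2
  apply (hA.trace_eq_zero_iff).1
  apply Complex.ext
  · simpa using h
  · simpa using h2.symm

end gen

/-- the scalar function of the block inequality in homogeneous form -/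
theorem g_hom {γ ν p q : ℝ} (hp : 0 ≤ p) (hq : 0 ≤ q) :
    Real.negMulLog (p + q) + (p + q) * pairEnt 1
      (((1 - γ) * (q / (p + q)) + γ * ν) * (1 - ((1 - γ) * (q / (p + q)) + γ * ν))
        - (1 - γ) * ((q / (p + q)) * (1 - q / (p + q))))
      = pairEnt (p + q) ((1 - γ * ν) * (γ * ν) * p ^ 2
        + 2 * (γ * (1 - ν)) * (γ * ν) * (p * q) + (γ * (1 - ν)) * (1 - γ + γ * ν) * q ^ 2) := by
  rcases (add_nonneg hp hq).eq_or_lt with h | h
  · have hq0 : q = 0 := by linarith
    have hp0 : p = 0 := by linarith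
    rw [hq0, hp0]
    simp [pairEnt, rootP, rootM]
  · rw [← pairEnt_smul h.le]
    congr 1
    field_simp
    ring

/-- statement of the main block inequality -/
def MainBlock : Prop :=
  ∀ (n : ℕ) (α Y β D E : Matrix (Bits n) (Bits n) ℂ), (fromBlocks α Y Yᴴ β).PosSemidef →
    D.PosSemidef → E.PosSemidef →
    0 < α.trace.re → 0 < β.trace.re → 0 < D.trace.re → 0 < E.trace.re →
    ent α + ent β + ent D + ent E
      + pairEnt (α.trace.re + D.trace.re + β.trace.re + E.trace.re)
        (α.trace.re * E.trace.re + β.trace.re * D.trace.re + D.trace.re * E.trace.re)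
      ≤ ent (fromBlocks (α + D) Y Yᴴ (β + E)) + Real.negMulLog α.trace.re
        + Real.negMulLog β.trace.re + Real.negMulLog D.trace.re + Real.negMulLog E.trace.re

theorem zclaim_of_zero_left {γ ν : ℝ}
    {X : Type*} [Fintype X] [DecidableEq X] {β : Matrix X X ℂ} (hβ : β.PosSemidef) :
    ent (0 : Matrix X X ℂ) + ent β + pairEnt (0 + β.trace.re)
      ((γ * (1 - ν)) * (1 - γ + γ * ν) * β.trace.re ^ 2)
      ≤ ent (outG γ ν 0 0 β) + Real.negMulLog 0 + Real.negMulLog β.trace.re := by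
  have e0 : ent (0 : Matrix X X ℂ) = 0 := by
    have := ent_diagonal (X := X) (fun _ => 0)
    simpa using this
  have e1 : outG γ ν 0 0 β = fromBlocks (((γ * (1 - ν) : ℝ) : ℂ) • β) 0 0
      (((1 - γ + γ * ν : ℝ) : ℂ) • β) := by
    unfold outG; simp
  rw [e0, e1, ent_fromBlocks_diag, ent_smul' hβ.isHermitian, ent_smul' hβ.isHermitian,
    pairEnt_eq (u := (γ * (1 - ν)) * β.trace.re) (v := (1 - γ + γ * ν) * β.trace.re)
      (by ring) (by ring), Real.negMulLog_mul (γ * (1 - ν)) β.trace.re,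
    Real.negMulLog_mul (1 - γ + γ * ν) β.trace.re, Real.negMulLog_zero]
  nlinarith

theorem zclaim_of_zero_right {γ ν : ℝ}
    {X : Type*} [Fintype X] [DecidableEq X] {α : Matrix X X ℂ} (hα : α.PosSemidef) :
    ent α + ent (0 : Matrix X X ℂ) + pairEnt (α.trace.re + 0)
      ((1 - γ * ν) * (γ * ν) * α.trace.re ^ 2)
      ≤ ent (outG γ ν α 0 0) + Real.negMulLog α.trace.re + Real.negMulLog 0 := by
  have e0 : ent (0 : Matrix X X ℂ) = 0 := by
    have := ent_diagonal (X := X) (fun _ => 0)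
    simpa using this
  have e1 : outG γ ν α 0 0 = fromBlocks (((1 - γ * ν : ℝ) : ℂ) • α) 0 0
      (((γ * ν : ℝ) : ℂ) • α) := by
    unfold outG; simp
  rw [e0, e1, ent_fromBlocks_diag, ent_smul' hα.isHermitian, ent_smul' hα.isHermitian,
    pairEnt_eq (u := (1 - γ * ν) * α.trace.re) (v := (γ * ν) * α.trace.re)
      (by ring) (by ring), Real.negMulLog_mul (1 - γ * ν) α.trace.re,
    Real.negMulLog_mul (γ * ν) α.trace.re, Real.negMulLog_zero]
  nlinarith

theorem zclaim_all_of {γ ν : ℝ} (MB : MainBlock) (hγ0 : 0 ≤ γ) (hγ1 : γ ≤ 1) (hν0 : 0 ≤ ν)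
    (hν1 : ν ≤ 1) :
    ZClaim γ ν (fun q => pairEnt 1 (((1 - γ) * q + γ * ν) * (1 - ((1 - γ) * q + γ * ν))
      - (1 - γ) * (q * (1 - q)))) := by
  -- the boundary cases in `ν`
  have hcase0 : ∀ γ : ℝ, 0 ≤ γ → γ ≤ 1 → ZClaim γ 0 (fun q => pairEnt 1
      (((1 - γ) * q + γ * 0) * (1 - ((1 - γ) * q + γ * 0)) - (1 - γ) * (q * (1 - q)))) := by
    intro γ h0 h1
    have := zclaim_zero h0 h1
    have e : (fun q : ℝ => pairEnt 1 (γ * (1 - γ) * q ^ 2)) = (fun q => pairEnt 1
      (((1 - γ) * q + γ * 0) * (1 - ((1 - γ) * q + γ * 0)) - (1 - γ) * (q * (1 - q)))) := by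
      funext q; congr 1; ring
    rwa [e] at this
  have hcase1 : ∀ γ : ℝ, 0 ≤ γ → γ ≤ 1 → ZClaim γ 1 (fun q => pairEnt 1
      (((1 - γ) * q + γ * 1) * (1 - ((1 - γ) * q + γ * 1)) - (1 - γ) * (q * (1 - q)))) := by
    intro γ h0 h1
    have := zclaim_one h0 h1
    have e : (fun q : ℝ => pairEnt 1 (γ * (1 - γ) * (1 - q) ^ 2)) = (fun q => pairEnt 1
      (((1 - γ) * q + γ * 1) * (1 - ((1 - γ) * q + γ * 1)) - (1 - γ) * (q * (1 - q)))) := by
      funext q; congr 1; ring
    rwa [e] at this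
  rcases hν0.eq_or_lt with hν | hν0'
  · rw [← hν]; exact hcase0 γ hγ0 hγ1
  rcases hν1.eq_or_lt with hν | hν1'
  · rw [hν]; exact hcase1 γ hγ0 hγ1
  rcases hγ0.eq_or_lt with hγ | hγ0'
  · rw [← hγ]
    have h := hcase0 0 le_rfl zero_le_one
    intro n α Y β hρ
    have := h n α Y β hρ
    have e1 : outG 0 ν α Y β = outG 0 0 α Y β := by unfold outG; simp
    simp only [zero_mul] at this ⊢
    rw [e1]
    exact this
  intro n α Y β hρ
  have hα : α.PosSemidef := hρ.submatrix (Sum.inl : Bits n → Bits n ⊕ Bits n)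
  have hβ : β.PosSemidef := hρ.submatrix (Sum.inr : Bits n → Bits n ⊕ Bits n)
  have hp : 0 ≤ α.trace.re := (Complex.nonneg_iff.1 hα.trace_nonneg).1
  have hq : 0 ≤ β.trace.re := (Complex.nonneg_iff.1 hβ.trace_nonneg).1
  simp only
  rw [g_hom hp hq]
  rcases hγ1.eq_or_lt with hγ | hγ1'
  · -- complete damping
    subst hγ
    have e1 : outG 1 ν α Y β = fromBlocks (((1 - ν : ℝ) : ℂ) • (α + β)) 0 0
        (((ν : ℝ) : ℂ) • (α + β)) := by
      unfold outG
      simp [smul_add]
    have hs := ent_add_ge hα hβ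
    rw [e1, ent_fromBlocks_diag, ent_smul' (hα.add hβ).isHermitian,
      ent_smul' (hα.add hβ).isHermitian, Matrix.trace_add, Complex.add_re]
    rw [pairEnt_eq (u := (1 - ν) * (α.trace.re + β.trace.re))
      (v := ν * (α.trace.re + β.trace.re)) (by ring) (by ring), Real.negMulLog_mul,
      Real.negMulLog_mul]
    nlinarith
  rcases hp.eq_or_lt with hp0 | hp0
  · -- first block vanishes
    have hα0 := zero_of_trace hα hp0.symm
    have hY : Y = 0 := by
      ext i j
      have h := posSemidef_col_zero hρ (i := Sum.inl i) (by rw [hα0]; simp) (Sum.inr j)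
      simp only [fromBlocks_apply₂₁, conjTranspose_apply] at h
      have := star_eq_zero.1 h
      simpa using this
    subst hα0; subst hY
    have := zclaim_of_zero_left (γ := γ) (ν := ν) hβ
    simpa using this
  rcases hq.eq_or_lt with hq0 | hq0
  · have hβ0 := zero_of_trace hβ hq0.symm
    have hY : Y = 0 := by
      ext i j
      have h := posSemidef_col_zero hρ (i := Sum.inr j) (by rw [hβ0]; simp) (Sum.inl i)
      simpa using h
    subst hβ0; subst hY
    have := zclaim_of_zero_right (γ := γ) (ν := ν) hα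
    simpa using this
  -- the generic case
  set a : ℝ := 1 - γ * ν with ha
  set b : ℝ := γ * (1 - ν) with hb
  set c : ℝ := 1 - γ + γ * ν with hc
  set d : ℝ := γ * ν with hd
  set η : ℝ := 1 - γ with hη
  have hd0 : 0 < d := mul_pos hγ0' hν0'
  have hb0 : 0 < b := mul_pos hγ0' (by linarith)
  have hη0 : 0 < η := by rw [hη]; linarith
  have had : a = 1 - d := ha
  have ha0 : 0 < a := by rw [had]; nlinarith
  have hc0 : 0 < c := by rw [hc]; nlinarith
  have hbc : b + c = 1 := by rw [hb, hc]; ring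
  have hdet : a * c = η + b * d := by rw [ha, hb, hc, hd, hη]; ring
  have hηa : 0 < η / a := div_pos hη0 ha0
  have hbda : 0 ≤ b * d / a := by positivity
  -- rescaled positive block matrix
  have hρ2 : (fromBlocks ((a : ℂ) • α) ((Real.sqrt η : ℂ) • Y) ((Real.sqrt η : ℂ) • Y)ᴴ
      (((η / a : ℝ) : ℂ) • β)).PosSemidef := by
    have h1 := hρ.mul_mul_conjTranspose_same
      (fromBlocks ((Real.sqrt a : ℂ) • (1 : Matrix (Bits n) (Bits n) ℂ)) 0 0
        ((Real.sqrt (η / a) : ℂ) • (1 : Matrix (Bits n) (Bits n) ℂ)))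
    have s1 : ((Real.sqrt a : ℝ) : ℂ) * ((Real.sqrt a : ℝ) : ℂ) = ((a : ℝ) : ℂ) := by
      rw [← Complex.ofReal_mul, Real.mul_self_sqrt ha0.le]
    have s2 : ((Real.sqrt (η / a) : ℝ) : ℂ) * ((Real.sqrt (η / a) : ℝ) : ℂ)
        = ((η / a : ℝ) : ℂ) := by
      rw [← Complex.ofReal_mul, Real.mul_self_sqrt hηa.le]
    have s3 : ((Real.sqrt a : ℝ) : ℂ) * ((Real.sqrt (η / a) : ℝ) : ℂ)
        = ((Real.sqrt η : ℝ) : ℂ) := by
      rw [← Complex.ofReal_mul, ← Real.sqrt_mul ha0.le, mul_div_cancel₀ _ ha0.ne']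
    have s3' : ((Real.sqrt (η / a) : ℝ) : ℂ) * ((Real.sqrt a : ℝ) : ℂ)
        = ((Real.sqrt η : ℝ) : ℂ) := by rw [mul_comm, s3]
    have e : fromBlocks ((Real.sqrt a : ℂ) • (1 : Matrix (Bits n) (Bits n) ℂ)) 0 0
        ((Real.sqrt (η / a) : ℂ) • (1 : Matrix (Bits n) (Bits n) ℂ)) * fromBlocks α Y Yᴴ β *
        (fromBlocks ((Real.sqrt a : ℂ) • (1 : Matrix (Bits n) (Bits n) ℂ)) 0 0
        ((Real.sqrt (η / a) : ℂ) • (1 : Matrix (Bits n) (Bits n) ℂ)))ᴴ
        = fromBlocks ((a : ℂ) • α) ((Real.sqrt η : ℂ) • Y) ((Real.sqrt η : ℂ) • Y)ᴴ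
          (((η / a : ℝ) : ℂ) • β) := by
      simp only [fromBlocks_conjTranspose, fromBlocks_multiply, conjTranspose_smul,
        conjTranspose_one, conjTranspose_zero, Matrix.mul_zero, Matrix.zero_mul, add_zero,
        zero_add, Matrix.mul_smul, Matrix.smul_mul, Matrix.mul_one, Matrix.one_mul, smul_zero,
        smul_smul, Complex.star_def, Complex.conj_ofReal, s1, s2, s3, s3']
    rwa [e] at h1
  have hD : (((b : ℝ) : ℂ) • β).PosSemidef := smul_posSemidef hβ hb0.le
  have hE1 : (((d : ℝ) : ℂ) • α).PosSemidef := smul_posSemidef hα hd0.le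
  have hE2 : (((b * d / a : ℝ) : ℂ) • β).PosSemidef := smul_posSemidef hβ hbda
  have hE := hE1.add hE2
  set p := α.trace.re with hpdef
  set q := β.trace.re with hqdef
  have t1 : (((a : ℝ) : ℂ) • α).trace.re = a * p := by
    rw [Matrix.trace_smul, smul_eq_mul, Complex.re_ofReal_mul]
  have t2 : (((η / a : ℝ) : ℂ) • β).trace.re = η / a * q := by
    rw [Matrix.trace_smul, smul_eq_mul, Complex.re_ofReal_mul]
  have t3 : (((b : ℝ) : ℂ) • β).trace.re = b * q := by
    rw [Matrix.trace_smul, smul_eq_mul, Complex.re_ofReal_mul]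
  have t4 : (((d : ℝ) : ℂ) • α).trace.re = d * p := by
    rw [Matrix.trace_smul, smul_eq_mul, Complex.re_ofReal_mul]
  have t5 : (((b * d / a : ℝ) : ℂ) • β).trace.re = b * d / a * q := by
    rw [Matrix.trace_smul, smul_eq_mul, Complex.re_ofReal_mul]
  have t6 : (((d : ℝ) : ℂ) • α + ((b * d / a : ℝ) : ℂ) • β).trace.re
      = d * p + b * d / a * q := by
    rw [Matrix.trace_add, Complex.add_re, t4, t5]
  have key := MB n _ _ _ _ _ hρ2 hD hE (by rw [t1]; positivity) (by rw [t2]; positivity)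
    (by rw [t3]; positivity) (by rw [t6]; positivity)
  have hM : fromBlocks (((a : ℝ) : ℂ) • α + ((b : ℝ) : ℂ) • β) ((Real.sqrt η : ℂ) • Y)
      ((Real.sqrt η : ℂ) • Y)ᴴ
      (((η / a : ℝ) : ℂ) • β + (((d : ℝ) : ℂ) • α + ((b * d / a : ℝ) : ℂ) • β))
      = outG γ ν α Y β := by
    unfold outG
    have hc' : ((c : ℝ) : ℂ) = ((η / a : ℝ) : ℂ) + ((b * d / a : ℝ) : ℂ) := by
      rw [← Complex.ofReal_add]
      congr 1
      field_simp
      linarith
    rw [← ha, ← hb, ← hc, ← hd, ← hη, hc', conjTranspose_smul, Complex.star_def,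
      Complex.conj_ofReal, add_smul]
    congr 1
    abel
  rw [hM, t1, t2, t3, t6, ent_smul' hα.isHermitian, ent_smul' hβ.isHermitian,
    ent_smul' hβ.isHermitian] at key
  have hstar := ent_add_ge hE1 hE2
  rw [t4, t5, ent_smul' hα.isHermitian, ent_smul' hβ.isHermitian] at hstar
  have hpair : pairEnt (a * p + b * q + η / a * q + (d * p + b * d / a * q))
      (a * p * (d * p + b * d / a * q) + η / a * q * (b * q) + b * q * (d * p + b * d / a * q))
      = pairEnt (p + q) (a * d * p ^ 2 + 2 * b * d * (p * q) + b * c * q ^ 2) := by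
    have hca : c = (η + b * d) / a := by rw [eq_div_iff ha0.ne']; linarith
    congr 1
    · have : a * p + d * p = p := by rw [had]; ring
      have h2 : b * q + η / a * q + b * d / a * q = q := by
        have : η / a * q + b * d / a * q = c * q := by rw [hca]; ring
        linear_combination this + q * hbc
      linarith
    · rw [hca]
      field_simp
      ring
  rw [hpair] at key
  rw [← hpdef, ← hqdef] at key hstar
  rw [Real.negMulLog_mul a p, Real.negMulLog_mul (η / a) q, Real.negMulLog_mul b q] at key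
  rw [Real.negMulLog_mul d p, Real.negMulLog_mul (b * d / a) q] at hstar
  have hca : η / a + b + b * d / a = 1 := by
    have : η / a + b * d / a = c := by
      field_simp; linarith
    linarith
  have hA1 : a * (ent α - Real.negMulLog p) + d * (ent α - Real.negMulLog p)
      = ent α - Real.negMulLog p := by rw [had]; ring
  have hB1 : η / a * (ent β - Real.negMulLog q) + b * (ent β - Real.negMulLog q)
      + b * d / a * (ent β - Real.negMulLog q) = ent β - Real.negMulLog q := by
    rw [← add_mul, ← add_mul, hca, one_mul]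
  linarith

end Vale.Agent.H28
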